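import Mathlib

/-!
# P133: closed ideals in a unital C*-algebra, elementary facts
-/

set_option linter.unusedSectionVars false

namespace Vale.Agent.P133o

/-- Closed two-sided ideals of a unital `C*`-algebra. -/
structure IsCI {M : Type*} [CStarAlgebra M] (Q : Submodule ℂ M) : Prop where
  closed : IsClosed (Q : Set M)
  left : ∀ a x, x ∈ Q → a * x ∈ Q
  right : ∀ a x, x ∈ Q → x * a ∈ Q

variable {M : Type*} [CStarAlgebra M] [PartialOrder M] [StarOrderedRing M]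
variable {Q : Submodule ℂ M}

theorem IsCI.of_approx (hQ : IsCI Q) {x : M} (h : ∀ ε > 0, ∃ y ∈ Q, ‖x - y‖ ≤ ε) : x ∈ Q := by
  have : x ∈ closure (Q : Set M) := by
    rw [Metric.mem_closure_iff]
    intro ε hε
    obtain ⟨y, hy, hxy⟩ := h (ε / 2) (by positivity)
    exact ⟨y, hy, by rw [dist_eq_norm]; linarith⟩
  rwa [hQ.closed.closure_eq] at this

theorem smulR_mem {x : M} (hx : x ∈ Q) (r : ℝ) : r • x ∈ Q := by
  rw [← Complex.coe_smul]
  exact Q.smul_mem _ hx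

/-- `e κ q = q (q + κ)⁻¹`. -/
noncomputable def eF (κ : ℝ) (q : M) : M := cfc (fun t : ℝ => t / (max t 0 + κ)) q

theorem eF_isSelfAdjoint (κ : ℝ) (q : M) : IsSelfAdjoint (eF κ q) := by
  unfold eF
  cfc_tac

theorem cont_aux {κ : ℝ} (hκ : 0 < κ) : Continuous fun t : ℝ => (max t 0 + κ)⁻¹ := by
  refine Continuous.inv₀ (by fun_prop) fun t => ?_
  have : 0 ≤ max t 0 := le_max_right _ _
  linarith

/-- multiplication by the identity function -/
theorem cfc_id_mul {g : ℝ → ℝ} (hg : Continuous g) {q : M} (hs : IsSelfAdjoint q) :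
    cfc (fun t : ℝ => t * g t) q = q * cfc g q := by
  rw [cfc_mul (fun t : ℝ => t) g q continuousOn_id hg.continuousOn, cfc_id' ℝ q]

theorem cfc_mul_id {g : ℝ → ℝ} (hg : Continuous g) {q : M} (hs : IsSelfAdjoint q) :
    cfc (fun t : ℝ => g t * t) q = cfc g q * q := by
  rw [cfc_mul g (fun t : ℝ => t) q hg.continuousOn continuousOn_id, cfc_id' ℝ q]

theorem eF_mem (hQ : IsCI Q) {κ : ℝ} (hκ : 0 < κ) {q : M} (hq : q ∈ Q) (hs : IsSelfAdjoint q) :
    eF κ q ∈ Q := by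
  have h1 : eF κ q = q * cfc (fun t : ℝ => (max t 0 + κ)⁻¹) q := by
    rw [← cfc_id_mul (cont_aux hκ) hs]
    rfl
  rw [h1]
  exact hQ.right _ _ hq

theorem one_sub_eF {κ : ℝ} (hκ : 0 < κ) {q : M} (hq : 0 ≤ q) :
    1 - eF κ q = cfc (fun t : ℝ => κ / (max t 0 + κ)) q := by
  have hs : IsSelfAdjoint q := IsSelfAdjoint.of_nonneg hq
  have hc : Continuous fun t : ℝ => t / (max t 0 + κ) := continuous_id.mul (cont_aux hκ)
  unfold eF
  rw [← cfc_const_one ℝ q, ← cfc_sub (fun _ : ℝ => (1 : ℝ)) _ q continuousOn_const hc.continuousOn]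
  refine cfc_congr fun t ht => ?_
  have h0 : 0 ≤ t := spectrum_nonneg_of_nonneg hq ht
  simp only [max_eq_left h0]
  field_simp
  ring

theorem conj_eF_le {κ : ℝ} (hκ : 0 < κ) {q : M} (hq : 0 ≤ q) :
    ‖(1 - eF κ q) * q * (1 - eF κ q)‖ ≤ κ := by
  have hs : IsSelfAdjoint q := IsSelfAdjoint.of_nonneg hq
  have hc : Continuous fun t : ℝ => κ / (max t 0 + κ) := continuous_const.mul (cont_aux hκ)
  rw [one_sub_eF hκ hq, ← cfc_mul_id hc hs, ← cfc_mul (fun t : ℝ => κ / (max t 0 + κ) * t)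
    (fun t : ℝ => κ / (max t 0 + κ)) q (hc.mul continuous_id).continuousOn hc.continuousOn]
  refine norm_cfc_le hκ.le fun t ht => ?_
  have h0 : 0 ≤ t := spectrum_nonneg_of_nonneg hq ht
  simp only [max_eq_left h0]
  rw [Real.norm_eq_abs, abs_of_nonneg (by positivity)]
  have h1 : 0 < t + κ := by linarith
  rw [div_mul_eq_mul_div, div_mul_div_comm, div_le_iff₀ (by positivity)]
  have h2 : t * κ ≤ (t + κ) * (t + κ) := by nlinarith [mul_nonneg h0 hκ.le]
  nlinarith [mul_le_mul_of_nonneg_left h2 hκ.le]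

theorem star_one_sub_eF (κ : ℝ) (q : M) : star (1 - eF κ q) = 1 - eF κ q := by
  rw [star_sub, star_one, (eF_isSelfAdjoint κ q).star_eq]

/-- closed ideals are closed under the involution -/
theorem IsCI.star_mem (hQ : IsCI Q) {s : M} (hs : s ∈ Q) : star s ∈ Q := by
  have hq : s * star s ∈ Q := hQ.right _ _ hs
  have hq0 : 0 ≤ s * star s := mul_star_self_nonneg s
  refine hQ.of_approx fun ε hε => ?_
  have hκ : 0 < ε ^ 2 := by positivity
  refine ⟨star s * eF (ε ^ 2) (s * star s), hQ.left _ _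
    (eF_mem hQ hκ hq (IsSelfAdjoint.of_nonneg hq0)), ?_⟩
  have e1 : star s - star s * eF (ε ^ 2) (s * star s) = star s * (1 - eF (ε ^ 2) (s * star s)) := by
    rw [mul_sub, mul_one]
  rw [e1]
  have h1 := conj_eF_le hκ hq0
  have h2 : (1 - eF (ε ^ 2) (s * star s)) * (s * star s) * (1 - eF (ε ^ 2) (s * star s)) =
      star (star s * (1 - eF (ε ^ 2) (s * star s))) * (star s * (1 - eF (ε ^ 2) (s * star s))) := by
    rw [star_mul, star_star, star_one_sub_eF]
    noncomm_ring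
  rw [h2, CStarRing.norm_star_mul_self] at h1
  nlinarith [norm_nonneg (star s * (1 - eF (ε ^ 2) (s * star s)))]

/-- a positive square root -/
theorem exists_sqrt {b : M} (hb : 0 ≤ b) : ∃ r : M, 0 ≤ r ∧ r * r = b := by
  refine ⟨CFC.sqrt b, CFC.sqrt_nonneg b, CFC.sqrt_mul_sqrt_self b hb⟩

/-- closed ideals are hereditary, with the square root -/
theorem IsCI.hered_sqrt (hQ : IsCI Q) {r q : M} (hr : IsSelfAdjoint r) (hq : q ∈ Q)
    (hle : r * r ≤ q) : r ∈ Q := by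
  have hrr : 0 ≤ r * r := by
    have := star_mul_self_nonneg r
    rwa [hr.star_eq] at this
  have hq0 : 0 ≤ q := hrr.trans hle
  refine hQ.of_approx fun ε hε => ?_
  have hκ : 0 < ε ^ 2 := by positivity
  refine ⟨r * eF (ε ^ 2) q, hQ.left _ _ (eF_mem hQ hκ hq (IsSelfAdjoint.of_nonneg hq0)), ?_⟩
  have e1 : r - r * eF (ε ^ 2) q = r * (1 - eF (ε ^ 2) q) := by rw [mul_sub, mul_one]
  rw [e1]
  have h1 := conj_eF_le hκ hq0
  have h3 : star (1 - eF (ε ^ 2) q) * (r * r) * (1 - eF (ε ^ 2) q) ≤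
      star (1 - eF (ε ^ 2) q) * q * (1 - eF (ε ^ 2) q) := star_left_conjugate_le_conjugate hle _
  have h4 : 0 ≤ star (1 - eF (ε ^ 2) q) * (r * r) * (1 - eF (ε ^ 2) q) :=
    star_left_conjugate_nonneg hrr _
  have h5 := CStarAlgebra.norm_le_norm_of_nonneg_of_le h4 h3
  rw [star_one_sub_eF] at h5
  have h2 : (1 - eF (ε ^ 2) q) * (r * r) * (1 - eF (ε ^ 2) q) =
      star (r * (1 - eF (ε ^ 2) q)) * (r * (1 - eF (ε ^ 2) q)) := by
    rw [star_mul, star_one_sub_eF, hr.star_eq]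
    noncomm_ring
  rw [h2, CStarRing.norm_star_mul_self] at h5
  nlinarith [norm_nonneg (r * (1 - eF (ε ^ 2) q))]

theorem IsCI.hered (hQ : IsCI Q) {b q : M} (hb : 0 ≤ b) (hq : q ∈ Q) (hle : b ≤ q) : b ∈ Q := by
  obtain ⟨r, hr, hrb⟩ := exists_sqrt hb
  rw [← hrb]
  exact hQ.right _ _ (hQ.hered_sqrt (IsSelfAdjoint.of_nonneg hr) hq (by rwa [hrb]))

/-- the ideal as a nonunital star subalgebra -/
def IsCI.toStar (hQ : IsCI Q) : NonUnitalStarSubalgebra ℂ M where
  carrier := Q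
  add_mem' := fun ha hb => Q.add_mem ha hb
  zero_mem' := Q.zero_mem
  mul_mem' := fun ha _ => hQ.right _ _ ha
  smul_mem' := fun c _ hx => Q.smul_mem c hx
  star_mem' := fun hx => hQ.star_mem hx

theorem IsCI.cfc_mem (hQ : IsCI Q) {f : ℝ → ℝ} (hf : Continuous f) (hf0 : f 0 = 0) {a : M}
    (ha : a ∈ Q) : cfc f a ∈ Q := by
  rw [← cfcₙ_eq_cfc (hf.continuousOn) hf0]
  have : IsClosed (hQ.toStar : Set M) := hQ.closed
  exact cfcₙ_mem (s := hQ.toStar) f (show a ∈ hQ.toStar from ha)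

/-- `(a - c)_+` -/
noncomputable def pc (c : ℝ) (a : M) : M := cfc (fun t : ℝ => max (t - c) 0) a

theorem pc_nonneg (c : ℝ) (a : M) : 0 ≤ pc c a := cfc_nonneg fun _ _ => le_max_right _ _

theorem pc_sa (c : ℝ) (a : M) : IsSelfAdjoint (pc c a) := IsSelfAdjoint.of_nonneg (pc_nonneg c a)

theorem pc_mem (hQ : IsCI Q) {c : ℝ} (hc : 0 ≤ c) {a : M} (ha : a ∈ Q) : pc c a ∈ Q :=
  hQ.cfc_mem (by fun_prop) (by simp [hc]) ha

theorem le_add_pc (c : ℝ) {a : M} (ha : IsSelfAdjoint a) : a ≤ algebraMap ℝ M c + pc c a := by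
  have h1 : algebraMap ℝ M c + pc c a = cfc (fun t : ℝ => c + max (t - c) 0) a := by
    unfold pc
    rw [cfc_add a (fun _ : ℝ => c) (fun t : ℝ => max (t - c) 0) (by fun_prop) (by fun_prop),
      cfc_const c a]
  rw [h1]
  conv_lhs => rw [← cfc_id' ℝ a]
  refine cfc_mono fun t _ => ?_
  have := le_max_left (t - c) 0
  linarith

theorem norm_sub_pc_le {c : ℝ} (hc : 0 ≤ c) {a : M} (ha : 0 ≤ a) : ‖a - pc c a‖ ≤ c := by
  have hs : IsSelfAdjoint a := IsSelfAdjoint.of_nonneg ha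
  have h1 : a - pc c a = cfc (fun t : ℝ => t - max (t - c) 0) a := by
    unfold pc
    rw [cfc_sub (fun t : ℝ => t) (fun t : ℝ => max (t - c) 0) a (by fun_prop) (by fun_prop),
      cfc_id' ℝ a]
  rw [h1]
  refine norm_cfc_le hc fun t ht => ?_
  have h0 : 0 ≤ t := spectrum_nonneg_of_nonneg ha ht
  rw [Real.norm_eq_abs, abs_le]
  rcases le_total (t - c) 0 with h | h
  · rw [max_eq_right h]
    constructor <;> linarith
  · rw [max_eq_left h]
    constructor <;> linarith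

/-- powers -/
theorem mem_of_pow_mem (hQ : IsCI Q) {p : M} (hp : 0 ≤ p) {m : ℕ} (hm : 1 ≤ m) (h : p ^ m ∈ Q) :
    p ∈ Q := by
  have hs : IsSelfAdjoint p := IsSelfAdjoint.of_nonneg hp
  refine hQ.of_approx fun ε hε => ?_
  refine ⟨pc ε p, ?_, norm_sub_pc_le hε.le hp⟩
  obtain ⟨k, rfl⟩ : ∃ k, m = k + 1 := ⟨m - 1, by omega⟩
  refine hQ.hered (q := ((ε ^ k)⁻¹ : ℝ) • p ^ (k + 1)) (pc_nonneg _ _) (smulR_mem h _) ?_
  have h1 : ((ε ^ k)⁻¹ : ℝ) • p ^ (k + 1) = cfc (fun t : ℝ => (ε ^ k)⁻¹ * t ^ (k + 1)) p := by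
    rw [cfc_const_mul _ (fun t : ℝ => t ^ (k + 1)) p (by fun_prop), cfc_pow_id p (k + 1)]
  rw [h1]
  refine cfc_mono (fun t ht => ?_) (by fun_prop) (by fun_prop)
  have h0 : 0 ≤ t := spectrum_nonneg_of_nonneg hp ht
  have h2 : 0 ≤ (ε ^ k)⁻¹ * t ^ (k + 1) := by positivity
  refine max_le ?_ h2
  rcases le_total t ε with h3 | h3
  · linarith
  · have h4 : ε ^ k ≤ t ^ k := pow_le_pow_left₀ hε.le h3 k
    have h5 : t ≤ (ε ^ k)⁻¹ * t ^ (k + 1) := by
      rw [pow_succ, ← mul_assoc]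
      have h6 : 1 ≤ (ε ^ k)⁻¹ * t ^ k := by
        rw [inv_mul_eq_div, one_le_div (by positivity)]
        exact h4
      nlinarith
    linarith

/-- the main positivity lemma -/
theorem pc_mem_of_le (hQ : IsCI Q) {a q : M} (ha : IsSelfAdjoint a) (hq : q ∈ Q) {c : ℝ}
    {F : ℝ → ℝ} (hF : Continuous F) (hle : cfc F a ≤ q) {m : ℕ} (hm : 1 ≤ m)
    (hFm : ∀ t ∈ spectrum ℝ a, (max (t - c) 0) ^ m ≤ max (t - c) 0 * F t * max (t - c) 0) :
    pc c a ∈ Q := by
  refine mem_of_pow_mem hQ (pc_nonneg c a) hm ?_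
  refine hQ.hered (q := pc c a * q * pc c a) (CStarAlgebra.pow_nonneg (pc_nonneg c a) m)
    (hQ.right _ _ (hQ.left _ _ hq)) ?_
  have h1 : pc c a * cfc F a * pc c a ≤ pc c a * q * pc c a := by
    have := star_left_conjugate_le_conjugate hle (pc c a)
    rwa [(pc_sa c a).star_eq] at this
  refine le_trans ?_ h1
  have h2 : pc c a ^ m = cfc (fun t : ℝ => (max (t - c) 0) ^ m) a := by
    unfold pc
    rw [cfc_pow (fun t : ℝ => max (t - c) 0) m a (by fun_prop)]
  have h3 : pc c a * cfc F a * pc c a =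
      cfc (fun t : ℝ => max (t - c) 0 * F t * max (t - c) 0) a := by
    unfold pc
    rw [cfc_mul (fun t : ℝ => max (t - c) 0 * F t) (fun t : ℝ => max (t - c) 0) a
      (by fun_prop) (by fun_prop),
      cfc_mul (fun t : ℝ => max (t - c) 0) F a (by fun_prop) (by fun_prop)]
  rw [h2, h3]
  exact cfc_mono hFm (by fun_prop) (by fun_prop)

/-- `a ≤ c + q` implies `(a - c)_+ ∈ Q`. -/
theorem pc_mem_of_le_add (hQ : IsCI Q) {a q : M} (ha : IsSelfAdjoint a) (hq : q ∈ Q) {c : ℝ}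
    (hle : a ≤ algebraMap ℝ M c + q) : pc c a ∈ Q := by
  refine pc_mem_of_le hQ ha hq (F := fun t => t - c) (by fun_prop) ?_ (m := 3) (by norm_num) ?_
  · rw [cfc_sub (fun t : ℝ => t) (fun _ : ℝ => c) a (by fun_prop) (by fun_prop), cfc_id' ℝ a,
      cfc_const c a]
    rwa [sub_le_iff_le_add, add_comm]
  · intro t _
    rcases le_total (t - c) 0 with h | h
    · rw [max_eq_right h]; simp
    · rw [max_eq_left h]
      apply le_of_eq
      ring

/-- `a² ≤ c² + q` implies `(a - c)_+ ∈ Q` for positive `a`. -/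
theorem pc_mem_of_sq_le (hQ : IsCI Q) {a q : M} (ha : 0 ≤ a) (hq : q ∈ Q) {c : ℝ} (hc : 0 ≤ c)
    (hle : a * a ≤ algebraMap ℝ M (c ^ 2) + q) : pc c a ∈ Q := by
  have hs : IsSelfAdjoint a := IsSelfAdjoint.of_nonneg ha
  refine pc_mem_of_le hQ hs hq (F := fun t => t * t - c ^ 2) (by fun_prop) ?_ (m := 4)
    (by norm_num) ?_
  · rw [cfc_sub (fun t : ℝ => t * t) (fun _ : ℝ => c ^ 2) a (by fun_prop) (by fun_prop),
      cfc_mul (fun t : ℝ => t) (fun t : ℝ => t) a (by fun_prop) (by fun_prop), cfc_id' ℝ a,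
      cfc_const _ a]
    rwa [sub_le_iff_le_add, add_comm]
  · intro t ht
    have h0 : 0 ≤ t := spectrum_nonneg_of_nonneg ha ht
    rcases le_total (t - c) 0 with h | h
    · rw [max_eq_right h]; simp
    · rw [max_eq_left h]
      have : (t - c) * (t * t - c ^ 2) * (t - c) - (t - c) ^ 4 = (t - c) ^ 3 * (2 * c) := by ring
      nlinarith [mul_nonneg (pow_nonneg h 3) (mul_nonneg zero_le_two hc)]

/-- `a² ≤ μ a + q` implies `(a - μ)_+ ∈ Q` for positive `a`. -/
theorem pc_mem_of_sq_le_smul (hQ : IsCI Q) {a q : M} (ha : 0 ≤ a) (hq : q ∈ Q) {c : ℝ}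
    (hc : 0 ≤ c) (hle : a * a ≤ c • a + q) : pc c a ∈ Q := by
  have hs : IsSelfAdjoint a := IsSelfAdjoint.of_nonneg ha
  refine pc_mem_of_le hQ hs hq (F := fun t => t * t - c * t) (by fun_prop) ?_ (m := 4)
    (by norm_num) ?_
  · rw [cfc_sub (fun t : ℝ => t * t) (fun t : ℝ => c * t) a (by fun_prop) (by fun_prop),
      cfc_mul (fun t : ℝ => t) (fun t : ℝ => t) a (by fun_prop) (by fun_prop), cfc_id' ℝ a,
      cfc_const_mul c (fun t : ℝ => t) a (by fun_prop), cfc_id' ℝ a]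
    rwa [sub_le_iff_le_add, add_comm]
  · intro t ht
    have h0 : 0 ≤ t := spectrum_nonneg_of_nonneg ha ht
    rcases le_total (t - c) 0 with h | h
    · rw [max_eq_right h]; simp
    · rw [max_eq_left h]
      have : (t - c) * (t * t - c * t) * (t - c) - (t - c) ^ 4 = (t - c) ^ 3 * c := by ring
      nlinarith [mul_nonneg (pow_nonneg h 3) hc]

/-- if `a` is `ε`-close to the ideal then `(a - ε)_+` is in the ideal. -/
theorem pc_mem_of_norm_sub_le (hQ : IsCI Q) {a s : M} (ha : IsSelfAdjoint a) (hs : s ∈ Q) {ε : ℝ}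
    (h : ‖a - s‖ ≤ ε) : pc ε a ∈ Q := by
  set r : M := (1 / 2 : ℝ) • (s + star s) with hr
  have hrs : IsSelfAdjoint r := by
    rw [IsSelfAdjoint, hr, star_smul, star_add, star_star, add_comm]
    simp
  have hrQ : r ∈ Q := smulR_mem (Q.add_mem hs (hQ.star_mem hs)) _
  have hp : pc 0 r ∈ Q := pc_mem hQ le_rfl hrQ
  have h1 : a - r = (1 / 2 : ℝ) • ((a - s) + star (a - s)) := by
    rw [hr, star_sub, ha.star_eq]
    have : a = (1 / 2 : ℝ) • (a + a) := by
      rw [← two_smul ℝ a, smul_smul]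
      norm_num
    conv_lhs => rw [this]
    rw [← smul_sub]
    congr 1
    abel
  have h2 : ‖a - r‖ ≤ ε := by
    rw [h1, norm_smul]
    have h3 := norm_add_le (a - s) (star (a - s))
    rw [norm_star] at h3
    rw [Real.norm_eq_abs, abs_of_nonneg (by norm_num)]
    linarith
  have h4 : a - r ≤ algebraMap ℝ M ε := by
    have h5 := IsSelfAdjoint.le_algebraMap_norm_self (a := a - r) (ha.sub hrs)
    refine h5.trans ?_
    exact algebraMap_mono M h2
  refine pc_mem_of_le_add hQ ha hp ?_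
  have h6 : r ≤ pc 0 r := by
    have := le_add_pc 0 hrs
    rwa [map_zero, zero_add] at this
  calc a = (a - r) + r := by abel
    _ ≤ algebraMap ℝ M ε + pc 0 r := add_le_add h4 h6

end Vale.Agent.P133o
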