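import Vale.Agent.P133o.Defs

/-!
# P133: the finiteness condition on the closed ideals
-/

namespace Vale.Agent.P133o

variable (A : Type*) [NonUnitalCStarAlgebra A]

/-- For every positive `h` and `ε > 0` there are finitely many closed two-sided ideals, none of
them containing `h`, such that every closed two-sided ideal `I` with `‖h + I‖ ≥ ε` (norm in the
quotient `A / I`) is contained in one of them. -/
def FiniteTests : Prop :=
  ∀ h : A, IsPositiveElt h → ∀ ε : ℝ, 0 < ε → ∃ (m : ℕ) (N : Fin m → Submodule ℂ A),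
    (∀ j, IsClosedIdeal A (N j) ∧ h ∉ N j) ∧
      ∀ I : Submodule ℂ A, IsClosedIdeal A I → (∀ x ∈ I, ε ≤ ‖h - x‖) → ∃ j, I ≤ N j

end Vale.Agent.P133o
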