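import Vale.Agent.P133o.DefsB

/-!
# P133: comparison of amplifications, and the assembly of part (b)
-/

set_option linter.unusedSectionVars false
set_option linter.unusedVariables false

namespace Vale.Agent.P133o

variable {M : Type*} [CStarAlgebra M] [PartialOrder M] [StarOrderedRing M]
variable {Q A : Submodule ℂ M}

/-- `x ⊗ 1_ι` is below `y ⊗ 1_κ` up to `δ`, with coefficients in `A` -/
def LeD (ι κ : Type) [Fintype κ] [DecidableEq ι] (A : Submodule ℂ M) (x y : M) (δ : ℝ) : Prop :=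
  ∃ W : κ → ι → M, (∀ k i, W k i ∈ A) ∧
    ∀ i j, ‖(∑ k, star (W k i) * y * W k j) - (if i = j then x else 0)‖ < δ

theorem LeD.of_inj {ι ι' κ : Type} [Fintype κ] [DecidableEq ι] [DecidableEq ι'] {x y : M} {δ : ℝ}
    (h : LeD ι κ A x y δ) {f : ι' → ι} (hf : Function.Injective f) : LeD ι' κ A x y δ := by
  obtain ⟨W, hW, hW2⟩ := h
  refine ⟨fun k i => W k (f i), fun k i => hW _ _, fun i j => ?_⟩
  have h1 := hW2 (f i) (f j)
  simp only [hf.eq_iff] at h1
  exact h1

theorem LeD.of_card {ι ι' κ : Type} [Fintype κ] [Fintype ι] [Fintype ι'] [DecidableEq ι]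
    [DecidableEq ι'] {x y : M} {δ : ℝ} (h : LeD ι κ A x y δ)
    (hc : Fintype.card ι' ≤ Fintype.card ι) : LeD ι' κ A x y δ := by
  obtain ⟨f⟩ := Function.Embedding.nonempty_of_card_le hc
  exact h.of_inj f.injective

theorem LeD.trans {ι κ μ : Type} [Fintype κ] [Fintype μ] [DecidableEq ι]
    [DecidableEq κ] [Finite ι] (hA : IsCI A) {x y z : M} {δ : ℝ} (h : LeD ι κ A x y δ)
    (h' : ∀ δ' > 0, LeD κ μ A y z δ') {δ' : ℝ} (hδ' : 0 < δ') : LeD ι μ A x z (δ + δ') := by
  cases nonempty_fintype ι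
  obtain ⟨W, hWA, hW⟩ := h
  set B : ℝ := 1 + ∑ k, ∑ i, ‖W k i‖ with hB
  have hS0 : 0 ≤ ∑ k, ∑ i, ‖W k i‖ :=
    Finset.sum_nonneg fun k _ => Finset.sum_nonneg fun i _ => norm_nonneg _
  have hB0 : 0 < B := by linarith
  have hWB : ∀ i, ∑ k, ‖W k i‖ ≤ B := by
    intro i
    have : ∑ k, ‖W k i‖ ≤ ∑ k, ∑ i, ‖W k i‖ :=
      Finset.sum_le_sum fun k _ => Finset.single_le_sum (f := fun i => ‖W k i‖)
        (fun i _ => norm_nonneg _) (Finset.mem_univ i)
    linarith
  obtain ⟨W', hWA', hW'⟩ := h' (δ' / (B * B)) (by positivity)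
  refine ⟨fun m i => ∑ k, W' m k * W k i, fun m i => Submodule.sum_mem _ fun k _ =>
    hA.left _ _ (hWA _ _), fun i j => ?_⟩
  have e1 : ∑ m, star (∑ k, W' m k * W k i) * z * (∑ l, W' m l * W l j) =
      ∑ k, ∑ l, star (W k i) * (∑ m, star (W' m k) * z * W' m l) * W l j := by
    simp only [star_sum, star_mul, Finset.sum_mul, Finset.mul_sum]
    conv_rhs => rw [Finset.sum_comm]
    rw [Finset.sum_comm]
    refine Finset.sum_congr rfl fun k _ => ?_
    rw [Finset.sum_comm]
    refine Finset.sum_congr rfl fun l _ => ?_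
    refine Finset.sum_congr rfl fun m _ => ?_
    simp only [mul_assoc]
  have e2 : ∑ k, star (W k i) * y * W k j =
      ∑ k, ∑ l, star (W k i) * (if k = l then y else 0) * W l j := by
    refine Finset.sum_congr rfl fun k _ => ?_
    rw [Finset.sum_eq_single k]
    · simp
    · intro l _ hl
      rw [if_neg (Ne.symm hl)]; simp
    · simp
  have e3 : (∑ m, star (∑ k, W' m k * W k i) * z * (∑ l, W' m l * W l j)) -
      (if i = j then x else 0) =
      (∑ k, ∑ l, star (W k i) * ((∑ m, star (W' m k) * z * W' m l) -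
        (if k = l then y else 0)) * W l j) +
      ((∑ k, star (W k i) * y * W k j) - (if i = j then x else 0)) := by
    rw [e1, e2]
    simp only [mul_sub, sub_mul, Finset.sum_sub_distrib]
    abel
  rw [e3]
  refine (norm_add_le _ _).trans_lt ?_
  have h1 := hW i j
  have h2 : ‖∑ k, ∑ l, star (W k i) * ((∑ m, star (W' m k) * z * W' m l) -
        (if k = l then y else 0)) * W l j‖ ≤ δ' := by
    have h3 : ‖∑ k, ∑ l, star (W k i) * ((∑ m, star (W' m k) * z * W' m l) -
        (if k = l then y else 0)) * W l j‖ ≤ ∑ k, ∑ l, ‖W k i‖ * (δ' / (B * B)) * ‖W l j‖ := by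
      refine (norm_sum_le _ _).trans (Finset.sum_le_sum fun k _ => ?_)
      refine (norm_sum_le _ _).trans (Finset.sum_le_sum fun l _ => ?_)
      refine (norm_mul_le _ _).trans ?_
      refine mul_le_mul_of_nonneg_right ?_ (norm_nonneg _)
      refine (norm_mul_le _ _).trans ?_
      rw [norm_star]
      exact mul_le_mul_of_nonneg_left (hW' k l).le (norm_nonneg _)
    have e4 : ∑ k, ∑ l, ‖W k i‖ * (δ' / (B * B)) * ‖W l j‖ =
        (∑ k, ‖W k i‖) * (δ' / (B * B)) * (∑ l, ‖W l j‖) := by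
      rw [Finset.sum_mul, Finset.sum_mul]
      refine Finset.sum_congr rfl fun k _ => ?_
      rw [Finset.mul_sum]
    rw [e4] at h3
    refine h3.trans ?_
    calc (∑ k, ‖W k i‖) * (δ' / (B * B)) * (∑ l, ‖W l j‖) ≤ B * (δ' / (B * B)) * B := by
          refine mul_le_mul (mul_le_mul_of_nonneg_right (hWB i) (by positivity)) (hWB j)
            (Finset.sum_nonneg fun _ _ => norm_nonneg _) (by positivity)
      _ = δ' := by field_simp
  linarith

theorem LeD.amp {ι κ : Type} (μ : Type) [Fintype κ] [Fintype μ] [DecidableEq μ] [DecidableEq ι]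
    {x y : M} {δ : ℝ} (hδ : 0 < δ) (h : LeD ι κ A x y δ) : LeD (ι × μ) (κ × μ) A x y δ := by
  obtain ⟨W, hWA, hW⟩ := h
  refine ⟨fun k i => if k.2 = i.2 then W k.1 i.1 else 0, fun k i => ?_, fun i j => ?_⟩
  · dsimp only
    split_ifs
    · exact hWA _ _
    · exact A.zero_mem
  · obtain ⟨i, a⟩ := i
    obtain ⟨j, b⟩ := j
    have e1 : ∑ k : κ × μ, star (if k.2 = a then W k.1 i else 0) * y *
        (if k.2 = b then W k.1 j else 0) =
        if a = b then ∑ k, star (W k i) * y * W k j else 0 := by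
      rw [Fintype.sum_prod_type_right]
      rw [Finset.sum_eq_single a]
      · by_cases hab : a = b
        · simp [hab]
        · simp [hab]
      · intro c _ hc
        simp [hc]
      · simp
    dsimp only
    rw [e1]
    by_cases hab : a = b
    · subst hab
      have := hW i j
      simpa using this
    · simp [hab, hδ]

/-- weak pure infiniteness gives all amplifications -/
theorem WPIr.many {n : ℕ} (hn : 1 ≤ n) (hA : IsCI A) (hW : WPIr A n) {x : M} (hx : 0 ≤ x)
    (hxA : x ∈ A) : ∀ (k : ℕ) (ι : Type) [Fintype ι] [DecidableEq ι],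
      Fintype.card ι ≤ 2 ^ (k + 1) * n → ∀ δ > 0, LeD ι (Fin n) A x x δ := by
  have base : ∀ δ > 0, LeD (Fin (2 * n)) (Fin n) A x x δ := fun δ hδ => hW x hxA hx δ hδ
  intro k
  induction k with
  | zero =>
    intro ι _ _ hc δ hδ
    refine (base δ hδ).of_card ?_
    simpa using hc
  | succ k ih =>
    intro ι _ _ hc δ hδ
    have h1 : LeD (Fin (2 * n) × Fin (2 ^ (k + 1))) (Fin n × Fin (2 ^ (k + 1))) A x x (δ / 2) :=
      (base (δ / 2) (by positivity)).amp _ (by positivity)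
    have h2 : ∀ δ' > 0, LeD (Fin n × Fin (2 ^ (k + 1))) (Fin n) A x x δ' := by
      intro δ' hδ'
      refine ih _ ?_ δ' hδ'
      simp [mul_comm]
    have h3 := h1.trans hA h2 (δ' := δ / 2) (by positivity)
    rw [add_halves] at h3
    refine h3.of_card ?_
    refine hc.trans ?_
    simp only [Fintype.card_prod, Fintype.card_fin]
    rw [pow_succ]
    apply le_of_eq
    ring

theorem IsCI.of_star_mul_self (hQ : IsCI Q) {s : M} (h : star s * s ∈ Q) : s ∈ Q := by
  have hq0 : 0 ≤ star s * s := star_mul_self_nonneg s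
  refine hQ.of_approx fun ε hε => ?_
  have hκ : 0 < ε ^ 2 := by positivity
  refine ⟨s * eF (ε ^ 2) (star s * s), hQ.left _ _
    (eF_mem hQ hκ h (IsSelfAdjoint.of_nonneg hq0)), ?_⟩
  have e1 : s - s * eF (ε ^ 2) (star s * s) = s * (1 - eF (ε ^ 2) (star s * s)) := by
    rw [mul_sub, mul_one]
  rw [e1]
  have h1 := conj_eF_le hκ hq0
  have h2 : (1 - eF (ε ^ 2) (star s * s)) * (star s * s) * (1 - eF (ε ^ 2) (star s * s)) =
      star (s * (1 - eF (ε ^ 2) (star s * s))) * (s * (1 - eF (ε ^ 2) (star s * s))) := by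
    rw [star_mul, star_one_sub_eF]
    noncomm_ring
  rw [h2, CStarRing.norm_star_mul_self] at h1
  nlinarith [norm_nonneg (s * (1 - eF (ε ^ 2) (star s * s)))]

/-- if a self-adjoint `a` is `ε`-close to the ideal then `a ≤ ε + q`. -/
theorem le_add_of_norm_sub_le (hQ : IsCI Q) {a s : M} (ha : IsSelfAdjoint a) (hs : s ∈ Q) {ε : ℝ}
    (h : ‖a - s‖ ≤ ε) : ∃ q ∈ Q, a ≤ algebraMap ℝ M ε + q := by
  refine ⟨(1 / 2 : ℝ) • (s + star s), smulR_mem (Q.add_mem hs (hQ.star_mem hs)) _, ?_⟩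
  set r : M := (1 / 2 : ℝ) • (s + star s) with hr
  have hrs : IsSelfAdjoint r := by
    rw [IsSelfAdjoint, hr, star_smul, star_add, star_star, add_comm]
    simp
  have h1 : a - r = (1 / 2 : ℝ) • ((a - s) + star (a - s)) := by
    rw [hr, star_sub, ha.star_eq]
    have : a = (1 / 2 : ℝ) • (a + a) := by
      rw [← two_smul ℝ a, smul_smul]
      norm_num
    conv_lhs => rw [this]
    rw [← smul_sub]
    congr 1
    abel
  have h2 : ‖a - r‖ ≤ ε := by
    rw [h1, norm_smul]
    have h3 := norm_add_le (a - s) (star (a - s))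
    rw [norm_star] at h3
    rw [Real.norm_eq_abs, abs_of_nonneg (by norm_num)]
    linarith
  have h4 : a - r ≤ algebraMap ℝ M ε :=
    (IsSelfAdjoint.le_algebraMap_norm_self (a := a - r) (ha.sub hrs)).trans (algebraMap_mono M h2)
  calc a = (a - r) + r := by abel
    _ ≤ algebraMap ℝ M ε + r := add_le_add h4 le_rfl

/-- compactness -/
theorem exists_cut {h x : M} (hh : 0 ≤ h) (hx : 0 ≤ x) {ε : ℝ} (hε : 0 < ε)
    (hm : pc (ε / 2) h ∈ gen x) : ∃ δ : ℝ, 0 < δ ∧ pc ε h ∈ gen (pc δ x) := by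
  obtain ⟨n, u, v, h1⟩ := exists_sum_of_mem_gen hm (δ := ε / 4) (by positivity)
  set B : ℝ := 1 + ∑ i, ‖u i‖ * ‖v i‖ with hB
  have hB0 : 0 < B := by
    have : 0 ≤ ∑ i, ‖u i‖ * ‖v i‖ := Finset.sum_nonneg fun i _ => by positivity
    linarith
  refine ⟨ε / (4 * B), by positivity, ?_⟩
  obtain ⟨δ, hδ⟩ : ∃ δ, δ = ε / (4 * B) := ⟨_, rfl⟩
  have hδ0 : 0 < δ := by rw [hδ]; positivity
  rw [← hδ]
  have hQ := gen_isCI (pc δ x)
  have hs : (∑ i, u i * pc δ x * v i) ∈ gen (pc δ x) :=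
    Submodule.sum_mem _ fun i _ => hQ.right _ _ (hQ.left _ _ (mem_gen_self _))
  have h2 : ‖(∑ i, u i * x * v i) - ∑ i, u i * pc δ x * v i‖ ≤ B * δ := by
    rw [← Finset.sum_sub_distrib]
    refine (norm_sum_le _ _).trans ?_
    have h3 : ∑ i, ‖u i * x * v i - u i * pc δ x * v i‖ ≤ ∑ i, (‖u i‖ * ‖v i‖) * δ := by
      refine Finset.sum_le_sum fun i _ => ?_
      have e : u i * x * v i - u i * pc δ x * v i = u i * (x - pc δ x) * v i := by
        noncomm_ring
      rw [e]
      refine (norm_mul_le _ _).trans ?_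
      have h4 := norm_mul_le (u i) (x - pc δ x)
      have h5 := norm_sub_pc_le hδ0.le hx
      calc ‖u i * (x - pc δ x)‖ * ‖v i‖ ≤ (‖u i‖ * δ) * ‖v i‖ :=
            mul_le_mul_of_nonneg_right (h4.trans (mul_le_mul_of_nonneg_left h5 (norm_nonneg _)))
              (norm_nonneg _)
        _ = _ := by ring
    refine h3.trans ?_
    rw [← Finset.sum_mul]
    refine mul_le_mul_of_nonneg_right ?_ hδ0.le
    linarith
  have h3 : B * δ = ε / 4 := by rw [hδ]; field_simp
  have h4 : ‖pc (ε / 2) h - ∑ i, u i * pc δ x * v i‖ ≤ ε / 2 := by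
    have e : pc (ε / 2) h - ∑ i, u i * pc δ x * v i = (pc (ε / 2) h - ∑ i, u i * x * v i) +
      ((∑ i, u i * x * v i) - ∑ i, u i * pc δ x * v i) := by abel
    rw [e]
    refine (norm_add_le _ _).trans ?_
    linarith
  have h5 := pc_mem_of_norm_sub_le hQ (pc_sa _ _) hs h4
  rwa [pc_pc (by positivity) (by positivity) (IsSelfAdjoint.of_nonneg hh), add_halves] at h5

theorem RI_mul {h x : M} (hx : x ∈ RI h) (m : M) : x * m ∈ RI h := by
  have h1 : x ∈ closure ((LinearMap.range (LinearMap.mulLeft ℂ h) : Submodule ℂ M) : Set M) := hx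
  have h2 : x * m ∈ closure ((LinearMap.range (LinearMap.mulLeft ℂ h) : Submodule ℂ M) :
      Set M) := by
    refine map_mem_closure (f := fun y => y * m) (by fun_prop) h1 ?_
    rintro _ ⟨y, rfl⟩
    exact ⟨y * m, by simp [mul_assoc]⟩
  exact h2

theorem RI_self (h : M) : h ∈ RI h :=
  Submodule.le_topologicalClosure _ ⟨1, by simp⟩

theorem RI_le (hA : IsCI A) {h : M} (hh : h ∈ A) : RI h ≤ A := by
  refine Submodule.topologicalClosure_minimal _ ?_ hA.closed
  rintro _ ⟨y, rfl⟩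
  exact hA.right _ _ hh

theorem RI_approx {h x : M} (hx : x ∈ RI h) {δ : ℝ} (hδ : 0 < δ) : ∃ m : M, ‖x - h * m‖ < δ := by
  have h1 : x ∈ closure ((LinearMap.range (LinearMap.mulLeft ℂ h) : Submodule ℂ M) : Set M) := hx
  rw [Metric.mem_closure_iff] at h1
  obtain ⟨_, ⟨m, rfl⟩, hm⟩ := h1 δ hδ
  exact ⟨m, by rw [← dist_eq_norm]; simpa using hm⟩

/-- from orthogonal vectors in `closure (h M)` to comparison -/
theorem LeD.of_vec (hA : IsCI A) {h x : M} (hh : 0 ≤ h) (hhA : h ∈ A) {v : Fin 2 → M}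
    (hv : ∀ i, v i ∈ RI h) (hvv : ∀ i j, star (v i) * v j = if i = j then x else 0) {δ : ℝ}
    (hδ : 0 < δ) : LeD (Fin 2) (Fin 1) A x h δ := by
  obtain ⟨g, hg0, hgg⟩ := exists_sqrt hh
  have hgA : g ∈ A := hA.hered_sqrt (IsSelfAdjoint.of_nonneg hg0) hhA (le_of_eq hgg)
  have hgs : star g = g := (IsSelfAdjoint.of_nonneg hg0).star_eq
  set B : ℝ := 1 + ‖v 0‖ + ‖v 1‖ with hB
  have h0 := norm_nonneg (v 0)
  have h1 := norm_nonneg (v 1)
  have hB1 : 1 ≤ B := by linarith
  have hvB : ∀ i, ‖v i‖ ≤ B := by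
    intro i
    fin_cases i
    · change ‖v 0‖ ≤ B
      linarith
    · change ‖v 1‖ ≤ B
      linarith
  set η : ℝ := min 1 (δ / (2 * (2 * B + 1))) with hη
  have hη0 : 0 < η := lt_min one_pos (by positivity)
  have hη1 : η ≤ 1 := min_le_left _ _
  have hη2 : η * (2 * B + 1) ≤ δ / 2 := by
    have := min_le_right 1 (δ / (2 * (2 * B + 1)))
    rw [← hη, le_div_iff₀ (by positivity)] at this
    linarith
  choose m hm using fun i => RI_approx (hv i) hη0
  refine ⟨fun _ i => g * m i, fun _ i => hA.right _ _ hgA, fun i j => ?_⟩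
  rw [Fin.sum_univ_one, ← hvv i j]
  have e : star (g * m i) * h * (g * m j) = star (h * m i) * (h * m j) := by
    rw [star_mul, star_mul, hgs, ← hgg, star_mul, hgs]
    noncomm_ring
  rw [e]
  have e2 : star (h * m i) * (h * m j) - star (v i) * v j =
      -(star (v i - h * m i) * (h * m j) + star (v i) * (v j - h * m j)) := by
    rw [star_sub]; noncomm_ring
  rw [e2, norm_neg]
  have h3 : ‖h * m j‖ ≤ B + 1 := by
    have := norm_sub_le (v j) (v j - h * m j)
    rw [sub_sub_cancel] at this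
    have := hvB j
    have := hm j
    linarith
  have h4 : ‖star (v i - h * m i) * (h * m j)‖ ≤ η * (B + 1) := by
    refine (norm_mul_le _ _).trans ?_
    rw [norm_star]
    exact mul_le_mul (hm i).le h3 (norm_nonneg _) hη0.le
  have h5 : ‖star (v i) * (v j - h * m j)‖ ≤ B * η := by
    refine (norm_mul_le _ _).trans ?_
    rw [norm_star]
    exact mul_le_mul (hvB i) (hm j).le (norm_nonneg _) (by positivity)
  have h6 := norm_add_le (star (v i - h * m i) * (h * m j)) (star (v i) * (v j - h * m j))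
  nlinarith

/-- the largest of finitely many principal ideals -/
theorem exists_largest (hA : IsCI A) (hTot : TotR A) {ι : Type} [Finite ι] [Nonempty ι]
    (e : ι → M) (he : ∀ i, e i ∈ A) : ∃ i₀, ∀ i, e i ∈ gen (e i₀) := by
  have hD : Directed (· ≤ ·) (fun i => gen (e i)) := by
    intro i j
    rcases hTot _ _ (gen_isCI (e i)) (gen_isCI (e j)) (gen_le hA (he i)) (gen_le hA (he j)) with
      h | h
    · exact ⟨j, h, le_rfl⟩
    · exact ⟨i, le_rfl, h⟩
  obtain ⟨z, hz⟩ := hD.finite_le (fun i : ι => i)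
  exact ⟨z, fun i => hz i (mem_gen_self _)⟩

/-- two copies of a full element below `h` -/
theorem two_copies (hA : IsCI A) (hTot : TotR A) {h : M} (hh : 0 ≤ h) (hhA : h ∈ A) {ε : ℝ}
    (hε : 0 < ε) {a b : M} (hab : OP h a b) (ha : pc ε h ∈ gen a) (hb : pc ε h ∈ gen b)
    {δ : ℝ} (hδ : 0 < δ) : ∃ x, 0 ≤ x ∧ x ∈ A ∧ pc (ε + δ) h ∈ gen x ∧
      ∀ δ' > 0, LeD (Fin 2) (Fin 1) A x h δ' := by
  obtain ⟨ha0, hb0, haR, hbR, hab0⟩ := hab
  have has : star a = a := (IsSelfAdjoint.of_nonneg ha0).star_eq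
  have hbs : star b = b := (IsSelfAdjoint.of_nonneg hb0).star_eq
  have haA : a ∈ A := RI_le hA hhA haR
  obtain ⟨q, hq⟩ : ∃ q, q = pc ε h := ⟨_, rfl⟩
  have hq0 : 0 ≤ q := by rw [hq]; exact pc_nonneg _ _
  rw [← hq] at ha hb
  -- the element c
  obtain ⟨c, hc⟩ : ∃ c : M, pc δ q ∈ gen (b * c * a) := by
    set B : ℝ := ‖q‖ + 1 with hB
    have hB0 : 0 < B := by positivity
    set η : ℝ := min 1 (δ ^ 2 / (2 * B)) with hη
    have hη0 : 0 < η := lt_min one_pos (by positivity)
    have hη1 : η ≤ 1 := min_le_left _ _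
    have hη2 : η * (2 * B) ≤ δ ^ 2 := by
      have := min_le_right 1 (δ ^ 2 / (2 * B))
      rwa [← hη, le_div_iff₀ (by positivity)] at this
    obtain ⟨n, s, t, h1⟩ := exists_sum_of_mem_gen hb hη0
    obtain ⟨n', u, v, h2⟩ := exists_sum_of_mem_gen ha hη0
    obtain ⟨i₀, hi₀⟩ := exists_largest hA hTot (ι := Option (Fin n × Fin n'))
      (fun o => b * (o.elim 0 fun p => t p.1 * u p.2) * a) (fun o => hA.left _ _ haA)
    refine ⟨i₀.elim 0 fun p => t p.1 * u p.2, ?_⟩
    have hQ := gen_isCI (b * (i₀.elim 0 fun p => t p.1 * u p.2) * a)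
    have hmem : (∑ i, s i * b * t i) * (∑ j, u j * a * v j) ∈
        gen (b * (i₀.elim 0 fun p => t p.1 * u p.2) * a) := by
      rw [Finset.sum_mul]
      refine Submodule.sum_mem _ fun i _ => ?_
      rw [Finset.mul_sum]
      refine Submodule.sum_mem _ fun j _ => ?_
      have e : s i * b * t i * (u j * a * v j) = s i * (b * (t i * u j) * a) * v j := by
        noncomm_ring
      rw [e]
      exact hQ.right _ _ (hQ.left _ _ (hi₀ (some (i, j))))
    have h3 : ‖q * q - (∑ i, s i * b * t i) * (∑ j, u j * a * v j)‖ ≤ δ ^ 2 := by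
      set S := ∑ i, s i * b * t i
      set U := ∑ j, u j * a * v j
      have e : q * q - S * U = (q - S) * q + S * (q - U) := by noncomm_ring
      rw [e]
      have hSn : ‖S‖ ≤ B := by
        have := norm_sub_le q (q - S)
        rw [sub_sub_cancel] at this
        linarith
      have h4 : ‖(q - S) * q‖ ≤ η * B :=
        (norm_mul_le _ _).trans (mul_le_mul h1.le (by linarith) (norm_nonneg _) hη0.le)
      have h5 : ‖S * (q - U)‖ ≤ B * η :=
        (norm_mul_le _ _).trans (mul_le_mul hSn h2.le (norm_nonneg _) hB0.le)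
      have h6 := norm_add_le ((q - S) * q) (S * (q - U))
      linarith
    have hqq : IsSelfAdjoint (q * q) := IsSelfAdjoint.of_nonneg (mul_self_nn hq0)
    obtain ⟨p, hp, hle⟩ := le_add_of_norm_sub_le hQ hqq hmem h3
    exact pc_mem_of_sq_le hQ hq0 hp hδ.le hle
  obtain ⟨r, hr⟩ : ∃ r, r = b * c * a := ⟨_, rfl⟩
  rw [← hr] at hc
  have hrs : star r = a * star c * b := by rw [hr, star_mul, star_mul, has, hbs, mul_assoc]
  have hrr : r * r = 0 := by
    have : r * r = b * c * (a * b) * c * a := by rw [hr]; noncomm_ring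
    rw [this, hab0]; simp
  have hrA : r ∈ A := by rw [hr]; exact hA.left _ _ haA
  have hrr0 : 0 ≤ star r * r := star_mul_self_nonneg r
  obtain ⟨m, hm0, hmm⟩ := exists_sqrt hrr0
  have hms : star m = m := (IsSelfAdjoint.of_nonneg hm0).star_eq
  refine ⟨(star r * r) * (star r * r), mul_self_nn hrr0, hA.left _ _ (hA.left _ _ hrA), ?_, ?_⟩
  · have h1 : pc (ε + δ) h = pc δ q := by
      rw [hq, pc_pc hε.le hδ.le (IsSelfAdjoint.of_nonneg hh)]
    rw [h1]
    have hQ := gen_isCI ((star r * r) * (star r * r))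
    refine gen_le hQ (b := r) ?_ hc
    refine hQ.of_star_mul_self (mem_of_pow_mem hQ hrr0 (m := 2) (by norm_num) ?_)
    rw [sq]
    exact mem_gen_self _
  · intro δ' hδ'
    refine LeD.of_vec hA hh hhA (v := ![star r * r, r * m]) ?_ ?_ hδ'
    · intro i
      fin_cases i
      · change star r * r ∈ RI h
        rw [hrs]
        have : a * star c * b * r = a * (star c * b * r) := by noncomm_ring
        rw [this]
        exact RI_mul haR _
      · change r * m ∈ RI h
        rw [hr]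
        have : b * c * a * m = b * (c * a * m) := by noncomm_ring
        rw [this]
        exact RI_mul hbR _
    · have h12 : star (star r * r) * (r * m) = 0 := by
        rw [star_mul, star_star]
        have : star r * r * (r * m) = star r * (r * r) * m := by noncomm_ring
        rw [this, hrr]; simp
      intro i j
      fin_cases i <;> fin_cases j
      · simp [star_mul]
      · simpa using h12
      · have h21 : star (r * m) * (star r * r) = 0 := by
          have : star (r * m) * (star r * r) = star (star (star r * r) * (r * m)) := by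
            simp [star_mul, mul_assoc]
          rw [this, h12, star_zero]
        simpa using h21
      · have : star (r * m) * (r * m) = star r * r * (star r * r) := by
          rw [star_mul, hms]
          have : m * star r * (r * m) = m * (star r * r) * m := by noncomm_ring
          rw [this, ← hmm]; noncomm_ring
        simpa using this

/-- the splitting property -/
def Splits (A : Submodule ℂ M) : Prop :=
  ∀ h ∈ A, 0 ≤ h → ∀ ε > 0, ∃ a b, OP h a b ∧ pc ε h ∈ gen a ∧ pc ε h ∈ gen b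

theorem many_copies (hA : IsCI A) (hTot : TotR A) (hS : Splits A) : ∀ (k : ℕ) (h : M), h ∈ A →
    0 ≤ h → ∀ ε > 0, ∃ x, 0 ≤ x ∧ x ∈ A ∧ pc ε h ∈ gen x ∧
      ∀ δ > 0, LeD (Fin (2 ^ (k + 1))) (Fin 1) A x h δ := by
  intro k
  induction k with
  | zero =>
    intro h hhA hh ε hε
    obtain ⟨a, b, hab, ha, hb⟩ := hS h hhA hh (ε / 2) (by positivity)
    obtain ⟨x, hx, hxA, hx1, hx2⟩ := two_copies hA hTot hh hhA (by positivity) hab ha hb
      (δ := ε / 2) (by positivity)
    rw [add_halves] at hx1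
    exact ⟨x, hx, hxA, hx1, fun δ hδ => (hx2 δ hδ).of_card (by simp)⟩
  | succ k ih =>
    intro h hhA hh ε hε
    obtain ⟨a, b, hab, ha, hb⟩ := hS h hhA hh (ε / 4) (by positivity)
    obtain ⟨x₁, hx₁, hx₁A, hx₁1, hx₁2⟩ := two_copies hA hTot hh hhA (by positivity) hab ha hb
      (δ := ε / 4) (by positivity)
    have e : ε / 4 + ε / 4 = ε / 2 := by ring
    rw [e] at hx₁1
    obtain ⟨δ₁, hδ₁, hcut⟩ := exists_cut hh hx₁ hε hx₁1
    obtain ⟨x, hx, hxA, hx1, hx2⟩ := ih x₁ hx₁A hx₁ δ₁ hδ₁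
    refine ⟨x, hx, hxA, gen_le (gen_isCI _) hx1 hcut, fun δ hδ => ?_⟩
    have h1 : LeD (Fin (2 ^ (k + 1)) × Fin 2) (Fin 1 × Fin 2) A x x₁ (δ / 2) :=
      (hx2 (δ / 2) (by positivity)).amp _ (by positivity)
    have h2 : ∀ δ' > 0, LeD (Fin 1 × Fin 2) (Fin 1) A x₁ h δ' :=
      fun δ' hδ' => (hx₁2 δ' hδ').of_card (by simp)
    have h3 := h1.trans hA h2 (δ' := δ / 2) (by positivity)
    rw [add_halves] at h3
    refine h3.of_card ?_
    simp [pow_succ]

theorem pi_of_splits {n : ℕ} (hn : 1 ≤ n) (hA : IsCI A) (hTot : TotR A) (hW : WPIr A n)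
    (hS : Splits A) : PIr A := by
  intro h hhA hh ε hε
  obtain ⟨r, hr0, hrr⟩ := exists_sqrt hh
  have hrA : r ∈ A := hA.hered_sqrt (IsSelfAdjoint.of_nonneg hr0) hhA (le_of_eq hrr)
  obtain ⟨B, hB⟩ : ∃ B, B = ‖r‖ + 1 := ⟨_, rfl⟩
  have hB0 : 0 < B := by rw [hB]; positivity
  obtain ⟨η, hη⟩ : ∃ η, η = ε / (4 * B) := ⟨_, rfl⟩
  have hη0 : 0 < η := by rw [hη]; positivity
  have hηB : η * (2 * B) = ε / 2 := by rw [hη]; field_simp; norm_num
  obtain ⟨k, hk⟩ : ∃ k : ℕ, n ≤ 2 ^ (k + 1) :=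
    ⟨n, (Nat.lt_two_pow_self.le).trans (Nat.pow_le_pow_right (by norm_num) (by omega))⟩
  obtain ⟨x, hx, hxA, hx1, hx2⟩ := many_copies hA hTot hS k h hhA hh (η ^ 2) (by positivity)
  have hpr : pc η r ∈ gen x := by
    refine gen_le (gen_isCI _) hx1 ?_
    refine pc_mem_of_sq_le (gen_isCI _) hr0 (mem_gen_self _) hη0.le ?_
    rw [hrr]
    exact le_add_pc _ (IsSelfAdjoint.of_nonneg hh)
  obtain ⟨m, y, w, hw, h1⟩ := exists_conj_sum hx (pc_nonneg η r) hpr (δ := ε / 16) (by positivity)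
  set a := pc η r with ha
  have haA : a ∈ A := pc_mem hA hη0.le hrA
  have h2 : LeD (Fin 1) (Fin m) A (a * a) x (ε / 8) := by
    refine ⟨fun k _ => w k, fun k _ => ?_, fun i j => ?_⟩
    · change w k ∈ A
      rw [hw]; exact hA.left _ _ haA
    · rw [if_pos (Subsingleton.elim i j), norm_sub_rev]
      linarith
  have h3 : LeD (Fin 1 × Fin 2) (Fin m × Fin 2) A (a * a) x (ε / 8) := h2.amp _ (by positivity)
  have h4 : ∀ δ' > 0, LeD (Fin m × Fin 2) (Fin n) A x x δ' := by
    intro δ' hδ'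
    refine hW.many hn hA hx hxA m (Fin m × Fin 2) ?_ δ' hδ'
    simp only [Fintype.card_prod, Fintype.card_fin]
    have : m < 2 ^ m := Nat.lt_two_pow_self
    calc m * 2 ≤ 2 ^ m * 2 := by omega
      _ = 2 ^ (m + 1) * 1 := by ring
      _ ≤ 2 ^ (m + 1) * n := Nat.mul_le_mul_left _ hn
  have h5 := h3.trans hA h4 (δ' := ε / 8) (by positivity)
  have h6 : ∀ δ' > 0, LeD (Fin n) (Fin 1) A x h δ' :=
    fun δ' hδ' => (hx2 δ' hδ').of_card (by simpa using hk)
  have h7 := (h5.trans hA h6 (δ' := ε / 8) (by positivity)).of_card (ι' := Fin 2) (by simp)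
  obtain ⟨W, hWA, hW2⟩ := h7
  have h8 : ‖a * a - h‖ ≤ ε / 2 := by
    have e : a * a - h = -((r - a) * r + a * (r - a)) := by rw [← hrr]; noncomm_ring
    rw [e, norm_neg]
    have h9 := norm_sub_pc_le hη0.le hr0
    have h10 := norm_pc_le hη0.le hr0
    rw [← ha] at h9 h10
    have h11 : ‖(r - a) * r‖ ≤ η * B :=
      (norm_mul_le _ _).trans (mul_le_mul h9 (by linarith) (norm_nonneg _) hη0.le)
    have h12 : ‖a * (r - a)‖ ≤ B * η :=
      (norm_mul_le _ _).trans (mul_le_mul (by linarith) h9 (norm_nonneg _) hB0.le)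
    have h13 := norm_add_le ((r - a) * r) (a * (r - a))
    linarith
  refine ⟨W 0 0, hWA _ _, W 0 1, hWA _ _, ?_, ?_, ?_⟩
  · have h9 := hW2 0 0
    rw [Fin.sum_univ_one, if_pos rfl] at h9
    have e : star (W 0 0) * h * W 0 0 - h = (star (W 0 0) * h * W 0 0 - a * a) + (a * a - h) := by
      abel
    rw [e]
    refine (norm_add_le _ _).trans_lt ?_
    linarith
  · have h9 := hW2 1 1
    rw [Fin.sum_univ_one, if_pos rfl] at h9
    have e : star (W 0 1) * h * W 0 1 - h = (star (W 0 1) * h * W 0 1 - a * a) + (a * a - h) := by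
      abel
    rw [e]
    refine (norm_add_le _ _).trans_lt ?_
    linarith
  · have h9 := hW2 0 1
    rw [Fin.sum_univ_one, if_neg (by decide), sub_zero] at h9
    linarith

end Vale.Agent.P133o
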