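import Mathlib

/-!
# P133: definitions for an arbitrary (possibly nonunital) `C*`-algebra
-/

namespace Vale.Agent.P133o

variable (A : Type*) [NonUnitalCStarAlgebra A]

/-- `I` is a closed two-sided ideal of `A`. -/
def IsClosedIdeal (I : Submodule ℂ A) : Prop :=
  IsClosed (I : Set A) ∧ ∀ a x : A, x ∈ I → a * x ∈ I ∧ x * a ∈ I

/-- The closed two-sided ideals of `A` are totally ordered by inclusion. -/
def ClosedIdealsTotallyOrdered : Prop :=
  ∀ I J : Submodule ℂ A, IsClosedIdeal A I → IsClosedIdeal A J → I ≤ J ∨ J ≤ I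

variable {A} in
/-- `h` is a positive element of `A`. -/
def IsPositiveElt (h : A) : Prop := ∃ y : A, h = star y * y

variable {A} in
/-- The `n`-fold diagonal amplification of `h` is properly infinite: there are `n × 2n` matrices
`X` over `A` such that `X* diag(h,…,h) X` is arbitrarily close to `diag(h,…,h)` (`2n` copies). -/
def AmplificationProperlyInfinite (n : ℕ) (h : A) : Prop :=
  ∀ ε : ℝ, 0 < ε → ∃ X : Fin n → Fin (2 * n) → A, ∀ j k : Fin (2 * n),
    ‖(∑ i : Fin n, star (X i j) * h * X i k) - (if j = k then h else 0)‖ < ε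

/-- weakly purely infinite -/
def WeaklyPurelyInfinite : Prop :=
  ∃ n : ℕ, 1 ≤ n ∧ ∀ h : A, IsPositiveElt h → AmplificationProperlyInfinite n h

/-- purely infinite -/
def PurelyInfinite : Prop :=
  ∀ h : A, IsPositiveElt h → AmplificationProperlyInfinite 1 h

/-- strongly purely infinite -/
def StronglyPurelyInfinite : Prop :=
  ∀ x y : A, IsPositiveElt x → IsPositiveElt y → ∀ ε : ℝ, 0 < ε → ∃ s t : A,
    ‖star s * (x * x) * s - x * x‖ < ε ∧ ‖star t * (y * y) * t - y * y‖ < ε ∧
      ‖star s * (x * y) * t‖ < ε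

end Vale.Agent.P133o
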