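import Vale.Agent.P133o.PartA

/-!
# P133: definitions for part (b)
-/

set_option linter.unusedSectionVars false

namespace Vale.Agent.P133o

variable {M : Type*} [CStarAlgebra M] [PartialOrder M] [StarOrderedRing M]

/-- weak pure infiniteness (`n`) of the closed ideal `A` of `M` -/
def WPIr (A : Submodule ℂ M) (n : ℕ) : Prop :=
  ∀ h ∈ A, 0 ≤ h → ∀ ε > 0, ∃ X : Fin n → Fin (2 * n) → M, (∀ i j, X i j ∈ A) ∧
    ∀ j k, ‖(∑ i, star (X i j) * h * X i k) - (if j = k then h else 0)‖ < ε

/-- the closed right ideal generated by `h` -/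
noncomputable def RI (h : M) : Submodule ℂ M :=
  (LinearMap.range (LinearMap.mulLeft ℂ h)).topologicalClosure

/-- orthogonal pairs of positive elements of the hereditary subalgebra of `h` -/
def OP (h a b : M) : Prop := 0 ≤ a ∧ 0 ≤ b ∧ a ∈ RI h ∧ b ∈ RI h ∧ a * b = 0

end Vale.Agent.P133o
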