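import Vale.Agent.P133o.DefsF

/-!
# P133: ideal lattices generated by join-prime ideals
-/

namespace Vale.Agent.P133o

variable (A : Type*) [NonUnitalCStarAlgebra A]

/-- The closed two-sided ideal `D` is join-prime: whenever it is contained in the closed sum of two
closed two-sided ideals, it is contained in one of them. -/
def JoinPrime (D : Submodule ℂ A) : Prop :=
  IsClosedIdeal A D ∧ ∀ I J : Submodule ℂ A, IsClosedIdeal A I → IsClosedIdeal A J →
    D ≤ (I ⊔ J).topologicalClosure → D ≤ I ∨ D ≤ J

/-- Every closed two-sided ideal is generated by the join-prime ideals which it contains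
(complete distributivity of the lattice of closed ideals). -/
def JoinPrimesGenerate : Prop :=
  ∀ I L : Submodule ℂ A, IsClosedIdeal A I → IsClosedIdeal A L →
    (∀ D : Submodule ℂ A, JoinPrime A D → D ≤ I → D ≤ L) → I ≤ L

end Vale.Agent.P133o
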