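import Vale.Agent.P133o.Basic

/-!
# P133: the closed ideal generated by an element, approximation lemmas
-/

set_option linter.unusedSectionVars false

namespace Vale.Agent.P133o

variable {M : Type*} [CStarAlgebra M] [PartialOrder M] [StarOrderedRing M]
variable {Q A : Submodule ℂ M}

/-- the linear span of `M b M` -/
noncomputable def spn (b : M) : Submodule ℂ M := Submodule.span ℂ {z : M | ∃ u v : M, z = u * b * v}

/-- the closed ideal generated by `b` -/
noncomputable def gen (b : M) : Submodule ℂ M := (spn b).topologicalClosure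

theorem spn_left (b a : M) {x : M} (hx : x ∈ spn b) : a * x ∈ spn b := by
  unfold spn at hx ⊢
  induction hx using Submodule.span_induction with
  | mem x h =>
    obtain ⟨u, v, rfl⟩ := h
    exact Submodule.subset_span ⟨a * u, v, by noncomm_ring⟩
  | zero => simp
  | add x y _ _ h1 h2 => rw [mul_add]; exact Submodule.add_mem _ h1 h2
  | smul c x _ h1 => rw [mul_smul_comm]; exact Submodule.smul_mem _ _ h1

theorem spn_right (b a : M) {x : M} (hx : x ∈ spn b) : x * a ∈ spn b := by
  unfold spn at hx ⊢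
  induction hx using Submodule.span_induction with
  | mem x h =>
    obtain ⟨u, v, rfl⟩ := h
    exact Submodule.subset_span ⟨u, v * a, by noncomm_ring⟩
  | zero => simp
  | add x y _ _ h1 h2 => rw [add_mul]; exact Submodule.add_mem _ h1 h2
  | smul c x _ h1 => rw [smul_mul_assoc]; exact Submodule.smul_mem _ _ h1

theorem gen_isCI (b : M) : IsCI (gen b) where
  closed := Submodule.isClosed_topologicalClosure _
  left := by
    intro a x hx
    have h1 : x ∈ closure (spn b : Set M) := hx
    have h2 : a * x ∈ closure (spn b : Set M) :=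
      map_mem_closure (f := fun y => a * y) (by fun_prop) h1 fun y hy => spn_left b a hy
    exact h2
  right := by
    intro a x hx
    have h1 : x ∈ closure (spn b : Set M) := hx
    have h2 : x * a ∈ closure (spn b : Set M) :=
      map_mem_closure (f := fun y => y * a) (by fun_prop) h1 fun y hy => spn_right b a hy
    exact h2

theorem mem_gen_self (b : M) : b ∈ gen b :=
  Submodule.le_topologicalClosure _ (Submodule.subset_span ⟨1, 1, by simp⟩)

theorem gen_le (hQ : IsCI Q) {b : M} (hb : b ∈ Q) : gen b ≤ Q := by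
  refine Submodule.topologicalClosure_minimal _ ?_ hQ.closed
  unfold spn
  rw [Submodule.span_le]
  rintro _ ⟨u, v, rfl⟩
  exact hQ.right _ _ (hQ.left _ _ hb)

theorem spn_sum (b : M) {x : M} (hx : x ∈ spn b) :
    ∃ (n : ℕ) (u v : Fin n → M), x = ∑ i, u i * b * v i := by
  unfold spn at hx
  induction hx using Submodule.span_induction with
  | mem x h =>
    obtain ⟨u, v, rfl⟩ := h
    exact ⟨1, fun _ => u, fun _ => v, by simp⟩
  | zero => exact ⟨0, fun _ => 0, fun _ => 0, by simp⟩
  | add x y _ _ h1 h2 =>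
    obtain ⟨n, u, v, rfl⟩ := h1
    obtain ⟨m, u', v', rfl⟩ := h2
    refine ⟨n + m, Fin.append u u', Fin.append v v', ?_⟩
    rw [Fin.sum_univ_add]
    simp
  | smul c x _ h1 =>
    obtain ⟨n, u, v, rfl⟩ := h1
    refine ⟨n, fun i => c • u i, v, ?_⟩
    rw [Finset.smul_sum]
    simp [smul_mul_assoc]

theorem exists_sum_of_mem_gen {a b : M} (ha : a ∈ gen b) {δ : ℝ} (hδ : 0 < δ) :
    ∃ (n : ℕ) (u v : Fin n → M), ‖a - ∑ i, u i * b * v i‖ < δ := by
  have h1 : a ∈ closure (spn b : Set M) := ha
  rw [Metric.mem_closure_iff] at h1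
  obtain ⟨y, hy, hd⟩ := h1 δ hδ
  obtain ⟨n, u, v, rfl⟩ := spn_sum b hy
  exact ⟨n, u, v, by rwa [← dist_eq_norm]⟩

theorem mul_self_le_norm_smul {c : M} (hc : 0 ≤ c) : c * c ≤ ‖c‖ • c := by
  have hs : IsSelfAdjoint c := IsSelfAdjoint.of_nonneg hc
  have h1 : c * c = cfc (fun t : ℝ => t * t) c := by
    rw [cfc_mul (fun t : ℝ => t) (fun t : ℝ => t) c (by fun_prop) (by fun_prop), cfc_id' ℝ c]
  have h2 : ‖c‖ • c = cfc (fun t : ℝ => ‖c‖ * t) c := by
    rw [cfc_const_mul ‖c‖ (fun t : ℝ => t) c (by fun_prop), cfc_id' ℝ c]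
  rw [h1, h2]
  refine cfc_mono (fun t ht => ?_) (by fun_prop) (by fun_prop)
  have h0 : 0 ≤ t := spectrum_nonneg_of_nonneg hc ht
  have h3 : ‖t‖ ≤ ‖c‖ := by
    rcases subsingleton_or_nontrivial M with h | h
    · exact absurd ht (by simp [spectrum.of_subsingleton])
    · exact spectrum.norm_le_norm_of_mem ht
  rw [Real.norm_eq_abs, abs_of_nonneg h0] at h3
  exact mul_le_mul_of_nonneg_right h3 h0

theorem conj_mono {a b : M} (h : a ≤ b) (c : M) : star c * a * c ≤ star c * b * c :=
  star_left_conjugate_le_conjugate h c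

theorem conj_nonneg {a : M} (h : 0 ≤ a) (c : M) : 0 ≤ star c * a * c :=
  star_left_conjugate_nonneg h c

theorem smul_le_smulR {a b : M} (h : a ≤ b) {r : ℝ} (hr : 0 ≤ r) : r • a ≤ r • b :=
  smul_le_smul_of_nonneg_left h hr

theorem smul_le_smul_rightR {a : M} (h : 0 ≤ a) {r s : ℝ} (hr : r ≤ s) : r • a ≤ s • a :=
  smul_le_smul_of_nonneg_right hr h

/-- `(a + b)* (a + b) ≤ 2 a* a + 2 b* b` -/
theorem star_add_mul_le (a b : M) :
    star (a + b) * (a + b) ≤ (2 : ℝ) • (star a * a) + (2 : ℝ) • (star b * b) := by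
  have h := star_mul_self_nonneg (a - b)
  rw [← sub_nonneg]
  have e : (2 : ℝ) • (star a * a) + (2 : ℝ) • (star b * b) - star (a + b) * (a + b) =
      star (a - b) * (a - b) := by
    rw [two_smul, two_smul, star_add, star_sub]
    noncomm_ring
  rwa [e]

theorem star_mul_self_le (x : M) : star x * x ≤ algebraMap ℝ M (‖x‖ ^ 2) :=
  CStarAlgebra.star_mul_le_algebraMap_norm_sq

/-- bounding `(∑ u c v)* (∑ u c v)` -/
theorem exists_const {c : M} (hc : 0 ≤ c) : ∀ (n : ℕ) (u v : Fin n → M), ∃ C : ℝ, 0 ≤ C ∧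
    star (∑ i, u i * c * v i) * (∑ i, u i * c * v i) ≤ C • ∑ i, star (v i) * c * v i := by
  have hcs : star c = c := (IsSelfAdjoint.of_nonneg hc).star_eq
  intro n
  induction n with
  | zero => intro u v; exact ⟨0, le_rfl, by simp⟩
  | succ n ih =>
    intro u v
    obtain ⟨C, hC, h1⟩ := ih (fun i => u i.castSucc) (fun i => v i.castSucc)
    rw [Fin.sum_univ_castSucc, Fin.sum_univ_castSucc]
    set s := ∑ i : Fin n, u i.castSucc * c * v i.castSucc
    set S := ∑ i : Fin n, star (v i.castSucc) * c * v i.castSucc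
    have hS : 0 ≤ S := Finset.sum_nonneg fun i _ => conj_nonneg hc _
    set U := u (Fin.last n)
    set V := v (Fin.last n)
    have h2 : star (U * c * V) * (U * c * V) ≤ (‖U‖ ^ 2 * ‖c‖) • (star V * c * V) := by
      have e1 : star (U * c * V) * (U * c * V) = star (c * V) * (star U * U) * (c * V) := by
        rw [star_mul, star_mul, star_mul]; noncomm_ring
      rw [e1]
      have h3 := conj_mono (star_mul_self_le U) (c * V)
      refine h3.trans ?_
      have e2 : star (c * V) * algebraMap ℝ M (‖U‖ ^ 2) * (c * V) =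
          (‖U‖ ^ 2) • (star V * (c * c) * V) := by
        rw [Algebra.algebraMap_eq_smul_one, star_mul, hcs]
        simp only [mul_smul_comm, smul_mul_assoc, mul_one, mul_assoc]
      rw [e2, mul_smul]
      refine smul_le_smulR ?_ (by positivity)
      have h4 := conj_mono (mul_self_le_norm_smul hc) V
      simpa only [mul_smul_comm, smul_mul_assoc] using h4
    refine ⟨max (2 * C) (2 * (‖U‖ ^ 2 * ‖c‖)), le_max_of_le_left (by positivity), ?_⟩
    refine (star_add_mul_le _ _).trans ?_
    rw [smul_add]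
    refine add_le_add ?_ ?_
    · refine (smul_le_smulR h1 zero_le_two).trans ?_
      rw [← mul_smul]
      exact smul_le_smul_rightR hS (le_max_left _ _)
    · refine (smul_le_smulR h2 zero_le_two).trans ?_
      rw [← mul_smul]
      exact smul_le_smul_rightR (conj_nonneg hc _) (le_max_right _ _)

/-- `z κ D = (D + κ)^{-1/2}` -/
noncomputable def zF (κ : ℝ) (D : M) : M := cfc (fun t : ℝ => (√(max t 0 + κ))⁻¹) D

theorem zF_cont {κ : ℝ} (hκ : 0 < κ) : Continuous fun t : ℝ => (√(max t 0 + κ))⁻¹ := by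
  refine Continuous.inv₀ (by fun_prop) fun t => ?_
  have : 0 ≤ max t 0 := le_max_right _ _
  have h2 : 0 < √(max t 0 + κ) := Real.sqrt_pos.2 (by linarith)
  exact h2.ne'

theorem zF_sa (κ : ℝ) (D : M) : star (zF κ D) = zF κ D := by
  have : IsSelfAdjoint (zF κ D) := by unfold zF; cfc_tac
  exact this.star_eq

theorem lemR {D a : M} (hD : 0 ≤ D) (ha : IsSelfAdjoint a) {κ : ℝ} (hκ : 0 < κ)
    (hle : a * a ≤ D + algebraMap ℝ M κ) :
    ‖a * a - star (zF κ D * a) * D * (zF κ D * a)‖ ≤ κ := by
  have hDs : IsSelfAdjoint D := IsSelfAdjoint.of_nonneg hD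
  have hc := zF_cont hκ
  have e1 : 1 - zF κ D * D * zF κ D = κ • (zF κ D * zF κ D) := by
    unfold zF
    rw [← cfc_mul_id hc hDs, ← cfc_mul (fun t : ℝ => (√(max t 0 + κ))⁻¹ * t)
      (fun t : ℝ => (√(max t 0 + κ))⁻¹) D (hc.mul continuous_id).continuousOn hc.continuousOn,
      ← cfc_mul (fun t : ℝ => (√(max t 0 + κ))⁻¹)
      (fun t : ℝ => (√(max t 0 + κ))⁻¹) D hc.continuousOn hc.continuousOn,
      ← cfc_const_one ℝ D, ← cfc_sub (fun _ : ℝ => (1 : ℝ))
      (fun t : ℝ => (√(max t 0 + κ))⁻¹ * t * (√(max t 0 + κ))⁻¹) D continuousOn_const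
      ((hc.mul continuous_id).mul hc).continuousOn,
      ← cfc_const_mul κ (fun t : ℝ => (√(max t 0 + κ))⁻¹ * (√(max t 0 + κ))⁻¹) D
      (hc.mul hc).continuousOn]
    refine cfc_congr fun t ht => ?_
    have h0 : 0 ≤ t := spectrum_nonneg_of_nonneg hD ht
    simp only [max_eq_left h0]
    have h1 : 0 < t + κ := by linarith
    have h2 : (√(t + κ))⁻¹ * (√(t + κ))⁻¹ = (t + κ)⁻¹ := by
      rw [← mul_inv, Real.mul_self_sqrt h1.le]
    have h3 : (√(t + κ))⁻¹ * t * (√(t + κ))⁻¹ = t * (t + κ)⁻¹ := by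
      rw [← h2]; ring
    rw [h2, h3]
    field_simp
    ring
  have e2 : a * a - star (zF κ D * a) * D * (zF κ D * a) =
      κ • (star (zF κ D * a) * (zF κ D * a)) := by
    rw [star_mul, zF_sa, ha.star_eq]
    have : a * a - a * zF κ D * D * (zF κ D * a) = a * (1 - zF κ D * D * zF κ D) * a := by
      noncomm_ring
    rw [this, e1]
    simp only [mul_smul_comm, smul_mul_assoc, mul_assoc]
  rw [e2, norm_smul, CStarRing.norm_star_mul_self, Real.norm_eq_abs, abs_of_pos hκ,
    ← CStarRing.norm_self_mul_star]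
  have e3 : zF κ D * a * star (zF κ D * a) = star (zF κ D) * (a * a) * zF κ D := by
    rw [star_mul, zF_sa, ha.star_eq]; noncomm_ring
  rw [e3]
  have h1 := conj_mono hle (zF κ D)
  have h0 : 0 ≤ star (zF κ D) * (a * a) * zF κ D := by
    refine conj_nonneg ?_ _
    have := star_mul_self_nonneg a
    rwa [ha.star_eq] at this
  have h2 := CStarAlgebra.norm_le_norm_of_nonneg_of_le h0 h1
  have e4 : star (zF κ D) * (D + algebraMap ℝ M κ) * zF κ D = 1 := by
    have : zF κ D * D * zF κ D = 1 - κ • (zF κ D * zF κ D) := by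
      rw [← e1]; abel
    rw [zF_sa, mul_add, add_mul, this, Algebra.algebraMap_eq_smul_one]
    simp only [mul_smul_comm, smul_mul_assoc, mul_one]
    abel
  rw [e4] at h2
  have h3 : ‖(1 : M)‖ ≤ 1 := by
    rcases subsingleton_or_nontrivial M with h | h
    · rw [Subsingleton.elim (1 : M) 0, norm_zero]; exact zero_le_one
    · rw [CStarRing.norm_one]
  nlinarith

/-- `F2`: approximation by finite sums of conjugates -/
theorem exists_conj_sum {a c : M} (hc : 0 ≤ c) (ha : 0 ≤ a) (hac : a ∈ gen c) {δ : ℝ}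
    (hδ : 0 < δ) : ∃ (n : ℕ) (x w : Fin n → M), (∀ i, w i = x i * a) ∧
      ‖a * a - ∑ i, star (w i) * c * w i‖ ≤ δ := by
  have has : star a = a := (IsSelfAdjoint.of_nonneg ha).star_eq
  set ε : ℝ := min 1 (δ / (2 * ‖a‖ + 1)) with hε
  have hna : 0 ≤ ‖a‖ := norm_nonneg _
  have hε0 : 0 < ε := lt_min one_pos (by positivity)
  obtain ⟨n, u, v, h1⟩ := exists_sum_of_mem_gen hac hε0
  obtain ⟨C, hC, h2⟩ := exists_const hc n u v
  set s := ∑ i, u i * c * v i with hs
  set S := ∑ i, star (v i) * c * v i with hS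
  have hS0 : 0 ≤ S := Finset.sum_nonneg fun i _ => conj_nonneg hc _
  obtain ⟨D, hD⟩ : ∃ D, D = C • S := ⟨_, rfl⟩
  have hD0 : 0 ≤ D := by rw [hD]; exact smul_nonneg hC hS0
  rw [← hD] at h2
  have hns : ‖s‖ ≤ ‖a‖ + 1 := by
    have h3 : s = a - (a - s) := by abel
    have h4 := norm_sub_le a (a - s)
    rw [← h3] at h4
    have : ε ≤ 1 := min_le_left _ _
    linarith
  have h5 : ‖a * a - star s * s‖ ≤ δ := by
    have e : a * a - star s * s = star (a - s) * a + star s * (a - s) := by
      rw [star_sub, has]; noncomm_ring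
    rw [e]
    have h6 := norm_add_le (star (a - s) * a) (star s * (a - s))
    have h7 := norm_mul_le (star (a - s)) a
    have h8 := norm_mul_le (star s) (a - s)
    rw [norm_star] at h7 h8
    have h9 : ε * (2 * ‖a‖ + 1) ≤ δ := by
      have := min_le_right 1 (δ / (2 * ‖a‖ + 1))
      rw [← hε, le_div_iff₀ (by positivity)] at this
      exact this
    have h10 : ‖a - s‖ * ‖a‖ ≤ ε * ‖a‖ := mul_le_mul_of_nonneg_right h1.le hna
    have h11 : ‖s‖ * ‖a - s‖ ≤ (‖a‖ + 1) * ε :=
      mul_le_mul hns h1.le (norm_nonneg _) (by positivity)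
    nlinarith
  have h6 : a * a ≤ D + algebraMap ℝ M δ := by
    have hsa : IsSelfAdjoint (a * a - star s * s) := by
      rw [IsSelfAdjoint, star_sub, star_mul, has, star_mul, star_star]
    have h7 := IsSelfAdjoint.le_algebraMap_norm_self hsa
    have h8 : a * a - star s * s ≤ algebraMap ℝ M δ := h7.trans (algebraMap_mono M h5)
    calc a * a = star s * s + (a * a - star s * s) := by abel
      _ ≤ D + algebraMap ℝ M δ := add_le_add h2 h8
  have h7 := lemR hD0 (IsSelfAdjoint.of_nonneg ha) hδ h6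
  refine ⟨n, fun i => √C • v i * zF δ D, fun i => √C • v i * zF δ D * a, fun i => rfl, ?_⟩
  have e : ∑ i, star (√C • v i * zF δ D * a) * c * (√C • v i * zF δ D * a) =
      star (zF δ D * a) * D * (zF δ D * a) := by
    generalize zF δ D = Z
    rw [hD, hS, Finset.smul_sum, Finset.mul_sum, Finset.sum_mul]
    refine Finset.sum_congr rfl fun i _ => ?_
    have h8 : √C * √C = C := Real.mul_self_sqrt hC
    have h9 : star (√C) = √C := rfl
    simp only [star_mul, star_smul, mul_smul_comm, smul_mul_assoc, mul_assoc, smul_smul, h9, h8]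
  rw [e]
  exact h7

/-- pure infiniteness of the closed ideal `A` of `M` -/
def PIr (A : Submodule ℂ M) : Prop :=
  ∀ h ∈ A, 0 ≤ h → ∀ ε > 0, ∃ u ∈ A, ∃ v ∈ A,
    ‖star u * h * u - h‖ < ε ∧ ‖star v * h * v - h‖ < ε ∧ ‖star u * h * v‖ < ε

/-- many copies -/
theorem PIr.fam (hA : IsCI A) (hPI : PIr A) {c : M} (hc : 0 ≤ c) (hcA : c ∈ A) :
    ∀ (n : ℕ) (δ : ℝ), 0 < δ → ∃ y : Fin n → M, (∀ i, y i ∈ A) ∧
      ∀ i j, ‖star (y i) * c * y j - (if i = j then c else 0)‖ < δ := by
  have hcs : star c = c := (IsSelfAdjoint.of_nonneg hc).star_eq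
  intro n
  induction n with
  | zero => intro δ _; exact ⟨fun _ => 0, fun i => i.elim0, fun i => i.elim0⟩
  | succ n ih =>
    intro δ hδ
    obtain ⟨y, hyA, hy⟩ := ih (δ / 2) (by positivity)
    set B : ℝ := 1 + ∑ i, ‖y i‖ with hB
    have hyB : ∀ i, ‖y i‖ ≤ B := fun i => by
      have : ‖y i‖ ≤ ∑ i, ‖y i‖ :=
        Finset.single_le_sum (f := fun i => ‖y i‖) (fun i _ => norm_nonneg _) (Finset.mem_univ i)
      linarith
    have hB1 : 1 ≤ B := by
      have : 0 ≤ ∑ i, ‖y i‖ := Finset.sum_nonneg fun i _ => norm_nonneg _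
      linarith
    have hBB : B ≤ B * B := by nlinarith
    set δ' : ℝ := δ / (2 * (B * B)) with hδ'
    have hδ'0 : 0 < δ' := by positivity
    have hδ'1 : δ' * (B * B) = δ / 2 := by rw [hδ']; field_simp
    obtain ⟨u, hu, v, hv, h1, h2, h3⟩ := hPI c hcA hc δ' hδ'0
    have h3' : ‖star v * c * u‖ < δ' := by
      have e : star v * c * u = star (star u * c * v) := by
        rw [star_mul, star_mul, star_star, hcs]; noncomm_ring
      rw [e, norm_star]; exact h3
    refine ⟨Fin.cons u fun i => v * y i, ?_, ?_⟩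
    · intro i
      refine Fin.cases ?_ (fun i => ?_) i
      · exact hu
      · exact hA.right _ _ hv
    · intro i j
      refine Fin.cases ?_ (fun i => ?_) i
      · refine Fin.cases ?_ (fun j => ?_) j
        · simp only [Fin.cons_zero, if_true]
          nlinarith
        · have : ¬ ((0 : Fin (n + 1)) = j.succ) := (Fin.succ_ne_zero j).symm
          simp only [Fin.cons_zero, Fin.cons_succ, if_neg this, sub_zero]
          rw [← mul_assoc]
          refine (norm_mul_le _ _).trans_lt ?_
          have := mul_le_mul h3.le (hyB j) (norm_nonneg _) hδ'0.le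
          nlinarith
      · refine Fin.cases ?_ (fun j => ?_) j
        · have : ¬ (i.succ = (0 : Fin (n + 1))) := Fin.succ_ne_zero i
          simp only [Fin.cons_zero, Fin.cons_succ, if_neg this, sub_zero]
          have e : star (v * y i) * c * u = star (y i) * (star v * c * u) := by
            rw [star_mul]; noncomm_ring
          rw [e]
          refine (norm_mul_le _ _).trans_lt ?_
          rw [norm_star]
          have := mul_le_mul (hyB i) h3'.le (norm_nonneg _) (by linarith)
          nlinarith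
        · simp only [Fin.cons_succ, Fin.succ_inj]
          have e : star (v * y i) * c * (v * y j) - (if i = j then c else 0) =
              star (y i) * (star v * c * v - c) * y j +
                (star (y i) * c * y j - (if i = j then c else 0)) := by
            rw [star_mul]; noncomm_ring
          rw [e]
          refine (norm_add_le _ _).trans_lt ?_
          have h5 : ‖star (y i) * (star v * c * v - c) * y j‖ ≤ B * δ' * B := by
            refine (norm_mul_le _ _).trans ?_
            refine mul_le_mul ?_ (hyB j) (norm_nonneg _) (by positivity)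
            refine (norm_mul_le _ _).trans ?_
            rw [norm_star]
            exact mul_le_mul (hyB i) h2.le (norm_nonneg _) (by linarith)
          have h6 := hy i j
          nlinarith

/-- `k η b = √((b - η)_+ / max(b, η))` -/
noncomputable def kF (η : ℝ) (b : M) : M := cfc (fun t : ℝ => √(max (t - η) 0 / max t η)) b

theorem kF_cont {η : ℝ} (hη : 0 < η) : Continuous fun t : ℝ => √(max (t - η) 0 / max t η) := by
  refine Real.continuous_sqrt.comp (Continuous.div (by fun_prop) (by fun_prop) fun t => ?_)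
  have : η ≤ max t η := le_max_right _ _
  linarith

theorem kF_sa (η : ℝ) (b : M) : star (kF η b) = kF η b := by
  have : IsSelfAdjoint (kF η b) := by unfold kF; cfc_tac
  exact this.star_eq

theorem kF_mul {η : ℝ} (hη : 0 < η) {b : M} (hb : 0 ≤ b) : kF η b * b * kF η b = pc η b := by
  have hs : IsSelfAdjoint b := IsSelfAdjoint.of_nonneg hb
  have hc := kF_cont hη
  unfold kF pc
  rw [← cfc_mul_id hc hs, ← cfc_mul (fun t : ℝ => √(max (t - η) 0 / max t η) * t)
    (fun t : ℝ => √(max (t - η) 0 / max t η)) b (hc.mul continuous_id).continuousOn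
    hc.continuousOn]
  refine cfc_congr fun t ht => ?_
  have h0 : 0 ≤ t := spectrum_nonneg_of_nonneg hb ht
  have h1 : 0 < max t η := lt_max_of_lt_right hη
  have h2 : √(max (t - η) 0 / max t η) * t * √(max (t - η) 0 / max t η) =
      max (t - η) 0 / max t η * t := by
    have := Real.mul_self_sqrt (show 0 ≤ max (t - η) 0 / max t η by positivity)
    calc _ = (√(max (t - η) 0 / max t η) * √(max (t - η) 0 / max t η)) * t := by ring
      _ = _ := by rw [this]
  simp only [h2]
  rcases le_total t η with h | h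
  · rw [max_eq_right (show t - η ≤ 0 by linarith)]; simp
  · rw [max_eq_left (show 0 ≤ t - η by linarith), max_eq_left h]
    have : t ≠ 0 := by linarith
    field_simp

theorem kF_sq_le {η : ℝ} (hη : 0 < η) {b : M} (hb : 0 ≤ b) :
    kF η b * kF η b ≤ η⁻¹ • pc η b := by
  have hs : IsSelfAdjoint b := IsSelfAdjoint.of_nonneg hb
  have hc := kF_cont hη
  unfold kF pc
  rw [← cfc_mul (fun t : ℝ => √(max (t - η) 0 / max t η))
    (fun t : ℝ => √(max (t - η) 0 / max t η)) b hc.continuousOn hc.continuousOn,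
    ← cfc_const_mul η⁻¹ (fun t : ℝ => max (t - η) 0) b (by fun_prop)]
  refine cfc_mono (fun t ht => ?_) (hc.mul hc).continuousOn (by fun_prop)
  have h1 : 0 < max t η := lt_max_of_lt_right hη
  rw [Real.mul_self_sqrt (by positivity), div_eq_mul_inv, mul_comm]
  refine mul_le_mul_of_nonneg_right ?_ (le_max_right _ _)
  exact inv_anti₀ hη (le_max_right _ _)

theorem norm_kF_mul_sq_le {η : ℝ} (hη : 0 < η) {b : M} (hb : 0 ≤ b) (u : M) :
    ‖kF η b * u‖ ^ 2 ≤ η⁻¹ * ‖star u * pc η b * u‖ := by
  have e : ‖kF η b * u‖ ^ 2 = ‖star u * (kF η b * kF η b) * u‖ := by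
    rw [sq, ← CStarRing.norm_star_mul_self, star_mul, kF_sa]
    congr 1
    noncomm_ring
  rw [e]
  have h1 := conj_mono (kF_sq_le hη hb) u
  have h0 : 0 ≤ star u * (kF η b * kF η b) * u := by
    refine conj_nonneg ?_ _
    have := star_mul_self_nonneg (kF η b)
    rwa [kF_sa] at this
  have h2 := CStarAlgebra.norm_le_norm_of_nonneg_of_le h0 h1
  rw [mul_smul_comm, smul_mul_assoc, norm_smul, Real.norm_eq_abs, abs_of_pos (by positivity)] at h2
  exact h2

theorem kF_conj {η : ℝ} (hη : 0 < η) {b : M} (hb : 0 ≤ b) (u v : M) :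
    star (kF η b * u) * b * (kF η b * v) = star u * pc η b * v := by
  rw [star_mul, kF_sa, ← kF_mul hη hb]
  noncomm_ring

/-- `K'` -/
theorem PIr.conj (hA : IsCI A) (hPI : PIr A) {a b : M} (ha : 0 ≤ a) (haA : a ∈ A) (hb : 0 ≤ b)
    (hbA : b ∈ A) {η : ℝ} (hη : 0 < η) (hab : a ∈ gen (pc η b)) {δ : ℝ} (hδ : 0 < δ) :
    ∃ z ∈ A, ‖star z * b * z - a * a‖ < δ ∧ ‖z‖ ^ 2 ≤ η⁻¹ * (‖a‖ ^ 2 + δ) := by
  set c := pc η b with hc
  have hc0 : 0 ≤ c := pc_nonneg η b
  have hcA : c ∈ A := pc_mem hA hη.le hbA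
  obtain ⟨n, x, w, hw, h1⟩ := exists_conj_sum hc0 ha hab (δ := δ / 2) (by positivity)
  set B : ℝ := ∑ i, ‖w i‖ with hB
  have hB0 : 0 ≤ B := Finset.sum_nonneg fun i _ => norm_nonneg _
  set δ' : ℝ := δ / (2 * (B * B + 1)) with hδ'
  have hδ'0 : 0 < δ' := by positivity
  have hδ'1 : δ' * (B * B + 1) = δ / 2 := by rw [hδ']; field_simp
  obtain ⟨y, hyA, hy⟩ := hPI.fam hA hc0 hcA n δ' hδ'0
  set u := ∑ i, y i * w i with hu
  have huA : u ∈ A := Submodule.sum_mem _ fun i _ => hA.right _ _ (hyA i)
  have h2 : ‖star u * c * u - ∑ i, star (w i) * c * w i‖ ≤ B * δ' * B := by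
    have e : star u * c * u - ∑ i, star (w i) * c * w i =
        ∑ i, ∑ j, star (w i) * (star (y i) * c * y j - (if i = j then c else 0)) * w j := by
      have e1 : star u * c * u = ∑ i, ∑ j, star (w i) * (star (y i) * c * y j) * w j := by
        rw [hu, star_sum, Finset.sum_mul, Finset.sum_mul]
        refine Finset.sum_congr rfl fun i _ => ?_
        rw [Finset.mul_sum]
        refine Finset.sum_congr rfl fun j _ => ?_
        rw [star_mul]; noncomm_ring
      have e2 : ∑ i, star (w i) * c * w i =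
          ∑ i, ∑ j, star (w i) * (if i = j then c else 0) * w j := by
        refine Finset.sum_congr rfl fun i _ => ?_
        rw [Finset.sum_eq_single i]
        · simp
        · intro j _ hj
          rw [if_neg (Ne.symm hj)]; simp
        · simp
      rw [e1, e2, ← Finset.sum_sub_distrib]
      refine Finset.sum_congr rfl fun i _ => ?_
      rw [← Finset.sum_sub_distrib]
      refine Finset.sum_congr rfl fun j _ => ?_
      rw [mul_sub, sub_mul]
    rw [e]
    have e3 : B * δ' * B = ∑ i, ∑ j, ‖w i‖ * δ' * ‖w j‖ := by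
      rw [hB, Finset.sum_mul, Finset.sum_mul]
      refine Finset.sum_congr rfl fun i _ => ?_
      rw [Finset.mul_sum]
    rw [e3]
    refine (norm_sum_le _ _).trans (Finset.sum_le_sum fun i _ => ?_)
    refine (norm_sum_le _ _).trans (Finset.sum_le_sum fun j _ => ?_)
    refine (norm_mul_le _ _).trans ?_
    refine mul_le_mul_of_nonneg_right ?_ (norm_nonneg _)
    refine (norm_mul_le _ _).trans ?_
    rw [norm_star]
    exact mul_le_mul_of_nonneg_left (hy i j).le (norm_nonneg _)
  have h3 : ‖star u * c * u - a * a‖ < δ := by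
    have e : star u * c * u - a * a = (star u * c * u - ∑ i, star (w i) * c * w i) -
        (a * a - ∑ i, star (w i) * c * w i) := by abel
    rw [e]
    refine (norm_sub_le _ _).trans_lt ?_
    nlinarith
  refine ⟨kF η b * u, hA.left _ _ huA, ?_, ?_⟩
  · rw [kF_conj hη hb]; exact h3
  · refine (norm_kF_mul_sq_le hη hb u).trans ?_
    refine mul_le_mul_of_nonneg_left ?_ (by positivity)
    have e : star u * c * u = (star u * c * u - a * a) + a * a := by abel
    have h4 := norm_add_le (star u * c * u - a * a) (a * a)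
    rw [← e] at h4
    have h5 := norm_mul_le a a
    rw [← hc]
    nlinarith

end Vale.Agent.P133o
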