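import Vale.Agent.P133o.Test

/-!
# P133: part (b) with finite test sets
-/

set_option linter.unusedSectionVars false
set_option linter.unusedVariables false

namespace Vale.Agent.P133o

variable {M : Type*} [CStarAlgebra M] [PartialOrder M] [StarOrderedRing M]
variable {Q A : Submodule ℂ M}

/-- splitting modulo one closed ideal -/
def SplitsOne (A : Submodule ℂ M) : Prop :=
  ∀ h ∈ A, 0 ≤ h → ∀ K : Submodule ℂ M, IsCI K → h ∉ K → ∃ a b, OP h a b ∧ a ∉ K ∧ b ∉ K

theorem RI_le_RI {h a : M} (ha : a ∈ RI h) : RI a ≤ RI h := by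
  refine Submodule.topologicalClosure_minimal _ ?_ (Submodule.isClosed_topologicalClosure _)
  rintro _ ⟨y, rfl⟩
  exact RI_mul ha y

theorem RI_smulR {h x : M} (hx : x ∈ RI h) (r : ℝ) : r • x ∈ RI h := by
  rw [← Complex.coe_smul]
  exact (RI h).smul_mem _ hx

theorem star_mul_RI {a b x : M} (hab : star a * b = 0) (hx : x ∈ RI a) : star x * b = 0 := by
  have h1 : x ∈ closure ((LinearMap.range (LinearMap.mulLeft ℂ a) : Submodule ℂ M) : Set M) := hx
  have h2 : IsClosed {y : M | star y * b = 0} :=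
    isClosed_eq (by fun_prop) continuous_const
  refine h2.closure_subset_iff.2 ?_ h1
  rintro _ ⟨y, rfl⟩
  change star (a * y) * b = 0
  rw [star_mul, mul_assoc, hab, mul_zero]

theorem mul_RI {a b x : M} (hab : a * b = 0) (hx : x ∈ RI b) : a * x = 0 := by
  have h1 : x ∈ closure ((LinearMap.range (LinearMap.mulLeft ℂ b) : Submodule ℂ M) : Set M) := hx
  have h2 : IsClosed {y : M | a * y = 0} :=
    isClosed_eq (by fun_prop) continuous_const
  refine h2.closure_subset_iff.2 ?_ h1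
  rintro _ ⟨y, rfl⟩
  change a * (b * y) = 0
  rw [← mul_assoc, hab, zero_mul]

theorem orth_RI {a b x y : M} (ha : 0 ≤ a) (hab : a * b = 0) (hx : 0 ≤ x) (hxa : x ∈ RI a)
    (hyb : y ∈ RI b) : x * y = 0 := by
  have has : star a = a := (IsSelfAdjoint.of_nonneg ha).star_eq
  have hxs : star x = x := (IsSelfAdjoint.of_nonneg hx).star_eq
  have h1 : star x * b = 0 := star_mul_RI (by rw [has]; exact hab) hxa
  rw [hxs] at h1
  exact mul_RI h1 hyb

theorem pc_mem_RI {h e : M} (he : 0 ≤ e) (heR : e ∈ RI h) {c : ℝ} (hc : 0 < c) : pc c e ∈ RI h := by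
  have hs : IsSelfAdjoint e := IsSelfAdjoint.of_nonneg he
  have hg : Continuous fun t : ℝ => max (t - c) 0 / max t c := by
    refine Continuous.div (by fun_prop) (by fun_prop) fun t => ?_
    have : c ≤ max t c := le_max_right _ _
    linarith
  have e1 : pc c e = e * cfc (fun t : ℝ => max (t - c) 0 / max t c) e := by
    rw [← cfc_id_mul hg hs]
    unfold pc
    refine cfc_congr fun t ht => ?_
    rcases le_total t c with h | h
    · rw [max_eq_right (show t - c ≤ 0 by linarith)]; simp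
    · rw [max_eq_left h]
      have : t ≠ 0 := by linarith
      field_simp
  rw [e1]
  exact RI_mul heR _

/-- `e (c - e)_+` -/
noncomputable def vF (c : ℝ) (e : M) : M := cfc (fun t : ℝ => t * max (c - t) 0) e

theorem vF_nonneg (c : ℝ) {e : M} (he : 0 ≤ e) : 0 ≤ vF c e := by
  refine cfc_nonneg fun t ht => ?_
  have h0 : 0 ≤ t := spectrum_nonneg_of_nonneg he ht
  positivity

theorem vF_eq (c : ℝ) {e : M} (he : IsSelfAdjoint e) :
    vF c e = e * cfc (fun t : ℝ => max (c - t) 0) e :=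
  cfc_id_mul (by fun_prop) he

theorem pc_mul_vF (c : ℝ) (e : M) : pc c e * vF c e = 0 := by
  unfold pc vF
  rw [← cfc_mul (fun t : ℝ => max (t - c) 0) (fun t : ℝ => t * max (c - t) 0) e (by fun_prop)
    (by fun_prop)]
  have h1 : (fun t : ℝ => max (t - c) 0 * (t * max (c - t) 0)) = fun _ => 0 := by
    ext t
    rcases le_total t c with h | h
    · rw [max_eq_right (show t - c ≤ 0 by linarith)]; simp
    · rw [max_eq_right (show c - t ≤ 0 by linarith)]; simp
  rw [h1, cfc_const_zero]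

/-- `(ρ/4) e ≤ e (ρ/2 - e)_+ + (ρ/2) (e - ρ/4)_+` -/
theorem vF_ineq {ρ : ℝ} (hρ : 0 < ρ) {e : M} (he : 0 ≤ e) :
    (ρ / 4) • e ≤ vF (ρ / 2) e + (ρ / 2) • pc (ρ / 4) e := by
  have hs : IsSelfAdjoint e := IsSelfAdjoint.of_nonneg he
  have e1 : (ρ / 4) • e = cfc (fun t : ℝ => ρ / 4 * t) e := by
    rw [cfc_const_mul (ρ / 4) (fun t : ℝ => t) e (by fun_prop), cfc_id' ℝ e]
  have e2 : vF (ρ / 2) e + (ρ / 2) • pc (ρ / 4) e =
      cfc (fun t : ℝ => t * max (ρ / 2 - t) 0 + ρ / 2 * max (t - ρ / 4) 0) e := by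
    unfold vF pc
    rw [cfc_add e (fun t : ℝ => t * max (ρ / 2 - t) 0) (fun t : ℝ => ρ / 2 * max (t - ρ / 4) 0)
      (by fun_prop) (by fun_prop),
      cfc_const_mul (ρ / 2) (fun t : ℝ => max (t - ρ / 4) 0) e (by fun_prop)]
  rw [e1, e2]
  refine cfc_mono (fun t ht => ?_) (by fun_prop) (by fun_prop)
  have h0 : 0 ≤ t := spectrum_nonneg_of_nonneg he ht
  rcases le_total t (ρ / 4) with h1 | h1
  · rw [max_eq_left (show 0 ≤ ρ / 2 - t by linarith), max_eq_right (show t - ρ / 4 ≤ 0 by linarith)]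
    nlinarith
  · rw [max_eq_left (show 0 ≤ t - ρ / 4 by linarith)]
    rcases le_total t (ρ / 2) with h2 | h2
    · rw [max_eq_left (show 0 ≤ ρ / 2 - t by linarith)]
      nlinarith [mul_nonneg (show 0 ≤ t - ρ / 4 by linarith) (show 0 ≤ ρ / 2 - t by linarith)]
    · rw [max_eq_right (show ρ / 2 - t ≤ 0 by linarith)]
      nlinarith

theorem not_mem_add {K : Submodule ℂ M} (hK : IsCI K) {a b : M} (ha : 0 ≤ a) (hb : 0 ≤ b)
    (h : a ∉ K) : a + b ∉ K := by
  intro hm
  exact h (hK.hered ha hm (le_add_of_nonneg_right hb))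

theorem OP.zero (h : M) : OP h 0 0 :=
  ⟨le_rfl, le_rfl, (RI h).zero_mem, (RI h).zero_mem, mul_zero _⟩

theorem finset_dist {s : Finset (Submodule ℂ M)} {h : M} (hs : ∀ K ∈ s, IsCI K ∧ h ∉ K) :
    ∃ ρ > 0, ∀ K ∈ s, ∀ a ∈ K, ρ ≤ ‖h - a‖ := by
  classical
  induction s using Finset.induction_on with
  | empty => exact ⟨1, one_pos, by simp⟩
  | insert K s _ ih =>
    obtain ⟨ρ₁, hρ₁, h1⟩ := ih fun K' hK' => hs K' (Finset.mem_insert_of_mem hK')
    obtain ⟨ρ₂, hρ₂, h2⟩ := exists_dist (hs K (Finset.mem_insert_self _ _)).1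
      (hs K (Finset.mem_insert_self _ _)).2
    refine ⟨min ρ₁ ρ₂, lt_min hρ₁ hρ₂, fun K' hK' a ha => ?_⟩
    rcases Finset.mem_insert.1 hK' with rfl | hK'
    · exact (min_le_right _ _).trans (h2 a ha)
    · exact (min_le_left _ _).trans (h1 K' hK' a ha)

/-- one orthogonal pair outside finitely many closed ideals -/
theorem SplitsOne.multi (hA : IsCI A) (hS : SplitsOne A) (s : Finset (Submodule ℂ M)) :
    ∀ h ∈ A, 0 ≤ h → (∀ K ∈ s, IsCI K ∧ h ∉ K) → ∃ a b, OP h a b ∧ ∀ K ∈ s, a ∉ K ∧ b ∉ K := by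
  classical
  induction s using Finset.induction_on with
  | empty => intro h _ _ _; exact ⟨0, 0, OP.zero h, by simp⟩
  | insert K₀ s _ ih =>
    intro h hhA hh hs
    have hK₀ := hs K₀ (Finset.mem_insert_self _ _)
    have hs' : ∀ K ∈ s, IsCI K ∧ h ∉ K := fun K hK => hs K (Finset.mem_insert_of_mem hK)
    -- combination of two orthogonal elements
    have comb : ∀ u v : M, 0 ≤ u → 0 ≤ v → u ∈ RI h → v ∈ RI h → u * v = 0 →
        (∀ K ∈ s, u ∉ K) → v ∉ K₀ → ∃ a b, OP h a b ∧ ∀ K ∈ insert K₀ s, a ∉ K ∧ b ∉ K := by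
      intro u v hu hv huR hvR huv hus hvK
      have huA : u ∈ A := RI_le hA hhA huR
      have hvA : v ∈ A := RI_le hA hhA hvR
      obtain ⟨a₁, b₁, ⟨ha₁, hb₁, ha₁R, hb₁R, hab₁⟩, h1⟩ :=
        ih u huA hu fun K hK => ⟨(hs' K hK).1, hus K hK⟩
      obtain ⟨a₂, b₂, ⟨ha₂, hb₂, ha₂R, hb₂R, hab₂⟩, h2⟩ := hS v hvA hv K₀ hK₀.1 hvK
      have hvu : v * u = 0 := by
        have : v * u = star (u * v) := by
          rw [star_mul, (IsSelfAdjoint.of_nonneg hu).star_eq, (IsSelfAdjoint.of_nonneg hv).star_eq]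
        rw [this, huv, star_zero]
      refine ⟨a₁ + a₂, b₁ + b₂, ⟨add_nonneg ha₁ ha₂, add_nonneg hb₁ hb₂,
        (RI h).add_mem (RI_le_RI huR ha₁R) (RI_le_RI hvR ha₂R),
        (RI h).add_mem (RI_le_RI huR hb₁R) (RI_le_RI hvR hb₂R), ?_⟩, ?_⟩
      · have e1 : a₁ * b₂ = 0 := orth_RI hu huv ha₁ ha₁R hb₂R
        have e2 : a₂ * b₁ = 0 := orth_RI hv hvu ha₂ ha₂R hb₁R
        rw [add_mul, mul_add, mul_add, hab₁, hab₂, e1, e2]
        simp
      · intro K hK
        rcases Finset.mem_insert.1 hK with rfl | hK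
        · constructor
          · rw [add_comm]; exact not_mem_add hK₀.1 ha₂ ha₁ h2.1
          · rw [add_comm]; exact not_mem_add hK₀.1 hb₂ hb₁ h2.2
        · exact ⟨not_mem_add (hs' K hK).1 ha₁ ha₂ (h1 K hK).1,
            not_mem_add (hs' K hK).1 hb₁ hb₂ (h1 K hK).2⟩
    obtain ⟨a, b, ⟨ha, hb, haR, hbR, hab⟩, h1⟩ := ih h hhA hh hs'
    have hba : b * a = 0 := by
      have : b * a = star (a * b) := by
        rw [star_mul, (IsSelfAdjoint.of_nonneg ha).star_eq, (IsSelfAdjoint.of_nonneg hb).star_eq]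
      rw [this, hab, star_zero]
    by_cases haK : a ∈ K₀
    swap
    · exact comb b a hb ha hbR haR hba (fun K hK => (h1 K hK).2) haK
    · -- use a + t h
      obtain ⟨ρ, hρ, hρ2⟩ := finset_dist (s := s) (h := a) fun K hK => ⟨(hs' K hK).1, (h1 K hK).1⟩
      obtain ⟨t, ht⟩ : ∃ t, t = ρ / (4 * (‖h‖ + 1)) := ⟨_, rfl⟩
      have ht0 : 0 < t := by rw [ht]; positivity
      have hth : ‖t • h‖ ≤ ρ / 4 := by
        rw [norm_smul, Real.norm_eq_abs, abs_of_pos ht0, ht, div_mul_eq_mul_div,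
          div_le_div_iff₀ (by positivity) (by norm_num)]
        nlinarith [norm_nonneg h]
      have hth0 : 0 ≤ t • h := smul_nonneg ht0.le hh
      obtain ⟨e, he⟩ : ∃ e, e = a + t • h := ⟨_, rfl⟩
      have he0 : 0 ≤ e := by rw [he]; exact add_nonneg ha hth0
      have hes : IsSelfAdjoint e := IsSelfAdjoint.of_nonneg he0
      have heR : e ∈ RI h := by rw [he]; exact (RI h).add_mem haR (RI_smulR (RI_self h) t)
      have hea : e - a = t • h := by rw [he]; abel
      refine comb (pc (ρ / 2) e) (vF (ρ / 2) e) (pc_nonneg _ _) (vF_nonneg _ he0)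
        (pc_mem_RI he0 heR (by positivity)) ?_ (pc_mul_vF _ _) ?_ ?_
      · rw [vF_eq _ hes]; exact RI_mul heR _
      · intro K hK hm
        have h3 := hρ2 K hK _ hm
        have h4 := norm_sub_pc_le (show (0 : ℝ) ≤ ρ / 2 by positivity) he0
        have e1 : a - pc (ρ / 2) e = (e - pc (ρ / 2) e) - (e - a) := by abel
        have h5 := norm_sub_le (e - pc (ρ / 2) e) (e - a)
        rw [← e1, hea] at h5
        linarith
      · intro hm
        have h3 : pc (ρ / 4) e ∈ K₀ := by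
          refine pc_mem_of_norm_sub_le hK₀.1 hes haK ?_
          rw [hea]; exact hth
        have h4 : (ρ / 4) • e ∈ K₀ := by
          refine hK₀.1.hered (smul_nonneg (by positivity) he0) (K₀.add_mem hm (smulR_mem h3 _))
            (vF_ineq hρ he0)
        have h5 : e ∈ K₀ := by
          have := smulR_mem h4 (ρ / 4)⁻¹
          rwa [smul_smul, inv_mul_cancel₀ (by positivity), one_smul] at this
        have h6 : t • h ∈ K₀ := by rw [← hea]; exact K₀.sub_mem h5 haK
        have h7 : h ∈ K₀ := by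
          have := smulR_mem h6 t⁻¹
          rwa [smul_smul, inv_mul_cancel₀ ht0.ne', one_smul] at this
        exact hK₀.2 h7

/-- the subspace of bad coefficients -/
def badC (J : Submodule ℂ M) (a b : M) : Submodule ℂ M where
  carrier := {c | b * c * a ∈ J}
  add_mem' := by
    intro x y hx hy
    change b * (x + y) * a ∈ J
    rw [mul_add, add_mul]; exact J.add_mem hx hy
  zero_mem' := by simp
  smul_mem' := by
    intro r x hx
    change b * (r • x) * a ∈ J
    rw [mul_smul_comm, smul_mul_assoc]; exact J.smul_mem _ hx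

theorem exists_good_c (s : Finset (Submodule ℂ M)) {a b : M}
    (h : ∀ J ∈ s, ∃ c, b * c * a ∉ J) : ∃ c, ∀ J ∈ s, b * c * a ∉ J := by
  classical
  by_contra hcon
  push Not at hcon
  have h1 : (⊤ : Subspace ℂ M) ∉ s.image (fun J => badC J a b) := by
    intro hm
    obtain ⟨J, hJ, hJt⟩ := Finset.mem_image.1 hm
    obtain ⟨c, hc⟩ := h J hJ
    have : c ∈ badC J a b := by rw [hJt]; trivial
    exact hc this
  refine Subspace.biUnion_ne_univ_of_top_notMem h1 ?_
  ext c
  simp only [Finset.mem_image, Set.mem_iUnion, Set.mem_univ, iff_true]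
  obtain ⟨J, hJ, hc⟩ := hcon c
  exact ⟨badC J a b, ⟨J, hJ, rfl⟩, hc⟩

/-- two copies of a full element under every positive element -/
def Halves (A : Submodule ℂ M) : Prop :=
  ∀ h ∈ A, 0 ≤ h → ∀ ε > 0, ∃ x, 0 ≤ x ∧ x ∈ A ∧ pc ε h ∈ gen x ∧
    ∀ δ > 0, LeD (Fin 2) (Fin 1) A x h δ

/-- two copies from a square zero element -/
theorem two_copies_of (hA : IsCI A) {h : M} (hh : 0 ≤ h) (hhA : h ∈ A) {a b c : M}
    (hab : OP h a b) : ∃ x, 0 ≤ x ∧ x ∈ A ∧ (∀ K, IsCI K → x ∈ K → b * c * a ∈ K) ∧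
      ∀ δ' > 0, LeD (Fin 2) (Fin 1) A x h δ' := by
  obtain ⟨ha0, hb0, haR, hbR, hab0⟩ := hab
  have has : star a = a := (IsSelfAdjoint.of_nonneg ha0).star_eq
  have hbs : star b = b := (IsSelfAdjoint.of_nonneg hb0).star_eq
  have haA : a ∈ A := RI_le hA hhA haR
  obtain ⟨r, hr⟩ : ∃ r, r = b * c * a := ⟨_, rfl⟩
  have hrs : star r = a * star c * b := by rw [hr, star_mul, star_mul, has, hbs, mul_assoc]
  have hrr : r * r = 0 := by
    have : r * r = b * c * (a * b) * c * a := by rw [hr]; noncomm_ring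
    rw [this, hab0]; simp
  have hrA : r ∈ A := by rw [hr]; exact hA.left _ _ haA
  have hrr0 : 0 ≤ star r * r := star_mul_self_nonneg r
  obtain ⟨m, hm0, hmm⟩ := exists_sqrt hrr0
  have hms : star m = m := (IsSelfAdjoint.of_nonneg hm0).star_eq
  refine ⟨(star r * r) * (star r * r), mul_self_nn hrr0, hA.left _ _ (hA.left _ _ hrA), ?_, ?_⟩
  · intro K hK hx
    rw [← hr]
    refine hK.of_star_mul_self (mem_of_pow_mem hK hrr0 (m := 2) (by norm_num) ?_)
    rw [sq]
    exact hx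
  · intro δ' hδ'
    refine LeD.of_vec hA hh hhA (v := ![star r * r, r * m]) ?_ ?_ hδ'
    · intro i
      fin_cases i
      · change star r * r ∈ RI h
        rw [hrs]
        have : a * star c * b * r = a * (star c * b * r) := by noncomm_ring
        rw [this]
        exact RI_mul haR _
      · change r * m ∈ RI h
        rw [hr]
        have : b * c * a * m = b * (c * a * m) := by noncomm_ring
        rw [this]
        exact RI_mul hbR _
    · have h12 : star (star r * r) * (r * m) = 0 := by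
        rw [star_mul, star_star]
        have : star r * r * (r * m) = star r * (r * r) * m := by noncomm_ring
        rw [this, hrr]; simp
      intro i j
      fin_cases i <;> fin_cases j
      · simp [star_mul]
      · simpa using h12
      · have h21 : star (r * m) * (star r * r) = 0 := by
          have : star (r * m) * (star r * r) = star (star (star r * r) * (r * m)) := by
            simp [star_mul, mul_assoc]
          rw [this, h12, star_zero]
        simpa using h21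
      · have : star (r * m) * (r * m) = star r * r * (star r * r) := by
          rw [star_mul, hms]
          have : m * star r * (r * m) = m * (star r * r) * m := by noncomm_ring
          rw [this, ← hmm]; noncomm_ring
        simpa using this

theorem FR.halves (hA : IsCI A) (hF : FR A) (hS : SplitsOne A) : Halves A := by
  intro h hhA hh ε hε
  obtain ⟨s, hs1, hs2⟩ := hF.tests hA hhA hh hε
  obtain ⟨a, b, hab, h1⟩ := hS.multi hA s h hhA hh fun K hK => ⟨(hs1 K hK).1, (hs1 K hK).2.2.1⟩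
  have haA : a ∈ A := RI_le hA hhA hab.2.2.1
  have hbA : b ∈ A := RI_le hA hhA hab.2.2.2.1
  obtain ⟨c, hc⟩ := exists_good_c s (a := a) (b := b) fun J hJ =>
    (hs1 J hJ).2.2.2 a haA b hbA (h1 J hJ).1 (h1 J hJ).2
  obtain ⟨x, hx, hxA, hx1, hx2⟩ := two_copies_of hA hh hhA (c := c) hab
  refine ⟨x, hx, hxA, hs2 _ (gen_isCI _) (gen_le hA hxA) ?_, hx2⟩
  intro J hJ hle
  exact hc J hJ (hx1 J (hs1 J hJ).1 (hle (mem_gen_self _)))

theorem Halves.many (hA : IsCI A) (hS : Halves A) : ∀ (k : ℕ) (h : M), h ∈ A →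
    0 ≤ h → ∀ ε > 0, ∃ x, 0 ≤ x ∧ x ∈ A ∧ pc ε h ∈ gen x ∧
      ∀ δ > 0, LeD (Fin (2 ^ (k + 1))) (Fin 1) A x h δ := by
  intro k
  induction k with
  | zero =>
    intro h hhA hh ε hε
    obtain ⟨x, hx, hxA, hx1, hx2⟩ := hS h hhA hh ε hε
    exact ⟨x, hx, hxA, hx1, fun δ hδ => (hx2 δ hδ).of_card (by simp)⟩
  | succ k ih =>
    intro h hhA hh ε hε
    obtain ⟨x₁, hx₁, hx₁A, hx₁1, hx₁2⟩ := hS h hhA hh (ε / 2) (by positivity)
    obtain ⟨δ₁, hδ₁, hcut⟩ := exists_cut hh hx₁ hε hx₁1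
    obtain ⟨x, hx, hxA, hx1, hx2⟩ := ih x₁ hx₁A hx₁ δ₁ hδ₁
    refine ⟨x, hx, hxA, gen_le (gen_isCI _) hx1 hcut, fun δ hδ => ?_⟩
    have h1 : LeD (Fin (2 ^ (k + 1)) × Fin 2) (Fin 1 × Fin 2) A x x₁ (δ / 2) :=
      (hx2 (δ / 2) (by positivity)).amp _ (by positivity)
    have h2 : ∀ δ' > 0, LeD (Fin 1 × Fin 2) (Fin 1) A x₁ h δ' :=
      fun δ' hδ' => (hx₁2 δ' hδ').of_card (by simp)
    have h3 := h1.trans hA h2 (δ' := δ / 2) (by positivity)
    rw [add_halves] at h3
    refine h3.of_card ?_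
    simp [pow_succ]

theorem pi_of_halves {n : ℕ} (hn : 1 ≤ n) (hA : IsCI A) (hW : WPIr A n)
    (hS : Halves A) : PIr A := by
  intro h hhA hh ε hε
  obtain ⟨r, hr0, hrr⟩ := exists_sqrt hh
  have hrA : r ∈ A := hA.hered_sqrt (IsSelfAdjoint.of_nonneg hr0) hhA (le_of_eq hrr)
  obtain ⟨B, hB⟩ : ∃ B, B = ‖r‖ + 1 := ⟨_, rfl⟩
  have hB0 : 0 < B := by rw [hB]; positivity
  obtain ⟨η, hη⟩ : ∃ η, η = ε / (4 * B) := ⟨_, rfl⟩
  have hη0 : 0 < η := by rw [hη]; positivity
  have hηB : η * (2 * B) = ε / 2 := by rw [hη]; field_simp; norm_num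
  obtain ⟨k, hk⟩ : ∃ k : ℕ, n ≤ 2 ^ (k + 1) :=
    ⟨n, (Nat.lt_two_pow_self.le).trans (Nat.pow_le_pow_right (by norm_num) (by omega))⟩
  obtain ⟨x, hx, hxA, hx1, hx2⟩ := hS.many hA k h hhA hh (η ^ 2) (by positivity)
  have hpr : pc η r ∈ gen x := by
    refine gen_le (gen_isCI _) hx1 ?_
    refine pc_mem_of_sq_le (gen_isCI _) hr0 (mem_gen_self _) hη0.le ?_
    rw [hrr]
    exact le_add_pc _ (IsSelfAdjoint.of_nonneg hh)
  obtain ⟨m, y, w, hw, h1⟩ := exists_conj_sum hx (pc_nonneg η r) hpr (δ := ε / 16) (by positivity)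
  set a := pc η r with ha
  have haA : a ∈ A := pc_mem hA hη0.le hrA
  have h2 : LeD (Fin 1) (Fin m) A (a * a) x (ε / 8) := by
    refine ⟨fun k _ => w k, fun k _ => ?_, fun i j => ?_⟩
    · change w k ∈ A
      rw [hw]; exact hA.left _ _ haA
    · rw [if_pos (Subsingleton.elim i j), norm_sub_rev]
      linarith
  have h3 : LeD (Fin 1 × Fin 2) (Fin m × Fin 2) A (a * a) x (ε / 8) := h2.amp _ (by positivity)
  have h4 : ∀ δ' > 0, LeD (Fin m × Fin 2) (Fin n) A x x δ' := by
    intro δ' hδ'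
    refine hW.many hn hA hx hxA m (Fin m × Fin 2) ?_ δ' hδ'
    simp only [Fintype.card_prod, Fintype.card_fin]
    have : m < 2 ^ m := Nat.lt_two_pow_self
    calc m * 2 ≤ 2 ^ m * 2 := by omega
      _ = 2 ^ (m + 1) * 1 := by ring
      _ ≤ 2 ^ (m + 1) * n := Nat.mul_le_mul_left _ hn
  have h5 := h3.trans hA h4 (δ' := ε / 8) (by positivity)
  have h6 : ∀ δ' > 0, LeD (Fin n) (Fin 1) A x h δ' :=
    fun δ' hδ' => (hx2 δ' hδ').of_card (by simpa using hk)
  have h7 := (h5.trans hA h6 (δ' := ε / 8) (by positivity)).of_card (ι' := Fin 2) (by simp)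
  obtain ⟨W, hWA, hW2⟩ := h7
  have h8 : ‖a * a - h‖ ≤ ε / 2 := by
    have e : a * a - h = -((r - a) * r + a * (r - a)) := by rw [← hrr]; noncomm_ring
    rw [e, norm_neg]
    have h9 := norm_sub_pc_le hη0.le hr0
    have h10 := norm_pc_le hη0.le hr0
    rw [← ha] at h9 h10
    have h11 : ‖(r - a) * r‖ ≤ η * B :=
      (norm_mul_le _ _).trans (mul_le_mul h9 (by linarith) (norm_nonneg _) hη0.le)
    have h12 : ‖a * (r - a)‖ ≤ B * η :=
      (norm_mul_le _ _).trans (mul_le_mul (by linarith) h9 (norm_nonneg _) hB0.le)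
    have h13 := norm_add_le ((r - a) * r) (a * (r - a))
    linarith
  refine ⟨W 0 0, hWA _ _, W 0 1, hWA _ _, ?_, ?_, ?_⟩
  · have h9 := hW2 0 0
    rw [Fin.sum_univ_one, if_pos rfl] at h9
    have e : star (W 0 0) * h * W 0 0 - h = (star (W 0 0) * h * W 0 0 - a * a) + (a * a - h) := by
      abel
    rw [e]
    refine (norm_add_le _ _).trans_lt ?_
    linarith
  · have h9 := hW2 1 1
    rw [Fin.sum_univ_one, if_pos rfl] at h9
    have e : star (W 0 1) * h * W 0 1 - h = (star (W 0 1) * h * W 0 1 - a * a) + (a * a - h) := by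
      abel
    rw [e]
    refine (norm_add_le _ _).trans_lt ?_
    linarith
  · have h9 := hW2 0 1
    rw [Fin.sum_univ_one, if_neg (by decide), sub_zero] at h9
    linarith

end Vale.Agent.P133o
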