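import Vale.Agent.P133o.Test

/-!
# P133: ideal lattices generated by join-prime ideals have finite tests
-/

set_option linter.unusedSectionVars false
set_option linter.unusedVariables false

namespace Vale.Agent.P133o

variable {M : Type*} [CStarAlgebra M] [PartialOrder M] [StarOrderedRing M]
variable {Q A : Submodule ℂ M}

/-- join-prime closed ideals, relative form -/
def JPr (A D : Submodule ℂ M) : Prop :=
  IsCI D ∧ D ≤ A ∧ ∀ I J, IsCI I → IsCI J → I ≤ A → J ≤ A →
    D ≤ (I ⊔ J).topologicalClosure → D ≤ I ∨ D ≤ J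

/-- relative form of the generation hypothesis -/
def JPG (A : Submodule ℂ M) : Prop :=
  ∀ I L, IsCI I → IsCI L → I ≤ A → L ≤ A → (∀ D, JPr A D → D ≤ I → D ≤ L) → I ≤ L

/-- way below -/
def WB (D I : Submodule ℂ M) : Prop := ∃ g ∈ I, 0 ≤ g ∧ ∃ δ : ℝ, 0 < δ ∧ D ≤ gen (pc δ g)

theorem sSup_isCI {S : Set (Submodule ℂ M)} (hS : ∀ I ∈ S, IsCI I) :
    IsCI (sSup S).topologicalClosure where
  closed := Submodule.isClosed_topologicalClosure _
  left := by
    intro a x hx
    have h1 : sSup S ≤ (sSup S).comap (LinearMap.mulLeft ℂ a) :=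
      sSup_le fun I hI y hy => Submodule.mem_comap.2 (le_sSup hI ((hS I hI).left a y hy))
    exact map_mem_closure (f := fun y : M => a * y) (by fun_prop) hx fun y hy => h1 hy
  right := by
    intro a x hx
    have h1 : sSup S ≤ (sSup S).comap (LinearMap.mulRight ℂ a) :=
      sSup_le fun I hI y hy => Submodule.mem_comap.2 (le_sSup hI ((hS I hI).right a y hy))
    exact map_mem_closure (f := fun y : M => y * a) (by fun_prop) hx fun y hy => h1 hy

theorem sup_isCI {I J : Submodule ℂ M} (hI : IsCI I) (hJ : IsCI J) :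
    IsCI (I ⊔ J).topologicalClosure := by
  rw [← sSup_pair]
  refine sSup_isCI fun K hK => ?_
  rcases hK with rfl | rfl
  · exact hI
  · exact hJ

theorem WB.mono {D I J : Submodule ℂ M} (h : WB D I) (hIJ : I ≤ J) : WB D J := by
  obtain ⟨g, hg, hg0, δ, hδ, hD⟩ := h
  exact ⟨g, hIJ hg, hg0, δ, hδ, hD⟩

theorem WB.le {D I : Submodule ℂ M} (hI : IsCI I) (h : WB D I) : D ≤ I := by
  obtain ⟨g, hg, hg0, δ, hδ, hD⟩ := h
  exact hD.trans (gen_le hI (pc_mem hI hδ.le hg))

/-- the positive part of the real part -/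
theorem exists_pos_part (hQ : IsCI Q) {s : M} (hs : s ∈ Q) :
    ∃ r ∈ Q, 0 ≤ r ∧ (1 / 2 : ℝ) • (s + star s) ≤ r := by
  have hsa : IsSelfAdjoint ((1 / 2 : ℝ) • (s + star s)) := by
    rw [IsSelfAdjoint, star_smul, star_add, star_star, add_comm]
    simp
  have hm : (1 / 2 : ℝ) • (s + star s) ∈ Q := smulR_mem (Q.add_mem hs (hQ.star_mem hs)) _
  refine ⟨pc 0 ((1 / 2 : ℝ) • (s + star s)), pc_mem hQ le_rfl hm, pc_nonneg _ _, ?_⟩
  have := le_add_pc 0 hsa
  rwa [map_zero, zero_add] at this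

theorem le_add_re {g s : M} (hg : IsSelfAdjoint g) {ε : ℝ} (h : ‖g - s‖ ≤ ε) :
    g ≤ algebraMap ℝ M ε + (1 / 2 : ℝ) • (s + star s) := by
  set r : M := (1 / 2 : ℝ) • (s + star s) with hr
  have hrs : IsSelfAdjoint r := by
    rw [IsSelfAdjoint, hr, star_smul, star_add, star_star, add_comm]
    simp
  have h1 : g - r = (1 / 2 : ℝ) • ((g - s) + star (g - s)) := by
    rw [hr, star_sub, hg.star_eq]
    have : g = (1 / 2 : ℝ) • (g + g) := by
      rw [← two_smul ℝ g, smul_smul]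
      norm_num
    conv_lhs => rw [this]
    rw [← smul_sub]
    congr 1
    abel
  have h2 : ‖g - r‖ ≤ ε := by
    rw [h1, norm_smul]
    have h3 := norm_add_le (g - s) (star (g - s))
    rw [norm_star] at h3
    rw [Real.norm_eq_abs, abs_of_nonneg (by norm_num)]
    linarith
  have h4 : g - r ≤ algebraMap ℝ M ε :=
    (IsSelfAdjoint.le_algebraMap_norm_self (hg.sub hrs)).trans (algebraMap_mono M h2)
  calc g = (g - r) + r := by abel
    _ ≤ algebraMap ℝ M ε + r := add_le_add h4 le_rfl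

/-- the set of ideals which are not above `D` in the way-below sense -/
def notWB (A D : Submodule ℂ M) : Set (Submodule ℂ M) := {I | IsCI I ∧ I ≤ A ∧ ¬ WB D I}

theorem notWB_directed (hA : IsCI A) {D : Submodule ℂ M} (hD : JPr A D) :
    DirectedOn (· ≤ ·) (notWB A D) := by
  rintro I ⟨hI, hIA, hIw⟩ J ⟨hJ, hJA, hJw⟩
  refine ⟨(I ⊔ J).topologicalClosure, ⟨sup_isCI hI hJ,
    Submodule.topologicalClosure_minimal _ (sup_le hIA hJA) hA.closed, ?_⟩,
    le_sup_left.trans (Submodule.le_topologicalClosure _),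
    le_sup_right.trans (Submodule.le_topologicalClosure _)⟩
  rintro ⟨g, hg, hg0, δ, hδ, hDg⟩
  have hgs : IsSelfAdjoint g := IsSelfAdjoint.of_nonneg hg0
  have hg' : g ∈ closure ((I ⊔ J : Submodule ℂ M) : Set M) := hg
  rw [Metric.mem_closure_iff] at hg'
  obtain ⟨w, hw, hgw⟩ := hg' (δ / 2) (by positivity)
  obtain ⟨i, hi, j, hj, rfl⟩ := Submodule.mem_sup.1 hw
  rw [dist_eq_norm] at hgw
  have h1 := le_add_re hgs hgw.le
  obtain ⟨ri, hri, hri0, hri2⟩ := exists_pos_part hI hi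
  obtain ⟨rj, hrj, hrj0, hrj2⟩ := exists_pos_part hJ hj
  have e1 : (1 / 2 : ℝ) • (i + j + star (i + j)) =
      (1 / 2 : ℝ) • (i + star i) + (1 / 2 : ℝ) • (j + star j) := by
    rw [star_add, ← smul_add]
    congr 1
    abel
  have h2 := le_add_pc (δ / 8) (IsSelfAdjoint.of_nonneg hri0)
  have h3 := le_add_pc (δ / 8) (IsSelfAdjoint.of_nonneg hrj0)
  have hCI := sup_isCI (gen_isCI (pc (δ / 8) ri)) (gen_isCI (pc (δ / 8) rj))
  have hm1 : pc (δ / 8) ri ∈ (gen (pc (δ / 8) ri) ⊔ gen (pc (δ / 8) rj)).topologicalClosure :=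
    Submodule.le_topologicalClosure _ (Submodule.mem_sup_left (mem_gen_self _))
  have hm2 : pc (δ / 8) rj ∈ (gen (pc (δ / 8) ri) ⊔ gen (pc (δ / 8) rj)).topologicalClosure :=
    Submodule.le_topologicalClosure _ (Submodule.mem_sup_right (mem_gen_self _))
  have h4 : pc (3 * δ / 4) g ∈ (gen (pc (δ / 8) ri) ⊔ gen (pc (δ / 8) rj)).topologicalClosure := by
    refine pc_mem_of_le_add hCI hgs (q := pc (δ / 8) ri + pc (δ / 8) rj)
      (Submodule.add_mem _ hm1 hm2) ?_
    calc g ≤ algebraMap ℝ M (δ / 2) + ((1 / 2 : ℝ) • (i + star i) +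
          (1 / 2 : ℝ) • (j + star j)) := by rw [← e1]; exact h1
      _ ≤ algebraMap ℝ M (δ / 2) + ((algebraMap ℝ M (δ / 8) + pc (δ / 8) ri) +
          (algebraMap ℝ M (δ / 8) + pc (δ / 8) rj)) :=
          add_le_add le_rfl (add_le_add (hri2.trans h2) (hrj2.trans h3))
      _ = algebraMap ℝ M (3 * δ / 4) + (pc (δ / 8) ri + pc (δ / 8) rj) := by
          have e2 : 3 * δ / 4 = δ / 2 + (δ / 8 + δ / 8) := by ring
          rw [e2, map_add, map_add]
          abel
  have h5 : pc δ g ∈ (gen (pc (δ / 8) ri) ⊔ gen (pc (δ / 8) rj)).topologicalClosure :=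
    pc_mem_mono hCI hg0 (by positivity) (by linarith) h4
  have h6 : D ≤ (gen (pc (δ / 8) ri) ⊔ gen (pc (δ / 8) rj)).topologicalClosure :=
    hDg.trans (gen_le hCI h5)
  rcases hD.2.2 _ _ (gen_isCI _) (gen_isCI _)
    (gen_le hA (pc_mem hA (by positivity) (hIA hri)))
    (gen_le hA (pc_mem hA (by positivity) (hJA hrj))) h6 with h7 | h7
  · exact hIw ⟨ri, hri, hri0, δ / 8, by positivity, h7⟩
  · exact hJw ⟨rj, hrj, hrj0, δ / 8, by positivity, h7⟩

/-- the test ideal of a join-prime ideal -/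
noncomputable def PT (A D : Submodule ℂ M) : Submodule ℂ M := (sSup (notWB A D)).topologicalClosure

theorem PT_isCI (A D : Submodule ℂ M) : IsCI (PT A D) := sSup_isCI fun _ hI => hI.1

theorem PT_le (hA : IsCI A) (D : Submodule ℂ M) : PT A D ≤ A :=
  Submodule.topologicalClosure_minimal _ (sSup_le fun _ hI => hI.2.1) hA.closed

theorem WB_of_not_le {D L : Submodule ℂ M} (hL : IsCI L) (hLA : L ≤ A) (h : ¬ L ≤ PT A D) :
    WB D L := by
  by_contra hw
  exact h ((le_sSup (show L ∈ notWB A D from ⟨hL, hLA, hw⟩)).trans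
    (Submodule.le_topologicalClosure _))

theorem not_mem_PT (hA : IsCI A) {D : Submodule ℂ M} (hD : JPr A D) {h : M} (hh0 : h ≠ 0)
    (hw : WB D (gen h)) : h ∉ PT A D := by
  intro hm
  rcases (notWB A D).eq_empty_or_nonempty with he | hne
  · unfold PT at hm
    rw [he, sSup_empty] at hm
    have h1 : (⊥ : Submodule ℂ M).topologicalClosure ≤ ⊥ :=
      Submodule.topologicalClosure_minimal _ le_rfl (by simp)
    exact hh0 ((Submodule.mem_bot ℂ).1 (h1 hm))
  · obtain ⟨g, hg, hg0, δ, hδ, hDg⟩ := hw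
    have hgs : IsSelfAdjoint g := IsSelfAdjoint.of_nonneg hg0
    have hgP : g ∈ PT A D := gen_le (PT_isCI A D) hm hg
    have hg' : g ∈ closure ((sSup (notWB A D) : Submodule ℂ M) : Set M) := hgP
    rw [Metric.mem_closure_iff] at hg'
    obtain ⟨s, hs, hgs'⟩ := hg' (δ / 2) (by positivity)
    obtain ⟨I, hI, hsI⟩ := (Submodule.mem_sSup_of_directed hne (notWB_directed hA hD)).1 hs
    rw [dist_eq_norm] at hgs'
    have h1 := le_add_re hgs hgs'.le
    obtain ⟨r, hr, hr0, hr2⟩ := exists_pos_part hI.1 hsI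
    have h2 := le_add_pc (δ / 4) (IsSelfAdjoint.of_nonneg hr0)
    have h3 : pc (3 * δ / 4) g ∈ gen (pc (δ / 4) r) := by
      refine pc_mem_of_le_add (gen_isCI _) hgs (mem_gen_self _) ?_
      calc g ≤ algebraMap ℝ M (δ / 2) + (1 / 2 : ℝ) • (s + star s) := h1
        _ ≤ algebraMap ℝ M (δ / 2) + (algebraMap ℝ M (δ / 4) + pc (δ / 4) r) :=
            add_le_add le_rfl (hr2.trans h2)
        _ = algebraMap ℝ M (3 * δ / 4) + pc (δ / 4) r := by
            have e2 : 3 * δ / 4 = δ / 2 + δ / 4 := by ring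
            rw [e2, map_add]
            abel
    have h4 : pc δ g ∈ gen (pc (δ / 4) r) :=
      pc_mem_mono (gen_isCI _) hg0 (by positivity) (by linarith) h3
    exact hI.2.2 ⟨r, hr, hr0, δ / 4, by positivity, hDg.trans (gen_le (gen_isCI _) h4)⟩

theorem JPG.FR (hA : IsCI A) (hG : JPG A) : FR A := by
  classical
  intro h hhA hh ε hε
  by_cases hh0 : h = 0
  · refine ⟨∅, Set.finite_empty, by simp, ?_⟩
    intro I _ _ hd
    have := hd 0 I.zero_mem
    rw [hh0, sub_zero, norm_zero] at this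
    exact absurd this (not_le.2 hε)
  · set 𝒟 : Set (Submodule ℂ M) := {D | JPr A D ∧ D ≤ gen (pc (ε / 4) h)} with h𝒟
    have hL0 : IsCI (sSup 𝒟).topologicalClosure := sSup_isCI fun D hD => hD.1.1
    have hL0A : (sSup 𝒟).topologicalClosure ≤ A :=
      Submodule.topologicalClosure_minimal _ (sSup_le fun D hD => hD.1.2.1) hA.closed
    have hle : gen (pc (ε / 4) h) ≤ (sSup 𝒟).topologicalClosure := by
      refine hG _ _ (gen_isCI _) hL0 (gen_le hA (pc_mem hA (by positivity) hhA)) hL0A ?_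
      intro D hD hDle
      exact (le_sSup (show D ∈ 𝒟 from ⟨hD, hDle⟩)).trans (Submodule.le_topologicalClosure _)
    have hm : pc (ε / 4) h ∈ closure ((sSup 𝒟 : Submodule ℂ M) : Set M) := hle (mem_gen_self _)
    rw [Metric.mem_closure_iff] at hm
    obtain ⟨s, hs, hds⟩ := hm (ε / 4) (by positivity)
    rw [dist_eq_norm] at hds
    obtain ⟨t, ht𝒟, hst⟩ : ∃ t : Finset (Submodule ℂ M), (∀ D ∈ t, D ∈ 𝒟) ∧ s ∈ t.sup id := by
      rw [sSup_eq_iSup'] at hs
      obtain ⟨t, ht⟩ := Submodule.exists_finset_of_mem_iSup _ hs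
      refine ⟨t.image Subtype.val, ?_, ?_⟩
      · intro D hD
        obtain ⟨D', _, rfl⟩ := Finset.mem_image.1 hD
        exact D'.2
      · have : (⨆ i ∈ t, (i : Submodule ℂ M)) ≤ (t.image Subtype.val).sup id := by
          refine iSup₂_le fun i hi => ?_
          exact Finset.le_sup (f := id) (Finset.mem_image.2 ⟨i, hi, rfl⟩)
        exact this ht
    refine ⟨(PT A) '' (t : Set (Submodule ℂ M)), (Finset.finite_toSet t).image _, ?_, ?_⟩
    · rintro _ ⟨D, hD, rfl⟩
      have hD' := ht𝒟 D hD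
      refine ⟨PT_isCI A D, PT_le hA D, not_mem_PT hA hD'.1 hh0 ?_⟩
      exact ⟨h, mem_gen_self h, hh, ε / 4, by positivity, hD'.2⟩
    · intro I hI hIA hd
      by_contra hcon
      push Not at hcon
      have h1 : t.sup id ≤ I := by
        refine Finset.sup_le fun D hD => ?_
        exact (WB_of_not_le hI hIA (hcon _ ⟨D, hD, rfl⟩)).le hI
      have h2 := hd s (h1 hst)
      have h3 := norm_sub_pc_le (show (0 : ℝ) ≤ ε / 4 by positivity) hh
      have e : h - s = (h - pc (ε / 4) h) + (pc (ε / 4) h - s) := by abel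
      have h4 := norm_add_le (h - pc (ε / 4) h) (pc (ε / 4) h - s)
      rw [← e] at h4
      linarith

end Vale.Agent.P133o
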