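import Vale.Agent.P133o.Gen

/-!
# P133: purely infinite implies strongly purely infinite, totally ordered closed ideals
-/

set_option linter.unusedSectionVars false
set_option linter.unusedVariables false

namespace Vale.Agent.P133o

variable {M : Type*} [CStarAlgebra M] [PartialOrder M] [StarOrderedRing M]
variable {Q A : Submodule ℂ M}

/-- the closed ideals of `M` inside `A` are totally ordered -/
def TotR (A : Submodule ℂ M) : Prop :=
  ∀ I J : Submodule ℂ M, IsCI I → IsCI J → I ≤ A → J ≤ A → I ≤ J ∨ J ≤ I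

theorem norm_one_le : ‖(1 : M)‖ ≤ 1 := by
  rcases subsingleton_or_nontrivial M with h | h
  · rw [Subsingleton.elim (1 : M) 0, norm_zero]; exact zero_le_one
  · rw [CStarRing.norm_one]

theorem mem_spectrum_le_norm {x : M} {t : ℝ} (ht : t ∈ spectrum ℝ x) : t ≤ ‖x‖ := by
  have h3 : ‖t‖ ≤ ‖x‖ := by
    rcases subsingleton_or_nontrivial M with h | h
    · exact absurd ht (by simp [spectrum.of_subsingleton])
    · exact spectrum.norm_le_norm_of_mem ht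
  exact (le_abs_self t).trans h3

theorem norm_pc_le {c : ℝ} (hc : 0 ≤ c) {x : M} (hx : 0 ≤ x) : ‖pc c x‖ ≤ ‖x‖ := by
  refine norm_cfc_le (norm_nonneg _) fun t ht => ?_
  have h1 := mem_spectrum_le_norm ht
  have h0 := norm_nonneg x
  rw [Real.norm_eq_abs, abs_of_nonneg (le_max_right _ _)]
  exact max_le (by linarith) h0

theorem pc_pc {c d : ℝ} (hc : 0 ≤ c) (hd : 0 ≤ d) {x : M} (hx : IsSelfAdjoint x) :
    pc d (pc c x) = pc (c + d) x := by
  unfold pc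
  rw [← cfc_comp' (fun s : ℝ => max (s - d) 0) (fun t : ℝ => max (t - c) 0) x (by fun_prop)
    (by fun_prop)]
  refine cfc_congr fun t _ => ?_
  rcases le_total (t - c) 0 with h | h
  · rw [max_eq_right h, max_eq_right (by linarith), max_eq_right (by linarith)]
  · rw [max_eq_left h]
    congr 1
    ring

/-- `a* a ≤ 1` for `‖a‖ ≤ 1` -/
theorem mul_self_le_one {x : M} (hx : 0 ≤ x) (hx1 : ‖x‖ ≤ 1) : x * x ≤ 1 := by
  have h := star_mul_self_le x
  rw [(IsSelfAdjoint.of_nonneg hx).star_eq] at h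
  refine h.trans ?_
  have h2 : algebraMap ℝ M (‖x‖ ^ 2) ≤ algebraMap ℝ M 1 :=
    algebraMap_mono M (by nlinarith [norm_nonneg x])
  rwa [map_one] at h2

theorem mul_self_nn {x : M} (hx : 0 ≤ x) : 0 ≤ x * x := by
  have := star_mul_self_nonneg x
  rwa [(IsSelfAdjoint.of_nonneg hx).star_eq] at this

theorem eF_norm_le {κ : ℝ} (hκ : 0 < κ) {y : M} (hy : 0 ≤ y) : ‖eF κ y‖ ≤ 1 := by
  refine norm_cfc_le zero_le_one fun t ht => ?_
  have h0 : 0 ≤ t := spectrum_nonneg_of_nonneg hy ht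
  simp only [max_eq_left h0]
  rw [Real.norm_eq_abs, abs_of_nonneg (by positivity), div_le_one (by positivity)]
  linarith

theorem eF_conj {κ : ℝ} (hκ : 0 < κ) {y : M} (hy : 0 ≤ y) (hy1 : ‖y‖ ≤ 1) :
    ‖star (eF κ y) * (y * y) * eF κ y - y * y‖ ≤ 2 * κ := by
  have hs : IsSelfAdjoint y := IsSelfAdjoint.of_nonneg hy
  have hc : Continuous fun t : ℝ => t / (max t 0 + κ) := continuous_id.mul (cont_aux hκ)
  have e : star (eF κ y) * (y * y) * eF κ y - y * y =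
      cfc (fun t : ℝ => t / (max t 0 + κ) * (t * t) * (t / (max t 0 + κ)) - t * t) y := by
    rw [(eF_isSelfAdjoint κ y).star_eq]
    unfold eF
    rw [cfc_sub (fun t : ℝ => t / (max t 0 + κ) * (t * t) * (t / (max t 0 + κ)))
      (fun t : ℝ => t * t) y ((hc.mul (by fun_prop)).mul hc).continuousOn (by fun_prop),
      cfc_mul (fun t : ℝ => t / (max t 0 + κ) * (t * t)) (fun t : ℝ => t / (max t 0 + κ)) y
        (hc.mul (by fun_prop)).continuousOn hc.continuousOn,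
      cfc_mul (fun t : ℝ => t / (max t 0 + κ)) (fun t : ℝ => t * t) y hc.continuousOn
        (by fun_prop),
      cfc_mul (fun t : ℝ => t) (fun t : ℝ => t) y (by fun_prop) (by fun_prop), cfc_id' ℝ y]
  rw [e]
  refine norm_cfc_le (by positivity) fun t ht => ?_
  have h0 : 0 ≤ t := spectrum_nonneg_of_nonneg hy ht
  have h1 : t ≤ 1 := (mem_spectrum_le_norm ht).trans hy1
  simp only [max_eq_left h0]
  have h2 : 0 < t + κ := by linarith
  rw [Real.norm_eq_abs, abs_le]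
  have h3 : t / (t + κ) * (t * t) * (t / (t + κ)) - t * t =
      - (κ * (2 * t + κ) * (t * t) / ((t + κ) * (t + κ))) := by
    field_simp
    ring
  rw [h3]
  have h4 : κ * (2 * t + κ) * (t * t) / ((t + κ) * (t + κ)) ≤ 2 * κ := by
    rw [div_le_iff₀ (by positivity)]
    have h5 : (2 * t + κ) * (t * t) ≤ 2 * ((t + κ) * (t + κ)) := by
      have : t * t ≤ t + κ := by nlinarith
      have h7 : (2 * t + κ) * (t * t) ≤ (2 * t + κ) * (t + κ) :=
        mul_le_mul_of_nonneg_left this (by linarith)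
      nlinarith
    nlinarith [mul_le_mul_of_nonneg_left h5 hκ.le]
  have h6 : 0 ≤ κ * (2 * t + κ) * (t * t) / ((t + κ) * (t + κ)) := by positivity
  constructor <;> linarith

/-- `min ((T - μ)_+/μ) 1` -/
noncomputable def gF (μ : ℝ) (T : M) : M := cfc (fun t : ℝ => min (max (t - μ) 0 / μ) 1) T

theorem gF_sa (μ : ℝ) (T : M) : star (gF μ T) = gF μ T := by
  have : IsSelfAdjoint (gF μ T) := by unfold gF; cfc_tac
  exact this.star_eq

theorem gF_mem (hQ : IsCI Q) {μ : ℝ} (hμ : 0 < μ) {T : M} (hT : IsSelfAdjoint T)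
    (h : pc μ T ∈ Q) : gF μ T ∈ Q := by
  have e : gF μ T = cfc (fun s : ℝ => min (s / μ) 1) (pc μ T) := by
    unfold gF pc
    rw [← cfc_comp' (fun s : ℝ => min (s / μ) 1) (fun t : ℝ => max (t - μ) 0) T (by fun_prop)
      (by fun_prop)]
  rw [e]
  exact hQ.cfc_mem (by fun_prop) (by simp) h

theorem gF_conj {μ : ℝ} (hμ : 0 < μ) {T : M} (hT : 0 ≤ T) :
    ‖(1 - gF μ T) * T * (1 - gF μ T)‖ ≤ 2 * μ := by
  have hs : IsSelfAdjoint T := IsSelfAdjoint.of_nonneg hT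
  have e : 1 - gF μ T = cfc (fun t : ℝ => 1 - min (max (t - μ) 0 / μ) 1) T := by
    unfold gF
    rw [cfc_sub (fun _ : ℝ => (1 : ℝ)) (fun t : ℝ => min (max (t - μ) 0 / μ) 1) T (by fun_prop)
      (by fun_prop), cfc_const_one ℝ T]
  have hc : Continuous fun t : ℝ => 1 - min (max (t - μ) 0 / μ) 1 := by fun_prop
  rw [e, ← cfc_mul_id hc hs, ← cfc_mul (fun t : ℝ => (1 - min (max (t - μ) 0 / μ) 1) * t)
    (fun t : ℝ => 1 - min (max (t - μ) 0 / μ) 1) T (hc.mul continuous_id).continuousOn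
    hc.continuousOn]
  refine norm_cfc_le (by positivity) fun t ht => ?_
  have h0 : 0 ≤ t := spectrum_nonneg_of_nonneg hT ht
  have h1 : 0 ≤ 1 - min (max (t - μ) 0 / μ) 1 := by
    have := min_le_right (max (t - μ) 0 / μ) 1
    linarith
  have h2 : 1 - min (max (t - μ) 0 / μ) 1 ≤ 1 := by
    have : 0 ≤ min (max (t - μ) 0 / μ) 1 := le_min (by positivity) zero_le_one
    linarith
  rw [Real.norm_eq_abs, abs_of_nonneg (by positivity)]
  rcases le_total t (2 * μ) with h | h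
  · have h3 : (1 - min (max (t - μ) 0 / μ) 1) * t ≤ t := by nlinarith
    have h4 : 0 ≤ (1 - min (max (t - μ) 0 / μ) 1) * t := by positivity
    nlinarith
  · have h3 : min (max (t - μ) 0 / μ) 1 = 1 := by
      refine min_eq_right ?_
      rw [le_div_iff₀ hμ, max_eq_left (by linarith)]
      linarith
    rw [h3]
    simp
    linarith

theorem caseA (hA : IsCI A) (hPI : PIr A) (hTot : TotR A) {x y : M} (hx : 0 ≤ x) (hxA : x ∈ A)
    (hy : 0 ≤ y) (hyA : y ∈ A) (hx1 : ‖x‖ ≤ 1) (hy1 : ‖y‖ ≤ 1) {ε : ℝ} (hε : 0 < ε)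
    (hε1 : ε ≤ 1) (hn : pc (ε / 4) x ∉ gen (pc (ε ^ 4 / 256) (x * (y * y) * x))) :
    ∃ s ∈ A, ∃ t ∈ A, ‖star s * (x * x) * s - x * x‖ < ε ∧
      ‖star t * (y * y) * t - y * y‖ < ε ∧ ‖star s * (x * y) * t‖ < ε := by
  have hxs : star x = x := (IsSelfAdjoint.of_nonneg hx).star_eq
  have hys : star y = y := (IsSelfAdjoint.of_nonneg hy).star_eq
  have hT0 : 0 ≤ x * (y * y) * x := by
    have := conj_nonneg (mul_self_nn hy) x
    rwa [hxs] at this
  have hTA : x * (y * y) * x ∈ A := hA.left _ _ hxA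
  obtain ⟨T, hT⟩ : ∃ T, T = x * (y * y) * x := ⟨_, rfl⟩
  rw [← hT] at hT0 hTA hn
  obtain ⟨μ, hμ⟩ : ∃ μ, μ = ε ^ 4 / 256 := ⟨_, rfl⟩
  rw [← hμ] at hn
  have hμ0 : 0 < μ := by rw [hμ]; positivity
  set G := gF μ T with hG
  have hGs : star (1 - G) = 1 - G := by rw [star_sub, star_one, hG, gF_sa]
  have hGJ : G ∈ gen (pc μ T) :=
    gF_mem (gen_isCI _) hμ0 (IsSelfAdjoint.of_nonneg hT0) (mem_gen_self _)
  have hJA : gen (pc μ T) ≤ A := gen_le hA (pc_mem hA hμ0.le hTA)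
  set b := star (1 - G) * (x * x) * (1 - G) with hb
  have hb0 : 0 ≤ b := conj_nonneg (mul_self_nn hx) _
  have hbA : b ∈ A := hA.right _ _ (hA.left _ _ (hA.left _ _ hxA))
  obtain ⟨η, hη⟩ : ∃ η, η = ε ^ 2 / 32 := ⟨_, rfl⟩
  have hη0 : 0 < η := by rw [hη]; positivity
  have hle : x * x ≤ algebraMap ℝ M ((ε / 4) ^ 2) +
      ((2 : ℝ) • pc η b + (2 : ℝ) • (star G * (x * x) * G)) := by
    have h1 := star_add_mul_le (x * (1 - G)) (x * G)
    have e1 : x * (1 - G) + x * G = x := by noncomm_ring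
    have e2 : star (x * (1 - G)) * (x * (1 - G)) = b := by
      rw [hb, star_mul, hxs]; noncomm_ring
    have e3 : star (x * G) * (x * G) = star G * (x * x) * G := by
      rw [star_mul, hxs]; noncomm_ring
    rw [e1, e2, e3, hxs] at h1
    refine h1.trans ?_
    have h2 := smul_le_smulR (le_add_pc η (IsSelfAdjoint.of_nonneg hb0)) (zero_le_two (α := ℝ))
    have e4 : (2 : ℝ) • (algebraMap ℝ M η + pc η b) =
        algebraMap ℝ M ((ε / 4) ^ 2) + (2 : ℝ) • pc η b := by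
      rw [smul_add, Algebra.algebraMap_eq_smul_one, Algebra.algebraMap_eq_smul_one, smul_smul, hη]
      congr 2
      ring
    rw [e4] at h2
    rw [← add_assoc]
    exact add_le_add h2 le_rfl
  have hmem : pc (ε / 4) x ∈ gen (pc η b) := by
    have hLA : gen (pc η b) ≤ A := gen_le hA (pc_mem hA hη0.le hbA)
    have hq2 : star G * (x * x) * G ∈ gen (pc μ T) := (gen_isCI _).left _ _ hGJ
    rcases hTot _ _ (gen_isCI (pc η b)) (gen_isCI (pc μ T)) hLA hJA with h | h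
    · exfalso
      refine hn (pc_mem_of_sq_le (gen_isCI _) hx (Submodule.add_mem _
        (smulR_mem (h (mem_gen_self _)) _) (smulR_mem hq2 _)) (by positivity) hle)
    · exact pc_mem_of_sq_le (gen_isCI _) hx (Submodule.add_mem _
        (smulR_mem (mem_gen_self _) _) (smulR_mem (h hq2) _)) (by positivity) hle
  obtain ⟨z, hzA, hz1, hz2⟩ := hPI.conj hA (pc_nonneg (ε / 4) x) (pc_mem hA (by positivity) hxA)
    hb0 hbA hη0 hmem (δ := ε / 4) (by positivity)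
  have ha1 : ‖pc (ε / 4) x‖ ≤ 1 := (norm_pc_le (by positivity) hx).trans hx1
  have hz3 : ‖z‖ ^ 2 ≤ η⁻¹ * 2 := by
    refine hz2.trans (mul_le_mul_of_nonneg_left ?_ (by positivity))
    nlinarith [norm_nonneg (pc (ε / 4) x)]
  refine ⟨(1 - G) * z, hA.left _ _ hzA, eF (ε / 4) y,
    eF_mem hA (by positivity) hyA (IsSelfAdjoint.of_nonneg hy), ?_, ?_, ?_⟩
  · have e1 : star ((1 - G) * z) * (x * x) * ((1 - G) * z) = star z * b * z := by
      rw [hb, star_mul]; noncomm_ring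
    rw [e1]
    have e2 : star z * b * z - x * x = (star z * b * z - pc (ε / 4) x * pc (ε / 4) x) -
        ((x - pc (ε / 4) x) * x + pc (ε / 4) x * (x - pc (ε / 4) x)) := by noncomm_ring
    rw [e2]
    have h3 := norm_sub_pc_le (show (0 : ℝ) ≤ ε / 4 by positivity) hx
    have h4 := norm_sub_le (star z * b * z - pc (ε / 4) x * pc (ε / 4) x)
      ((x - pc (ε / 4) x) * x + pc (ε / 4) x * (x - pc (ε / 4) x))
    have h5 := norm_add_le ((x - pc (ε / 4) x) * x) (pc (ε / 4) x * (x - pc (ε / 4) x))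
    have h6 : ‖(x - pc (ε / 4) x) * x‖ ≤ ε / 4 * 1 :=
      (norm_mul_le _ _).trans (mul_le_mul h3 hx1 (norm_nonneg _) (by positivity))
    have h7 : ‖pc (ε / 4) x * (x - pc (ε / 4) x)‖ ≤ 1 * (ε / 4) :=
      (norm_mul_le _ _).trans (mul_le_mul ha1 h3 (norm_nonneg _) (by positivity))
    linarith
  · have := eF_conj (κ := ε / 4) (by positivity) hy hy1
    linarith
  · have e1 : star ((1 - G) * z) * (x * y) * eF (ε / 4) y =
        star z * ((1 - G) * (x * y)) * eF (ε / 4) y := by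
      rw [star_mul, hGs]; noncomm_ring
    have h2 : ‖(1 - G) * (x * y)‖ ^ 2 ≤ 2 * μ := by
      have h3 := gF_conj hμ0 hT0
      rw [← hG] at h3
      have e2 : ‖(1 - G) * (x * y)‖ ^ 2 = ‖(1 - G) * T * (1 - G)‖ := by
        rw [sq, ← CStarRing.norm_self_mul_star, star_mul, star_mul, hGs, hxs, hys, hT]
        congr 1
        noncomm_ring
      rw [e2]; exact h3
    have h3 : ‖star z * ((1 - G) * (x * y)) * eF (ε / 4) y‖ ≤ ‖z‖ * ‖(1 - G) * (x * y)‖ := by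
      refine (norm_mul_le _ _).trans ?_
      have h4 := eF_norm_le (κ := ε / 4) (by positivity) hy
      have h5 := norm_mul_le (star z) ((1 - G) * (x * y))
      rw [norm_star] at h5
      calc _ ≤ (‖z‖ * ‖(1 - G) * (x * y)‖) * 1 :=
            mul_le_mul h5 h4 (norm_nonneg _) (by positivity)
        _ = _ := mul_one _
    rw [e1]
    refine h3.trans_lt ?_
    refine lt_of_pow_lt_pow_left₀ 2 hε.le ?_
    rw [mul_pow]
    calc ‖z‖ ^ 2 * ‖(1 - G) * (x * y)‖ ^ 2 ≤ (η⁻¹ * 2) * (2 * μ) :=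
          mul_le_mul hz3 h2 (by positivity) (by positivity)
      _ = ε ^ 2 / 2 := by
          rw [hη, hμ]
          field_simp
          norm_num
      _ < ε ^ 2 := by
          have : 0 < ε ^ 2 := by positivity
          linarith

theorem sq_prod_le (x y : M) (hx : 0 ≤ x) (hy : 0 ≤ y) {μ : ℝ} (hμ : 0 ≤ μ) :
    pc μ (y * (x * x) * y) ∈ gen (pc μ (x * (y * y) * x)) := by
  have hxs : star x = x := (IsSelfAdjoint.of_nonneg hx).star_eq
  have hys : star y = y := (IsSelfAdjoint.of_nonneg hy).star_eq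
  have hT0 : 0 ≤ x * (y * y) * x := by
    have := conj_nonneg (mul_self_nn hy) x
    rwa [hxs] at this
  have hT0' : 0 ≤ y * (x * x) * y := by
    have := conj_nonneg (mul_self_nn hx) y
    rwa [hys] at this
  refine pc_mem_of_sq_le_smul (gen_isCI _) hT0'
    (q := star (x * y) * pc μ (x * (y * y) * x) * (x * y))
    ((gen_isCI _).right _ _ ((gen_isCI _).left _ _ (mem_gen_self _))) hμ ?_
  have h1 := conj_mono (le_add_pc μ (IsSelfAdjoint.of_nonneg hT0)) (x * y)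
  have e1 : star (x * y) * (x * (y * y) * x) * (x * y) = y * (x * x) * y * (y * (x * x) * y) := by
    rw [star_mul, hxs, hys]; noncomm_ring
  have e2 : star (x * y) * (algebraMap ℝ M μ + pc μ (x * (y * y) * x)) * (x * y) =
      μ • (y * (x * x) * y) + star (x * y) * pc μ (x * (y * y) * x) * (x * y) := by
    rw [mul_add, add_mul, Algebra.algebraMap_eq_smul_one]
    congr 1
    rw [mul_smul_comm, smul_mul_assoc, mul_one, star_mul, hxs, hys]
    congr 1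
    noncomm_ring
  rw [e1, e2] at h1
  exact h1

theorem num1 (ε : ℝ) {μ : ℝ} (hμ : 0 < μ) :
    ((μ / 4)⁻¹ * 2) * ((μ ^ 3 / 32)⁻¹ * 2) * (ε * μ ^ 2 / 64) ^ 2 = ε ^ 2 / 8 := by
  have h : μ ≠ 0 := hμ.ne'
  field_simp
  ring

theorem caseC_z (hA : IsCI A) (hPI : PIr A) {x y : M} (hx : 0 ≤ x) (hxA : x ∈ A)
    (hy : 0 ≤ y) (hyA : y ∈ A) (hx1 : ‖x‖ ≤ 1) (hy1 : ‖y‖ ≤ 1) {μ : ℝ} (hμ : 0 < μ)
    (hμ1 : μ ≤ 1) {δ₀ : ℝ} (hδ0 : 0 < δ₀) (hδ1 : δ₀ ≤ μ ^ 2 / 64) :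
    ∃ z₁ ∈ A, ∃ z₂ ∈ A, ‖star z₁ * (x * (y * y) * x) * z₂‖ < δ₀ ∧
      pc μ (x * (y * y) * x) ∈ gen (pc (μ / 4) (star z₁ * (x * x) * z₁)) ∧
      pc μ (x * (y * y) * x) ∈
        gen (pc (μ ^ 3 / 32) (star (y * x * z₂) * (y * y) * (y * x * z₂))) := by
  have hxs : star x = x := (IsSelfAdjoint.of_nonneg hx).star_eq
  have hys : star y = y := (IsSelfAdjoint.of_nonneg hy).star_eq
  have hT0 : 0 ≤ x * (y * y) * x := by
    have := conj_nonneg (mul_self_nn hy) x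
    rwa [hxs] at this
  have hTA : x * (y * y) * x ∈ A := hA.left _ _ hxA
  have hT1 : ‖x * (y * y) * x‖ ≤ 1 := by
    have h1 := norm_mul_le (x * (y * y)) x
    have h2 := norm_mul_le x (y * y)
    have h3 := norm_mul_le y y
    have h4 : ‖y‖ * ‖y‖ ≤ 1 := by nlinarith [norm_nonneg y]
    have h5 : ‖x‖ * ‖y * y‖ ≤ 1 := by nlinarith [norm_nonneg x, norm_nonneg (y * y)]
    nlinarith [norm_nonneg x, norm_nonneg (x * (y * y))]
  obtain ⟨T, hT⟩ : ∃ T, T = x * (y * y) * x := ⟨_, rfl⟩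
  rw [← hT] at hT0 hTA hT1 ⊢
  have hTs : IsSelfAdjoint T := IsSelfAdjoint.of_nonneg hT0
  obtain ⟨p, hp⟩ : ∃ p, p = pc (μ / 2) T := ⟨_, rfl⟩
  have hp0 : 0 ≤ p := by rw [hp]; exact pc_nonneg _ _
  have hps : star p = p := (IsSelfAdjoint.of_nonneg hp0).star_eq
  have hpA : p ∈ A := by rw [hp]; exact pc_mem hA (by positivity) hTA
  have hp1 : ‖p‖ ≤ 1 := by
    rw [hp]; exact (norm_pc_le (by positivity) hT0).trans hT1
  have hpp : pc (μ / 2) p = pc μ T := by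
    rw [hp, pc_pc (by positivity) (by positivity) hTs]
    congr 1
    ring
  have hμ2 : μ ^ 2 ≤ μ := by nlinarith
  obtain ⟨u₁, hu₁A, u₂, hu₂A, hu1, hu2, hu12⟩ := hPI p hpA hp0 δ₀ hδ0
  have hμ20 : 0 < μ / 2 := by positivity
  obtain ⟨z₁, hz₁⟩ : ∃ z, z = kF (μ / 2) T * u₁ := ⟨_, rfl⟩
  obtain ⟨z₂, hz₂⟩ : ∃ z, z = kF (μ / 2) T * u₂ := ⟨_, rfl⟩
  have hz₁A : z₁ ∈ A := by rw [hz₁]; exact hA.left _ _ hu₁A
  have hz₂A : z₂ ∈ A := by rw [hz₂]; exact hA.left _ _ hu₂A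
  have h11 : ‖star z₁ * T * z₁ - p‖ < δ₀ := by
    rw [hz₁, kF_conj hμ20 hT0, ← hp]; exact hu1
  have h22 : ‖star z₂ * T * z₂ - p‖ < δ₀ := by
    rw [hz₂, kF_conj hμ20 hT0, ← hp]; exact hu2
  have h12 : ‖star z₁ * T * z₂‖ < δ₀ := by
    rw [hz₁, hz₂, kF_conj hμ20 hT0, ← hp]; exact hu12
  have hz₂n : ‖z₂‖ ^ 2 ≤ 4 / μ := by
    rw [hz₂]
    refine (norm_kF_mul_sq_le hμ20 hT0 u₂).trans ?_
    rw [← hp]
    have h1 := norm_add_le (star u₂ * p * u₂ - p) p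
    rw [sub_add_cancel] at h1
    have h2 : ‖star u₂ * p * u₂‖ ≤ 2 := by nlinarith
    calc (μ / 2)⁻¹ * ‖star u₂ * p * u₂‖ ≤ (μ / 2)⁻¹ * 2 :=
          mul_le_mul_of_nonneg_left h2 (by positivity)
      _ = 4 / μ := by field_simp; norm_num
  -- first ideal membership
  obtain ⟨η₁, hη₁⟩ : ∃ η, η = μ / 4 := ⟨_, rfl⟩
  have hη₁0 : 0 < η₁ := by rw [hη₁]; positivity
  obtain ⟨bC, hbC⟩ : ∃ b, b = star z₁ * (x * x) * z₁ := ⟨_, rfl⟩
  have hbC0 : 0 ≤ bC := by rw [hbC]; exact conj_nonneg (mul_self_nn hx) _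
  have hbCA : bC ∈ A := by rw [hbC]; exact hA.left _ _ hz₁A
  have hTle : T ≤ x * x := by
    have h1 := conj_mono (mul_self_le_one hy hy1) x
    rw [hxs, mul_one] at h1
    rw [hT]; exact h1
  have hm1 : pc μ T ∈ gen (pc η₁ bC) := by
    rw [← hpp]
    refine pc_mem_of_le_add (gen_isCI _) (IsSelfAdjoint.of_nonneg hp0) (mem_gen_self _) ?_
    have h1 : p - star z₁ * T * z₁ ≤ algebraMap ℝ M δ₀ := by
      have hsa : IsSelfAdjoint (p - star z₁ * T * z₁) :=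
        (IsSelfAdjoint.of_nonneg hp0).sub (IsSelfAdjoint.of_nonneg (conj_nonneg hT0 _))
      refine (IsSelfAdjoint.le_algebraMap_norm_self hsa).trans (algebraMap_mono M ?_)
      rw [norm_sub_rev]; exact h11.le
    have h2 : star z₁ * T * z₁ ≤ bC := by rw [hbC]; exact conj_mono hTle z₁
    have h3 := le_add_pc η₁ (IsSelfAdjoint.of_nonneg hbC0)
    calc p = (p - star z₁ * T * z₁) + star z₁ * T * z₁ := by abel
      _ ≤ algebraMap ℝ M δ₀ + (algebraMap ℝ M η₁ + pc η₁ bC) := add_le_add h1 (h2.trans h3)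
      _ = algebraMap ℝ M (δ₀ + η₁) + pc η₁ bC := by rw [map_add, add_assoc]
      _ ≤ algebraMap ℝ M (μ / 2) + pc η₁ bC := by
          refine add_le_add (algebraMap_mono M ?_) le_rfl
          rw [hη₁]
          nlinarith
  -- second ideal membership
  obtain ⟨η₂, hη₂⟩ : ∃ η, η = μ ^ 3 / 32 := ⟨_, rfl⟩
  have hη₂0 : 0 < η₂ := by rw [hη₂]; positivity
  obtain ⟨bB, hbB⟩ : ∃ b, b = star (y * x * z₂) * (y * y) * (y * x * z₂) := ⟨_, rfl⟩
  have hbB0 : 0 ≤ bB := by rw [hbB]; exact conj_nonneg (mul_self_nn hy) _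
  have hbBA : bB ∈ A := by rw [hbB]; exact hA.left _ _ (hA.left _ _ hz₂A)
  have hTT : star z₂ * (T * T) * z₂ ≤ bB := by
    have h1 := conj_mono (mul_self_le_one hx hx1) (y * y * x * z₂)
    rw [mul_one] at h1
    have e1 : star (y * y * x * z₂) * (x * x) * (y * y * x * z₂) =
        star z₂ * (T * T) * z₂ := by
      rw [hT]
      simp only [star_mul, hxs, hys]
      noncomm_ring
    have e2 : star (y * y * x * z₂) * (y * y * x * z₂) = bB := by
      rw [hbB]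
      simp only [star_mul, hxs, hys]
      noncomm_ring
    rwa [e1, e2] at h1
  have hPP : (star z₂ * T * z₂) * (star z₂ * T * z₂) ≤ (4 / μ) • bB := by
    have h1 : z₂ * star z₂ ≤ algebraMap ℝ M (4 / μ) :=
      (CStarAlgebra.mul_star_le_algebraMap_norm_sq (a := z₂)).trans (algebraMap_mono M hz₂n)
    have h2 := conj_mono h1 (T * z₂)
    have e1 : star (T * z₂) * (z₂ * star z₂) * (T * z₂) =
        (star z₂ * T * z₂) * (star z₂ * T * z₂) := by
      rw [star_mul, hTs.star_eq]; noncomm_ring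
    have e2 : star (T * z₂) * algebraMap ℝ M (4 / μ) * (T * z₂) =
        (4 / μ) • (star z₂ * (T * T) * z₂) := by
      rw [star_mul, hTs.star_eq, Algebra.algebraMap_eq_smul_one]
      simp only [mul_smul_comm, smul_mul_assoc, mul_one, mul_assoc]
    rw [e1, e2] at h2
    exact h2.trans (smul_le_smulR hTT (by positivity))
  have hm2 : pc μ T ∈ gen (pc η₂ bB) := by
    rw [← hpp]
    refine pc_mem_of_sq_le (gen_isCI _) hp0 (q := (4 / μ) • pc η₂ bB)
      (smulR_mem (mem_gen_self _) _) (by positivity) ?_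
    obtain ⟨P, hP⟩ : ∃ P, P = star z₂ * T * z₂ := ⟨_, rfl⟩
    have hP0 : 0 ≤ P := by rw [hP]; exact conj_nonneg hT0 _
    have hPs : star P = P := (IsSelfAdjoint.of_nonneg hP0).star_eq
    rw [← hP] at hPP h22
    have h1 : ‖p * p - P * P‖ ≤ 3 * δ₀ := by
      have e : p * p - P * P = -((P - p) * P + p * (P - p)) := by noncomm_ring
      rw [e, norm_neg]
      have hPn : ‖P‖ ≤ 2 := by
        have := norm_add_le (P - p) p
        rw [sub_add_cancel] at this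
        nlinarith
      have h5 := norm_add_le ((P - p) * P) (p * (P - p))
      have h6 : ‖(P - p) * P‖ ≤ δ₀ * 2 :=
        (norm_mul_le _ _).trans (mul_le_mul h22.le hPn (norm_nonneg _) (by positivity))
      have h7 : ‖p * (P - p)‖ ≤ 1 * δ₀ :=
        (norm_mul_le _ _).trans (mul_le_mul hp1 h22.le (norm_nonneg _) (by positivity))
      linarith
    have h2 : p * p - P * P ≤ algebraMap ℝ M (3 * δ₀) := by
      have hsa : IsSelfAdjoint (p * p - P * P) := by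
        rw [IsSelfAdjoint, star_sub, star_mul, star_mul, hps, hPs]
      exact (IsSelfAdjoint.le_algebraMap_norm_self hsa).trans (algebraMap_mono M h1)
    have h3 := smul_le_smulR (le_add_pc η₂ (IsSelfAdjoint.of_nonneg hbB0))
      (show (0 : ℝ) ≤ 4 / μ by positivity)
    have e4 : (4 / μ) • (algebraMap ℝ M η₂ + pc η₂ bB) =
        algebraMap ℝ M (μ ^ 2 / 8) + (4 / μ) • pc η₂ bB := by
      rw [smul_add, Algebra.algebraMap_eq_smul_one, Algebra.algebraMap_eq_smul_one, smul_smul,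
        hη₂]
      congr 2
      field_simp
      norm_num
    rw [e4] at h3
    calc p * p = (p * p - P * P) + P * P := by abel
      _ ≤ algebraMap ℝ M (3 * δ₀) + (algebraMap ℝ M (μ ^ 2 / 8) + (4 / μ) • pc η₂ bB) :=
          add_le_add h2 (hPP.trans h3)
      _ = algebraMap ℝ M (3 * δ₀ + μ ^ 2 / 8) + (4 / μ) • pc η₂ bB := by rw [map_add, add_assoc]
      _ ≤ algebraMap ℝ M ((μ / 2) ^ 2) + (4 / μ) • pc η₂ bB := by
          refine add_le_add (algebraMap_mono M ?_) le_rfl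
          nlinarith
  rw [hη₁, hbC] at hm1
  rw [hη₂, hbB] at hm2
  exact ⟨z₁, hz₁A, z₂, hz₂A, h12, hm1, hm2⟩

theorem caseC (hA : IsCI A) (hPI : PIr A) {x y : M} (hx : 0 ≤ x) (hxA : x ∈ A)
    (hy : 0 ≤ y) (hyA : y ∈ A) (hx1 : ‖x‖ ≤ 1) (hy1 : ‖y‖ ≤ 1) {ε : ℝ} (hε : 0 < ε)
    (hε1 : ε ≤ 1) {μ : ℝ} (hμ : 0 < μ) (hμ1 : μ ≤ 1)
    (hmx : pc (ε / 4) x ∈ gen (pc μ (x * (y * y) * x)))
    (hmy : pc (ε / 4) y ∈ gen (pc μ (y * (x * x) * y))) :
    ∃ s ∈ A, ∃ t ∈ A, ‖star s * (x * x) * s - x * x‖ < ε ∧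
      ‖star t * (y * y) * t - y * y‖ < ε ∧ ‖star s * (x * y) * t‖ < ε := by
  replace hmy : pc (ε / 4) y ∈ gen (pc μ (x * (y * y) * x)) :=
    gen_le (gen_isCI _) (sq_prod_le x y hx hy hμ.le) hmy
  obtain ⟨δ₀, hδ₀⟩ : ∃ δ₀, δ₀ = ε * μ ^ 2 / 64 := ⟨_, rfl⟩
  have hδ0 : 0 < δ₀ := by rw [hδ₀]; positivity
  have hδ1 : δ₀ ≤ μ ^ 2 / 64 := by
    rw [hδ₀]
    have : ε * μ ^ 2 ≤ 1 * μ ^ 2 := mul_le_mul_of_nonneg_right hε1 (by positivity)
    linarith
  obtain ⟨z₁, hz₁A, z₂, hz₂A, h12, hm1, hm2⟩ :=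
    caseC_z hA hPI hx hxA hy hyA hx1 hy1 hμ hμ1 hδ0 hδ1
  obtain ⟨η₁, hη₁⟩ : ∃ η, η = μ / 4 := ⟨_, rfl⟩
  have hη₁0 : 0 < η₁ := by rw [hη₁]; positivity
  obtain ⟨bC, hbC⟩ : ∃ b, b = star z₁ * (x * x) * z₁ := ⟨_, rfl⟩
  have hbC0 : 0 ≤ bC := by rw [hbC]; exact conj_nonneg (mul_self_nn hx) _
  have hbCA : bC ∈ A := by rw [hbC]; exact hA.left _ _ hz₁A
  obtain ⟨η₂, hη₂⟩ : ∃ η, η = μ ^ 3 / 32 := ⟨_, rfl⟩
  have hη₂0 : 0 < η₂ := by rw [hη₂]; positivity
  obtain ⟨bB, hbB⟩ : ∃ b, b = star (y * x * z₂) * (y * y) * (y * x * z₂) := ⟨_, rfl⟩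
  have hbB0 : 0 ≤ bB := by rw [hbB]; exact conj_nonneg (mul_self_nn hy) _
  have hbBA : bB ∈ A := by rw [hbB]; exact hA.left _ _ (hA.left _ _ hz₂A)
  rw [← hη₁, ← hbC] at hm1
  rw [← hη₂, ← hbB] at hm2
  have hax1 : ‖pc (ε / 4) x‖ ≤ 1 := (norm_pc_le (by positivity) hx).trans hx1
  have hay1 : ‖pc (ε / 4) y‖ ≤ 1 := (norm_pc_le (by positivity) hy).trans hy1
  obtain ⟨v₁, hv₁A, hv1, hv1n⟩ := hPI.conj hA (pc_nonneg (ε / 4) x)
    (pc_mem hA (by positivity) hxA) hbC0 hbCA hη₁0 (gen_le (gen_isCI _) hm1 hmx)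
    (δ := ε / 4) (by positivity)
  obtain ⟨v₂, hv₂A, hv2, hv2n⟩ := hPI.conj hA (pc_nonneg (ε / 4) y)
    (pc_mem hA (by positivity) hyA) hbB0 hbBA hη₂0 (gen_le (gen_isCI _) hm2 hmy)
    (δ := ε / 4) (by positivity)
  have hv1m : ‖v₁‖ ^ 2 ≤ η₁⁻¹ * 2 := by
    refine hv1n.trans (mul_le_mul_of_nonneg_left ?_ (by positivity))
    nlinarith [norm_nonneg (pc (ε / 4) x)]
  have hv2m : ‖v₂‖ ^ 2 ≤ η₂⁻¹ * 2 := by
    refine hv2n.trans (mul_le_mul_of_nonneg_left ?_ (by positivity))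
    nlinarith [norm_nonneg (pc (ε / 4) y)]
  have key : ∀ {w a bb : M}, 0 ≤ w → ‖w‖ ≤ 1 → ‖pc (ε / 4) w‖ ≤ 1 →
      ‖bb - pc (ε / 4) w * pc (ε / 4) w‖ < ε / 4 → ‖bb - w * w‖ < ε := by
    intro w a bb hw hw1 hw2 h
    have e2 : bb - w * w = (bb - pc (ε / 4) w * pc (ε / 4) w) -
        ((w - pc (ε / 4) w) * w + pc (ε / 4) w * (w - pc (ε / 4) w)) := by noncomm_ring
    rw [e2]
    have h3 := norm_sub_pc_le (show (0 : ℝ) ≤ ε / 4 by positivity) hw
    have h4 := norm_sub_le (bb - pc (ε / 4) w * pc (ε / 4) w)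
      ((w - pc (ε / 4) w) * w + pc (ε / 4) w * (w - pc (ε / 4) w))
    have h5 := norm_add_le ((w - pc (ε / 4) w) * w) (pc (ε / 4) w * (w - pc (ε / 4) w))
    have h6 : ‖(w - pc (ε / 4) w) * w‖ ≤ ε / 4 * 1 :=
      (norm_mul_le _ _).trans (mul_le_mul h3 hw1 (norm_nonneg _) (by positivity))
    have h7 : ‖pc (ε / 4) w * (w - pc (ε / 4) w)‖ ≤ 1 * (ε / 4) :=
      (norm_mul_le _ _).trans (mul_le_mul hw2 h3 (norm_nonneg _) (by positivity))
    linarith
  refine ⟨z₁ * v₁, hA.left _ _ hv₁A, y * x * z₂ * v₂, hA.left _ _ hv₂A, ?_, ?_, ?_⟩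
  · have e1 : star (z₁ * v₁) * (x * x) * (z₁ * v₁) = star v₁ * bC * v₁ := by
      rw [hbC, star_mul]; noncomm_ring
    rw [e1]
    exact key (a := x) hx hx1 hax1 hv1
  · have e1 : star (y * x * z₂ * v₂) * (y * y) * (y * x * z₂ * v₂) = star v₂ * bB * v₂ := by
      rw [hbB, star_mul (y * x * z₂) v₂]; noncomm_ring
    rw [e1]
    exact key (a := y) hy hy1 hay1 hv2
  · have e1 : star (z₁ * v₁) * (x * y) * (y * x * z₂ * v₂) =
        star v₁ * (star z₁ * (x * (y * y) * x) * z₂) * v₂ := by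
      rw [star_mul]; noncomm_ring
    rw [e1]
    have h3 : ‖star v₁ * (star z₁ * (x * (y * y) * x) * z₂) * v₂‖ ≤ (‖v₁‖ * ‖v₂‖) * δ₀ := by
      refine (norm_mul_le _ _).trans ?_
      have h5 := norm_mul_le (star v₁) (star z₁ * (x * (y * y) * x) * z₂)
      rw [norm_star] at h5
      calc ‖star v₁ * (star z₁ * (x * (y * y) * x) * z₂)‖ * ‖v₂‖ ≤ (‖v₁‖ * δ₀) * ‖v₂‖ :=
            mul_le_mul_of_nonneg_right
              (h5.trans (mul_le_mul_of_nonneg_left h12.le (norm_nonneg _))) (norm_nonneg _)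
        _ = _ := by ring
    refine h3.trans_lt ?_
    refine lt_of_pow_lt_pow_left₀ 2 hε.le ?_
    rw [mul_pow, mul_pow]
    calc ‖v₁‖ ^ 2 * ‖v₂‖ ^ 2 * δ₀ ^ 2 ≤ (η₁⁻¹ * 2) * (η₂⁻¹ * 2) * δ₀ ^ 2 := by
          refine mul_le_mul_of_nonneg_right ?_ (by positivity)
          exact mul_le_mul hv1m hv2m (by positivity) (by positivity)
      _ = ε ^ 2 / 8 := by
          rw [hη₁, hη₂, hδ₀]
          exact num1 ε hμ
      _ < ε ^ 2 := by
          have : 0 < ε ^ 2 := by positivity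
          linarith

theorem spi_aux (hA : IsCI A) (hPI : PIr A) (hTot : TotR A) {x y : M} (hx : 0 ≤ x) (hxA : x ∈ A)
    (hy : 0 ≤ y) (hyA : y ∈ A) (hx1 : ‖x‖ ≤ 1) (hy1 : ‖y‖ ≤ 1) {ε : ℝ} (hε : 0 < ε)
    (hε1 : ε ≤ 1) :
    ∃ s ∈ A, ∃ t ∈ A, ‖star s * (x * x) * s - x * x‖ < ε ∧
      ‖star t * (y * y) * t - y * y‖ < ε ∧ ‖star s * (x * y) * t‖ < ε := by
  by_cases h1 : pc (ε / 4) x ∈ gen (pc (ε ^ 4 / 256) (x * (y * y) * x))
  · by_cases h2 : pc (ε / 4) y ∈ gen (pc (ε ^ 4 / 256) (y * (x * x) * y))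
    · refine caseC hA hPI hx hxA hy hyA hx1 hy1 hε hε1 (μ := ε ^ 4 / 256) (by positivity) ?_ h1 h2
      have : ε ^ 4 ≤ 1 := pow_le_one₀ hε.le hε1
      linarith
    · obtain ⟨s, hs, t, ht, h3, h4, h5⟩ := caseA hA hPI hTot hy hyA hx hxA hy1 hx1 hε hε1 h2
      refine ⟨t, ht, s, hs, h4, h3, ?_⟩
      have e : star t * (x * y) * s = star (star s * (y * x) * t) := by
        simp only [star_mul, star_star, (IsSelfAdjoint.of_nonneg hx).star_eq,
          (IsSelfAdjoint.of_nonneg hy).star_eq]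
        noncomm_ring
      rw [e, norm_star]
      exact h5
  · exact caseA hA hPI hTot hx hxA hy hyA hx1 hy1 hε hε1 h1

/-- strong pure infiniteness of the closed ideal `A` -/
def SPIr (A : Submodule ℂ M) : Prop :=
  ∀ x ∈ A, 0 ≤ x → ∀ y ∈ A, 0 ≤ y → ∀ ε > 0, ∃ s ∈ A, ∃ t ∈ A,
    ‖star s * (x * x) * s - x * x‖ < ε ∧ ‖star t * (y * y) * t - y * y‖ < ε ∧
      ‖star s * (x * y) * t‖ < ε

theorem PIr.spi (hA : IsCI A) (hPI : PIr A) (hTot : TotR A) : SPIr A := by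
  intro x hxA hx y hyA hy ε hε
  obtain ⟨K, hK⟩ : ∃ K, K = 1 + ‖x‖ + ‖y‖ := ⟨_, rfl⟩
  have hx0 := norm_nonneg x
  have hy0 := norm_nonneg y
  have hK1 : 1 ≤ K := by linarith
  have hK0 : 0 < K := by linarith
  have hKi : 0 ≤ K⁻¹ := by positivity
  have hn : ∀ w : M, ‖w‖ ≤ K → ‖K⁻¹ • w‖ ≤ 1 := by
    intro w hw
    rw [norm_smul, Real.norm_eq_abs, abs_of_nonneg hKi, inv_mul_le_iff₀ hK0]
    linarith
  obtain ⟨s, hs, t, ht, h1, h2, h3⟩ := spi_aux hA hPI hTot (x := K⁻¹ • x) (y := K⁻¹ • y)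
    (smul_nonneg hKi hx) (smulR_mem hxA _) (smul_nonneg hKi hy) (smulR_mem hyA _)
    (hn x (by linarith)) (hn y (by linarith)) (ε := min (ε / K ^ 2) 1)
    (lt_min (by positivity) one_pos) (min_le_right _ _)
  have hc : ∀ w w' : M, K⁻¹ • w * (K⁻¹ • w') = (K ^ 2)⁻¹ • (w * w') := by
    intro w w'
    rw [smul_mul_smul_comm]
    congr 1
    rw [sq, mul_inv]
  have hfin : ∀ w : M, ‖(K ^ 2)⁻¹ • w‖ < min (ε / K ^ 2) 1 → ‖w‖ < ε := by
    intro w hw
    have h4 := hw.trans_le (min_le_left _ _)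
    rw [norm_smul, Real.norm_eq_abs, abs_of_nonneg (by positivity), inv_mul_eq_div,
      div_lt_div_iff_of_pos_right (by positivity)] at h4
    exact h4
  refine ⟨s, hs, t, ht, hfin _ ?_, hfin _ ?_, hfin _ ?_⟩
  · rw [hc] at h1
    simpa only [smul_sub, mul_smul_comm, smul_mul_assoc] using h1
  · rw [hc] at h2
    simpa only [smul_sub, mul_smul_comm, smul_mul_assoc] using h2
  · rw [hc] at h3
    simpa only [smul_sub, mul_smul_comm, smul_mul_assoc] using h3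

end Vale.Agent.P133o
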