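import Vale.Agent.P133o.Defs
import Vale.Agent.P133o.PartA

/-!
# P133: passing to the unitization
-/

set_option linter.unusedSectionVars false

namespace Vale.Agent.P133o

open Unitization

variable {A : Type*} [NonUnitalCStarAlgebra A]

/-- `A` as a subspace of its unitization -/
noncomputable def emb (A : Type*) [NonUnitalCStarAlgebra A] : Submodule ℂ (Unitization ℂ A) where
  carrier := Set.range (fun a : A => (a : Unitization ℂ A))
  add_mem' := by
    rintro _ _ ⟨a, rfl⟩ ⟨b, rfl⟩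
    exact ⟨a + b, by simp⟩
  zero_mem' := ⟨0, by simp⟩
  smul_mem' := by
    rintro c _ ⟨a, rfl⟩
    exact ⟨c • a, by simp⟩

theorem mem_emb {x : Unitization ℂ A} : x ∈ emb A ↔ ∃ a : A, (a : Unitization ℂ A) = x :=
  Iff.rfl

theorem inr_mem_emb (a : A) : (a : Unitization ℂ A) ∈ emb A := ⟨a, rfl⟩

theorem mem_emb_iff {x : Unitization ℂ A} : x ∈ emb A ↔ x.fst = 0 := by
  constructor
  · rintro ⟨a, rfl⟩
    simp
  · intro h
    refine ⟨x.snd, ?_⟩
    ext
    · simp [h]
    · simp

theorem emb_isCI : IsCI (emb A) where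
  closed := by
    have : IsClosed (Set.range (fun a : A => (a : Unitization ℂ A))) :=
      (Unitization.isometry_inr (𝕜 := ℂ) (A := A)).isClosedEmbedding.isClosed_range
    exact this
  left := by
    intro a x hx
    rw [mem_emb_iff] at hx ⊢
    rw [Unitization.fst_mul, hx, mul_zero]
  right := by
    intro a x hx
    rw [mem_emb_iff] at hx ⊢
    rw [Unitization.fst_mul, hx, zero_mul]

theorem TotR_emb (h : ClosedIdealsTotallyOrdered A) : TotR (emb A) := by
  intro I J hI hJ hIA hJA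
  have key : ∀ K : Submodule ℂ (Unitization ℂ A), IsCI K →
      ∃ K' : Submodule ℂ A, IsClosedIdeal A K' ∧ ∀ a : A, a ∈ K' ↔ (a : Unitization ℂ A) ∈ K := by
    intro K hK
    refine ⟨K.comap (inrNonUnitalAlgHom ℂ A : A →ₗ[ℂ] Unitization ℂ A), ⟨?_, ?_⟩, ?_⟩
    · have : ((K.comap (inrNonUnitalAlgHom ℂ A : A →ₗ[ℂ] Unitization ℂ A) : Submodule ℂ A) :
          Set A) = (fun a : A => (a : Unitization ℂ A)) ⁻¹' (K : Set (Unitization ℂ A)) := by
        ext a; simp
      rw [this]
      exact hK.closed.preimage (Unitization.isometry_inr (𝕜 := ℂ) (A := A)).continuous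
    · intro a x hx
      have hx' : (x : Unitization ℂ A) ∈ K := by simpa using hx
      constructor
      · have : ((a * x : A) : Unitization ℂ A) ∈ K := by
          rw [Unitization.inr_mul]; exact hK.left _ _ hx'
        simpa using this
      · have : ((x * a : A) : Unitization ℂ A) ∈ K := by
          rw [Unitization.inr_mul]; exact hK.right _ _ hx'
        simpa using this
    · intro a; simp
  obtain ⟨I', hI', hI2⟩ := key I hI
  obtain ⟨J', hJ', hJ2⟩ := key J hJ
  rcases h I' J' hI' hJ' with hle | hle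
  · left
    intro x hx
    obtain ⟨a, rfl⟩ := hIA hx
    exact (hJ2 a).1 (hle ((hI2 a).2 hx))
  · right
    intro x hx
    obtain ⟨a, rfl⟩ := hJA hx
    exact (hI2 a).1 (hle ((hJ2 a).2 hx))

variable [PartialOrder (Unitization ℂ A)] [StarOrderedRing (Unitization ℂ A)]

/-- positive elements in the two pictures -/
theorem posElt_of_nonneg {h : A} (hh : (0 : Unitization ℂ A) ≤ (h : Unitization ℂ A)) :
    IsPositiveElt h := by
  obtain ⟨r, hr, hrh⟩ := exists_sqrt hh
  have hrA : r ∈ emb A :=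
    emb_isCI.hered_sqrt (IsSelfAdjoint.of_nonneg hr) (inr_mem_emb h) (le_of_eq hrh)
  obtain ⟨y, rfl⟩ := hrA
  refine ⟨y, ?_⟩
  apply Unitization.inr_injective (R := ℂ)
  rw [Unitization.inr_mul, Unitization.inr_star]
  simp only at hr hrh
  rw [(IsSelfAdjoint.of_nonneg hr).star_eq, hrh]

theorem nonneg_of_posElt {h : A} (hh : IsPositiveElt h) :
    (0 : Unitization ℂ A) ≤ (h : Unitization ℂ A) := by
  obtain ⟨y, rfl⟩ := hh
  rw [Unitization.inr_mul, Unitization.inr_star]
  exact star_mul_self_nonneg _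

theorem PIr_emb (h : PurelyInfinite A) : PIr (emb A) := by
  rintro _ ⟨a, rfl⟩ ha ε hε
  obtain ⟨X, hX⟩ := h a (posElt_of_nonneg ha) ε hε
  refine ⟨_, inr_mem_emb (X 0 0), _, inr_mem_emb (X 0 1), ?_, ?_, ?_⟩
  · have h1 := hX 0 0
    rw [← Unitization.norm_inr (𝕜 := ℂ)] at h1
    simpa using h1
  · have h1 := hX 1 1
    rw [← Unitization.norm_inr (𝕜 := ℂ)] at h1
    simpa using h1
  · have h1 := hX 0 1
    rw [← Unitization.norm_inr (𝕜 := ℂ)] at h1
    simpa using h1

theorem SPIr_emb (h : SPIr (emb A)) : StronglyPurelyInfinite A := by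
  intro x y hx hy ε hε
  obtain ⟨s, ⟨s', rfl⟩, t, ⟨t', rfl⟩, h1, h2, h3⟩ := h _ (inr_mem_emb x) (nonneg_of_posElt hx) _
    (inr_mem_emb y) (nonneg_of_posElt hy) ε hε
  refine ⟨s', t', ?_, ?_, ?_⟩
  · rw [← Unitization.norm_inr (𝕜 := ℂ)]
    simpa using h1
  · rw [← Unitization.norm_inr (𝕜 := ℂ)]
    simpa using h2
  · rw [← Unitization.norm_inr (𝕜 := ℂ)]
    simpa using h3

omit [PartialOrder (Unitization ℂ A)] [StarOrderedRing (Unitization ℂ A)] in
theorem spi_of_pi (hT : ClosedIdealsTotallyOrdered A) (h : PurelyInfinite A) :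
    StronglyPurelyInfinite A := by
  let _ : PartialOrder (Unitization ℂ A) := CStarAlgebra.spectralOrder (Unitization ℂ A)
  have _ : StarOrderedRing (Unitization ℂ A) :=
    CStarAlgebra.spectralOrderedRing (Unitization ℂ A)
  exact SPIr_emb ((PIr_emb h).spi emb_isCI (TotR_emb hT))

end Vale.Agent.P133o
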