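import Vale.Agent.P133.FT
import Vale.Agent.P133o.Transfer
import Vale.Agent.P133o.DefsF

/-!
# P133, part (a) for algebras with finite tests, in the definitions of P133o
-/

namespace Vale.Agent.P133o

universe u

variable {A : Type u} [NonUnitalCStarAlgebra A]

theorem isClosedIdeal_iff {I : Submodule ℂ A} : IsClosedIdeal A I ↔ P133.IsClosedIdeal I :=
  ⟨fun h => ⟨h.1, fun a x hx => h.2 a x hx⟩, fun h => ⟨h.1, fun a x hx => h.2 a x hx⟩⟩

theorem finiteTests_toP133 (hF : FiniteTests A) : P133.FiniteTests A := by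
  intro h hh ε hε
  obtain ⟨m, N, hN, ht⟩ := hF h hh ε hε
  exact ⟨m, N, fun j => ⟨isClosedIdeal_iff.1 (hN j).1, (hN j).2⟩,
    fun I hI hd => ht I (isClosedIdeal_iff.2 hI) hd⟩

/-- Purely infinite algebras with finite tests are strongly purely infinite. -/
theorem spi_of_pi_F (hF : FiniteTests A) (h : PurelyInfinite A) : StronglyPurelyInfinite A := by
  let _ := CStarAlgebra.spectralOrder (Unitization ℂ A)
  have _ := CStarAlgebra.spectralOrderedRing (Unitization ℂ A)
  have hPI : ∀ G ∈ P133.SA A, 0 ≤ G → P133.PIat G := by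
    intro G hG hG0 ε hε
    obtain ⟨a, has, haa, _⟩ := P133.exists_root hG0 hG
    obtain ⟨X, hX⟩ := h (a * a) ⟨a, by rw [has]⟩ ε hε
    have hn : ∀ j k : Fin (2 * 1), ‖star ((X 0 j : A) : Unitization ℂ A) * G *
        ((X 0 k : A) : Unitization ℂ A) - (if j = k then G else 0)‖ < ε := by
      intro j k
      have h1 := hX j k
      rw [Fin.sum_univ_one, ← Unitization.norm_inr (𝕜 := ℂ) (A := A)] at h1
      rw [← haa]
      by_cases hjk : j = k
      · simpa [hjk] using h1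
      · simpa [hjk] using h1
    refine ⟨X 0 0, X 0 1, ?_, ?_, ?_⟩
    · simpa using hn 0 0
    · simpa using hn 1 1
    · simpa using hn 0 1
  intro x y hx hy ε hε
  obtain ⟨s, hs, t, ht, h1, h2, h3⟩ := P133.coreF P133.isIdl_SA hPI
    (P133.FTr_SA (finiteTests_toP133 hF)) (P133.nonneg_of_isPos hx) (P133.nonneg_of_isPos hy)
    (P133.mem_SA.2 ⟨x, rfl⟩) (P133.mem_SA.2 ⟨y, rfl⟩) hε
  obtain ⟨s', rfl⟩ := P133.mem_SA.1 hs
  obtain ⟨t', rfl⟩ := P133.mem_SA.1 ht
  refine ⟨s', t', ?_, ?_, ?_⟩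
  · rw [← Unitization.norm_inr (𝕜 := ℂ) (A := A)]
    simpa using h1
  · rw [← Unitization.norm_inr (𝕜 := ℂ) (A := A)]
    simpa using h2
  · rw [← Unitization.norm_inr (𝕜 := ℂ) (A := A)]
    simpa using h3

end Vale.Agent.P133o
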