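import Vale.Agent.P133o.HalfB

/-!
# P133: part (a) with finite test sets
-/

set_option linter.unusedSectionVars false
set_option linter.unusedVariables false

namespace Vale.Agent.P133o

variable {M : Type*} [CStarAlgebra M] [PartialOrder M] [StarOrderedRing M]
variable {Q A : Submodule ℂ M}

theorem caseC_z' (hA : IsCI A) (hPI : PIr A) {x y : M} (hx : 0 ≤ x) (hxA : x ∈ A)
    (hy : 0 ≤ y) (hyA : y ∈ A) (hx1 : ‖x‖ ≤ 1) (hy1 : ‖y‖ ≤ 1) {μ : ℝ} (hμ : 0 < μ)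
    (hμ1 : μ ≤ 1) {δ₀ : ℝ} (hδ0 : 0 < δ₀) (hδ1 : δ₀ ≤ μ ^ 2 / 64) :
    ∃ z₁ ∈ A, ∃ z₂ ∈ A, z₁ ∈ gen (x * (y * y) * x) ∧ z₂ ∈ gen (x * (y * y) * x) ∧
      ‖star z₁ * (x * (y * y) * x) * z₂‖ < δ₀ ∧
      pc μ (x * (y * y) * x) ∈ gen (pc (μ / 4) (star z₁ * (x * x) * z₁)) ∧
      pc μ (x * (y * y) * x) ∈
        gen (pc (μ ^ 3 / 32) (star (y * x * z₂) * (y * y) * (y * x * z₂))) := by
  have hxs : star x = x := (IsSelfAdjoint.of_nonneg hx).star_eq
  have hys : star y = y := (IsSelfAdjoint.of_nonneg hy).star_eq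
  have hT0 : 0 ≤ x * (y * y) * x := by
    have := conj_nonneg (mul_self_nn hy) x
    rwa [hxs] at this
  have hTA : x * (y * y) * x ∈ A := hA.left _ _ hxA
  have hT1 : ‖x * (y * y) * x‖ ≤ 1 := by
    have h1 := norm_mul_le (x * (y * y)) x
    have h2 := norm_mul_le x (y * y)
    have h3 := norm_mul_le y y
    have h4 : ‖y‖ * ‖y‖ ≤ 1 := by nlinarith [norm_nonneg y]
    have h5 : ‖x‖ * ‖y * y‖ ≤ 1 := by nlinarith [norm_nonneg x, norm_nonneg (y * y)]
    nlinarith [norm_nonneg x, norm_nonneg (x * (y * y))]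
  obtain ⟨T, hT⟩ : ∃ T, T = x * (y * y) * x := ⟨_, rfl⟩
  rw [← hT] at hT0 hTA hT1 ⊢
  have hTs : IsSelfAdjoint T := IsSelfAdjoint.of_nonneg hT0
  obtain ⟨p, hp⟩ : ∃ p, p = pc (μ / 2) T := ⟨_, rfl⟩
  have hp0 : 0 ≤ p := by rw [hp]; exact pc_nonneg _ _
  have hps : star p = p := (IsSelfAdjoint.of_nonneg hp0).star_eq
  have hpA : p ∈ A := by rw [hp]; exact pc_mem hA (by positivity) hTA
  have hp1 : ‖p‖ ≤ 1 := by
    rw [hp]; exact (norm_pc_le (by positivity) hT0).trans hT1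
  have hpp : pc (μ / 2) p = pc μ T := by
    rw [hp, pc_pc (by positivity) (by positivity) hTs]
    congr 1
    ring
  have hμ2 : μ ^ 2 ≤ μ := by nlinarith
  obtain ⟨u₁, hu₁A, u₂, hu₂A, hu1, hu2, hu12⟩ := hPI p hpA hp0 δ₀ hδ0
  have hμ20 : 0 < μ / 2 := by positivity
  obtain ⟨z₁, hz₁⟩ : ∃ z, z = kF (μ / 2) T * u₁ := ⟨_, rfl⟩
  obtain ⟨z₂, hz₂⟩ : ∃ z, z = kF (μ / 2) T * u₂ := ⟨_, rfl⟩
  have hz₁A : z₁ ∈ A := by rw [hz₁]; exact hA.left _ _ hu₁A
  have hz₂A : z₂ ∈ A := by rw [hz₂]; exact hA.left _ _ hu₂A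
  have h11 : ‖star z₁ * T * z₁ - p‖ < δ₀ := by
    rw [hz₁, kF_conj hμ20 hT0, ← hp]; exact hu1
  have h22 : ‖star z₂ * T * z₂ - p‖ < δ₀ := by
    rw [hz₂, kF_conj hμ20 hT0, ← hp]; exact hu2
  have h12 : ‖star z₁ * T * z₂‖ < δ₀ := by
    rw [hz₁, hz₂, kF_conj hμ20 hT0, ← hp]; exact hu12
  have hz₂n : ‖z₂‖ ^ 2 ≤ 4 / μ := by
    rw [hz₂]
    refine (norm_kF_mul_sq_le hμ20 hT0 u₂).trans ?_
    rw [← hp]
    have h1 := norm_add_le (star u₂ * p * u₂ - p) p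
    rw [sub_add_cancel] at h1
    have h2 : ‖star u₂ * p * u₂‖ ≤ 2 := by nlinarith
    calc (μ / 2)⁻¹ * ‖star u₂ * p * u₂‖ ≤ (μ / 2)⁻¹ * 2 :=
          mul_le_mul_of_nonneg_left h2 (by positivity)
      _ = 4 / μ := by field_simp; norm_num
  -- first ideal membership
  obtain ⟨η₁, hη₁⟩ : ∃ η, η = μ / 4 := ⟨_, rfl⟩
  have hη₁0 : 0 < η₁ := by rw [hη₁]; positivity
  obtain ⟨bC, hbC⟩ : ∃ b, b = star z₁ * (x * x) * z₁ := ⟨_, rfl⟩
  have hbC0 : 0 ≤ bC := by rw [hbC]; exact conj_nonneg (mul_self_nn hx) _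
  have hbCA : bC ∈ A := by rw [hbC]; exact hA.left _ _ hz₁A
  have hTle : T ≤ x * x := by
    have h1 := conj_mono (mul_self_le_one hy hy1) x
    rw [hxs, mul_one] at h1
    rw [hT]; exact h1
  have hm1 : pc μ T ∈ gen (pc η₁ bC) := by
    rw [← hpp]
    refine pc_mem_of_le_add (gen_isCI _) (IsSelfAdjoint.of_nonneg hp0) (mem_gen_self _) ?_
    have h1 : p - star z₁ * T * z₁ ≤ algebraMap ℝ M δ₀ := by
      have hsa : IsSelfAdjoint (p - star z₁ * T * z₁) :=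
        (IsSelfAdjoint.of_nonneg hp0).sub (IsSelfAdjoint.of_nonneg (conj_nonneg hT0 _))
      refine (IsSelfAdjoint.le_algebraMap_norm_self hsa).trans (algebraMap_mono M ?_)
      rw [norm_sub_rev]; exact h11.le
    have h2 : star z₁ * T * z₁ ≤ bC := by rw [hbC]; exact conj_mono hTle z₁
    have h3 := le_add_pc η₁ (IsSelfAdjoint.of_nonneg hbC0)
    calc p = (p - star z₁ * T * z₁) + star z₁ * T * z₁ := by abel
      _ ≤ algebraMap ℝ M δ₀ + (algebraMap ℝ M η₁ + pc η₁ bC) := add_le_add h1 (h2.trans h3)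
      _ = algebraMap ℝ M (δ₀ + η₁) + pc η₁ bC := by rw [map_add, add_assoc]
      _ ≤ algebraMap ℝ M (μ / 2) + pc η₁ bC := by
          refine add_le_add (algebraMap_mono M ?_) le_rfl
          rw [hη₁]
          nlinarith
  -- second ideal membership
  obtain ⟨η₂, hη₂⟩ : ∃ η, η = μ ^ 3 / 32 := ⟨_, rfl⟩
  have hη₂0 : 0 < η₂ := by rw [hη₂]; positivity
  obtain ⟨bB, hbB⟩ : ∃ b, b = star (y * x * z₂) * (y * y) * (y * x * z₂) := ⟨_, rfl⟩
  have hbB0 : 0 ≤ bB := by rw [hbB]; exact conj_nonneg (mul_self_nn hy) _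
  have hbBA : bB ∈ A := by rw [hbB]; exact hA.left _ _ (hA.left _ _ hz₂A)
  have hTT : star z₂ * (T * T) * z₂ ≤ bB := by
    have h1 := conj_mono (mul_self_le_one hx hx1) (y * y * x * z₂)
    rw [mul_one] at h1
    have e1 : star (y * y * x * z₂) * (x * x) * (y * y * x * z₂) =
        star z₂ * (T * T) * z₂ := by
      rw [hT]
      simp only [star_mul, hxs, hys]
      noncomm_ring
    have e2 : star (y * y * x * z₂) * (y * y * x * z₂) = bB := by
      rw [hbB]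
      simp only [star_mul, hxs, hys]
      noncomm_ring
    rwa [e1, e2] at h1
  have hPP : (star z₂ * T * z₂) * (star z₂ * T * z₂) ≤ (4 / μ) • bB := by
    have h1 : z₂ * star z₂ ≤ algebraMap ℝ M (4 / μ) :=
      (CStarAlgebra.mul_star_le_algebraMap_norm_sq (a := z₂)).trans (algebraMap_mono M hz₂n)
    have h2 := conj_mono h1 (T * z₂)
    have e1 : star (T * z₂) * (z₂ * star z₂) * (T * z₂) =
        (star z₂ * T * z₂) * (star z₂ * T * z₂) := by
      rw [star_mul, hTs.star_eq]; noncomm_ring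
    have e2 : star (T * z₂) * algebraMap ℝ M (4 / μ) * (T * z₂) =
        (4 / μ) • (star z₂ * (T * T) * z₂) := by
      rw [star_mul, hTs.star_eq, Algebra.algebraMap_eq_smul_one]
      simp only [mul_smul_comm, smul_mul_assoc, mul_one, mul_assoc]
    rw [e1, e2] at h2
    exact h2.trans (smul_le_smulR hTT (by positivity))
  have hm2 : pc μ T ∈ gen (pc η₂ bB) := by
    rw [← hpp]
    refine pc_mem_of_sq_le (gen_isCI _) hp0 (q := (4 / μ) • pc η₂ bB)
      (smulR_mem (mem_gen_self _) _) (by positivity) ?_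
    obtain ⟨P, hP⟩ : ∃ P, P = star z₂ * T * z₂ := ⟨_, rfl⟩
    have hP0 : 0 ≤ P := by rw [hP]; exact conj_nonneg hT0 _
    have hPs : star P = P := (IsSelfAdjoint.of_nonneg hP0).star_eq
    rw [← hP] at hPP h22
    have h1 : ‖p * p - P * P‖ ≤ 3 * δ₀ := by
      have e : p * p - P * P = -((P - p) * P + p * (P - p)) := by noncomm_ring
      rw [e, norm_neg]
      have hPn : ‖P‖ ≤ 2 := by
        have := norm_add_le (P - p) p
        rw [sub_add_cancel] at this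
        nlinarith
      have h5 := norm_add_le ((P - p) * P) (p * (P - p))
      have h6 : ‖(P - p) * P‖ ≤ δ₀ * 2 :=
        (norm_mul_le _ _).trans (mul_le_mul h22.le hPn (norm_nonneg _) (by positivity))
      have h7 : ‖p * (P - p)‖ ≤ 1 * δ₀ :=
        (norm_mul_le _ _).trans (mul_le_mul hp1 h22.le (norm_nonneg _) (by positivity))
      linarith
    have h2 : p * p - P * P ≤ algebraMap ℝ M (3 * δ₀) := by
      have hsa : IsSelfAdjoint (p * p - P * P) := by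
        rw [IsSelfAdjoint, star_sub, star_mul, star_mul, hps, hPs]
      exact (IsSelfAdjoint.le_algebraMap_norm_self hsa).trans (algebraMap_mono M h1)
    have h3 := smul_le_smulR (le_add_pc η₂ (IsSelfAdjoint.of_nonneg hbB0))
      (show (0 : ℝ) ≤ 4 / μ by positivity)
    have e4 : (4 / μ) • (algebraMap ℝ M η₂ + pc η₂ bB) =
        algebraMap ℝ M (μ ^ 2 / 8) + (4 / μ) • pc η₂ bB := by
      rw [smul_add, Algebra.algebraMap_eq_smul_one, Algebra.algebraMap_eq_smul_one, smul_smul,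
        hη₂]
      congr 2
      field_simp
      norm_num
    rw [e4] at h3
    calc p * p = (p * p - P * P) + P * P := by abel
      _ ≤ algebraMap ℝ M (3 * δ₀) + (algebraMap ℝ M (μ ^ 2 / 8) + (4 / μ) • pc η₂ bB) :=
          add_le_add h2 (hPP.trans h3)
      _ = algebraMap ℝ M (3 * δ₀ + μ ^ 2 / 8) + (4 / μ) • pc η₂ bB := by rw [map_add, add_assoc]
      _ ≤ algebraMap ℝ M ((μ / 2) ^ 2) + (4 / μ) • pc η₂ bB := by
          refine add_le_add (algebraMap_mono M ?_) le_rfl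
          nlinarith
  rw [hη₁, hbC] at hm1
  rw [hη₂, hbB] at hm2
  have hkT : kF (μ / 2) T ∈ gen T := by
    refine (gen_isCI T).cfc_mem (kF_cont hμ20) ?_ (mem_gen_self T)
    rw [max_eq_right (show (0 : ℝ) - μ / 2 ≤ 0 by linarith)]
    simp
  refine ⟨z₁, hz₁A, z₂, hz₂A, ?_, ?_, h12, hm1, hm2⟩
  · rw [hz₁]; exact (gen_isCI T).right _ _ hkT
  · rw [hz₂]; exact (gen_isCI T).right _ _ hkT

theorem sa_star_mul (V : M) : IsSelfAdjoint (star V * V) :=
  IsSelfAdjoint.of_nonneg (star_mul_self_nonneg V)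

/-- a vector which is `x` modulo `J` is full at `J` -/
theorem lvl1 {J : Submodule ℂ M} (hJ : IsCI J) {x : M} (hx : 0 ≤ x) {ρ : ℝ} (hρ : 0 < ρ)
    (hd : ∀ a ∈ J, ρ ≤ ‖x - a‖) {c : M} (hc : 1 - c ∈ J) :
    pc (ρ ^ 2 / 8) (star (x * c) * (x * c)) ∉ J := by
  intro hm
  have hxs : star x = x := (IsSelfAdjoint.of_nonneg hx).star_eq
  have hj : x * x - star (x * c) * (x * c) ∈ J := by
    have e : x * x - star (x * c) * (x * c) =
        star (x * (1 - c)) * (x * c) + x * (x * (1 - c)) := by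
      simp only [star_mul, star_sub, star_one, hxs]
      noncomm_ring
    rw [e]
    exact J.add_mem (hJ.right _ _ (hJ.star_mem (hJ.left _ _ hc)))
      (hJ.left _ _ (hJ.left _ _ hc))
  have h1 := le_add_pc (ρ ^ 2 / 8) (sa_star_mul (x * c))
  have h2 : pc (ρ / 2) x ∈ J := by
    refine pc_mem_of_sq_le hJ hx (q := pc (ρ ^ 2 / 8) (star (x * c) * (x * c)) +
      (x * x - star (x * c) * (x * c))) (J.add_mem hm hj) (by positivity) ?_
    calc x * x = star (x * c) * (x * c) + (x * x - star (x * c) * (x * c)) := by abel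
      _ ≤ (algebraMap ℝ M (ρ ^ 2 / 8) + pc (ρ ^ 2 / 8) (star (x * c) * (x * c))) +
          (x * x - star (x * c) * (x * c)) := add_le_add h1 le_rfl
      _ = algebraMap ℝ M (ρ ^ 2 / 8) + (pc (ρ ^ 2 / 8) (star (x * c) * (x * c)) +
          (x * x - star (x * c) * (x * c))) := add_assoc _ _ _
      _ ≤ algebraMap ℝ M ((ρ / 2) ^ 2) + (pc (ρ ^ 2 / 8) (star (x * c) * (x * c)) +
          (x * x - star (x * c) * (x * c))) := by
          refine add_le_add (algebraMap_mono M ?_) le_rfl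
          nlinarith
  have h3 := hd _ h2
  have h4 := norm_sub_pc_le (show (0 : ℝ) ≤ ρ / 2 by positivity) hx
  linarith

/-- domination of a bounded vector by a large multiple of a full vector -/
theorem lvl2 {J : Submodule ℂ M} (hJ : IsCI J) {V₀ V₁ : M} {lam η η₁ : ℝ} (hV₀ : ‖V₀‖ ≤ 1)
    (hlam : 0 < lam) (hη0 : 0 ≤ η) (hη : η ≤ 1) (h4 : 4 / lam ^ 2 ≤ η₁)
    (hn : pc η₁ (star V₁ * V₁) ∉ J) :
    pc η (star (V₀ + lam • V₁) * (V₀ + lam • V₁)) ∉ J := by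
  intro hm
  apply hn
  obtain ⟨V, hV⟩ : ∃ V, V = V₀ + lam • V₁ := ⟨_, rfl⟩
  rw [← hV] at hm
  refine pc_mem_of_le_add hJ (sa_star_mul V₁) (q := (2 / lam ^ 2) • pc η (star V * V))
    (smulR_mem hm _) ?_
  have h1 := star_add_mul_le V (-V₀)
  have e1 : V + -V₀ = lam • V₁ := by rw [hV]; abel
  have e2 : star (lam • V₁) * (lam • V₁) = (lam ^ 2) • (star V₁ * V₁) := by
    rw [star_smul, star_trivial, smul_mul_smul_comm, sq]
  have e3 : star (-V₀) * (-V₀) = star V₀ * V₀ := by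
    rw [star_neg, neg_mul_neg]
  rw [e1, e2, e3] at h1
  have h2 := le_add_pc η (sa_star_mul V)
  have h3 : star V₀ * V₀ ≤ algebraMap ℝ M 1 :=
    (star_mul_self_le V₀).trans (algebraMap_mono M (by nlinarith [norm_nonneg V₀]))
  have h5 : (lam ^ 2) • (star V₁ * V₁) ≤
      (2 : ℝ) • (algebraMap ℝ M η + pc η (star V * V)) + (2 : ℝ) • algebraMap ℝ M 1 :=
    h1.trans (add_le_add (smul_le_smulR h2 zero_le_two) (smul_le_smulR h3 zero_le_two))
  have h6 := smul_le_smulR h5 (show (0 : ℝ) ≤ (lam ^ 2)⁻¹ by positivity)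
  have e4 : (lam ^ 2)⁻¹ • ((lam ^ 2) • (star V₁ * V₁)) = star V₁ * V₁ := by
    rw [smul_smul, inv_mul_cancel₀ (by positivity), one_smul]
  have e5 : (lam ^ 2)⁻¹ • ((2 : ℝ) • (algebraMap ℝ M η + pc η (star V * V)) +
      (2 : ℝ) • algebraMap ℝ M 1) =
      algebraMap ℝ M ((2 * η + 2) / lam ^ 2) + (2 / lam ^ 2) • pc η (star V * V) := by
    simp only [Algebra.algebraMap_eq_smul_one, smul_add, smul_smul]
    have e6 : (lam ^ 2)⁻¹ * (2 * η) + (lam ^ 2)⁻¹ * (2 * 1) = (2 * η + 2) / lam ^ 2 := by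
      field_simp
    have e7 : (lam ^ 2)⁻¹ * 2 = 2 / lam ^ 2 := by field_simp
    rw [← e6, add_smul, e7]
    abel
  rw [e4, e5] at h6
  refine h6.trans (add_le_add (algebraMap_mono M ?_) le_rfl)
  refine le_trans ?_ h4
  rw [div_le_div_iff_of_pos_right (by positivity)]
  linarith

theorem one_sub_gF_norm {μ : ℝ} (hμ : 0 < μ) (T : M) : ‖1 - gF μ T‖ ≤ 1 := by
  by_cases hT : IsSelfAdjoint T
  · have e : 1 - gF μ T = cfc (fun t : ℝ => 1 - min (max (t - μ) 0 / μ) 1) T := by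
      unfold gF
      rw [cfc_sub (fun _ : ℝ => (1 : ℝ)) (fun t : ℝ => min (max (t - μ) 0 / μ) 1) T (by fun_prop)
        (by fun_prop), cfc_const_one ℝ T]
    rw [e]
    refine norm_cfc_le zero_le_one fun t ht => ?_
    have h1 : 0 ≤ min (max (t - μ) 0 / μ) 1 := le_min (by positivity) zero_le_one
    have h2 := min_le_right (max (t - μ) 0 / μ) 1
    rw [Real.norm_eq_abs, abs_le]
    constructor <;> linarith
  · have : gF μ T = 0 := cfc_apply_of_not_predicate T hT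
    rw [this, sub_zero]
    exact norm_one_le

theorem finset_cut {s : Finset (Submodule ℂ M)} (hs : ∀ K ∈ s, IsCI K) {T : M} (hT : 0 ≤ T) :
    ∃ μ : ℝ, 0 < μ ∧ μ ≤ 1 ∧ ∀ K ∈ s, T ∉ K → pc μ T ∉ K := by
  classical
  obtain ⟨ρ, hρ, h⟩ := finset_dist (s := s.filter fun K => T ∉ K) (h := T) fun K hK =>
    ⟨hs K (Finset.mem_filter.1 hK).1, (Finset.mem_filter.1 hK).2⟩
  refine ⟨min (ρ / 2) 1, lt_min (by positivity) one_pos, min_le_right _ _, fun K hK hTK hm => ?_⟩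
  have h1 := h K (Finset.mem_filter.2 ⟨hK, hTK⟩) _ hm
  have h2 := norm_sub_pc_le (show (0 : ℝ) ≤ min (ρ / 2) 1 by positivity) hT
  have h3 := min_le_left (ρ / 2) 1
  linarith

theorem xy_one_sub {x y : M} (hx : 0 ≤ x) (hy : 0 ≤ y) {μ : ℝ} (hμ : 0 < μ) :
    ‖(1 - gF μ (x * (y * y) * x)) * (x * y)‖ ^ 2 ≤ 2 * μ := by
  have hxs : star x = x := (IsSelfAdjoint.of_nonneg hx).star_eq
  have hys : star y = y := (IsSelfAdjoint.of_nonneg hy).star_eq
  have hT0 : 0 ≤ x * (y * y) * x := by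
    have := conj_nonneg (mul_self_nn hy) x
    rwa [hxs] at this
  have h3 := gF_conj hμ hT0
  have hGs : star (1 - gF μ (x * (y * y) * x)) = 1 - gF μ (x * (y * y) * x) := by
    rw [star_sub, star_one, gF_sa]
  have e2 : ‖(1 - gF μ (x * (y * y) * x)) * (x * y)‖ ^ 2 =
      ‖(1 - gF μ (x * (y * y) * x)) * (x * (y * y) * x) * (1 - gF μ (x * (y * y) * x))‖ := by
    rw [sq, ← CStarRing.norm_self_mul_star, star_mul, star_mul, hGs, hxs, hys]
    congr 1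
    noncomm_ring
  rw [e2]; exact h3

theorem num2 {a b τ : ℝ} (ha : 0 ≤ a) (hτ : 0 ≤ τ) (h : a ^ 2 ≤ 2 * (τ ^ 2 / 2)) : a ≤ τ := by
  have : a ^ 2 ≤ τ ^ 2 := by linarith
  exact le_of_sq_le_sq this hτ

theorem fin_norm {w bb : M} {ε : ℝ} (hε : 0 < ε) (hw : 0 ≤ w) (hw1 : ‖w‖ ≤ 1)
    (h : ‖bb - pc (ε / 4) w * pc (ε / 4) w‖ < ε / 4) : ‖bb - w * w‖ < ε := by
  have hw2 : ‖pc (ε / 4) w‖ ≤ 1 := (norm_pc_le (by positivity) hw).trans hw1
  have e2 : bb - w * w = (bb - pc (ε / 4) w * pc (ε / 4) w) -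
      ((w - pc (ε / 4) w) * w + pc (ε / 4) w * (w - pc (ε / 4) w)) := by noncomm_ring
  rw [e2]
  have h3 := norm_sub_pc_le (show (0 : ℝ) ≤ ε / 4 by positivity) hw
  have h4 := norm_sub_le (bb - pc (ε / 4) w * pc (ε / 4) w)
    ((w - pc (ε / 4) w) * w + pc (ε / 4) w * (w - pc (ε / 4) w))
  have h5 := norm_add_le ((w - pc (ε / 4) w) * w) (pc (ε / 4) w * (w - pc (ε / 4) w))
  have h6 : ‖(w - pc (ε / 4) w) * w‖ ≤ ε / 4 * 1 :=
    (norm_mul_le _ _).trans (mul_le_mul h3 hw1 (norm_nonneg _) (by positivity))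
  have h7 : ‖pc (ε / 4) w * (w - pc (ε / 4) w)‖ ≤ 1 * (ε / 4) :=
    (norm_mul_le _ _).trans (mul_le_mul hw2 h3 (norm_nonneg _) (by positivity))
  linarith

/-- the four cross terms -/
theorem cross_bound {x y c c' z₁ z₂ : M} (hxs : star x = x) (hys : star y = y) {lam τ δ₀ : ℝ}
    (hlam : 0 < lam) (hτ : 0 ≤ τ) (hc : star c = c) (hc' : star c' = c') (hcn : ‖c'‖ ≤ 1)
    (hx1 : ‖x‖ ≤ 1) (hy1 : ‖y‖ ≤ 1)
    (h1 : ‖c * (x * y)‖ ≤ τ) (h2 : ‖c' * (y * x)‖ ≤ τ) (h3 : ‖star z₁ * (x * (y * y) * x) * z₂‖ ≤ δ₀) :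
    ‖star (c + lam • z₁) * (x * y) * (c' + lam • (y * x * z₂))‖ ≤
      τ * (1 + lam * ‖z₂‖ + lam * ‖z₁‖) + lam ^ 2 * δ₀ := by
  have hz2 : ‖y * x * z₂‖ ≤ ‖z₂‖ := by
    have h4 := norm_mul_le (y * x) z₂
    have h5 := norm_mul_le y x
    have h6 : ‖y‖ * ‖x‖ ≤ 1 := by nlinarith [norm_nonneg x, norm_nonneg y]
    nlinarith [norm_nonneg z₂]
  have e : star (c + lam • z₁) * (x * y) * (c' + lam • (y * x * z₂)) =
      c * (x * y) * c' + lam • (c * (x * y) * (y * x * z₂)) +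
        lam • (star z₁ * star (c' * (y * x))) +
        (lam ^ 2) • (star z₁ * (x * (y * y) * x) * z₂) := by
    simp only [star_add, star_smul, star_trivial, star_mul, hc, hc', hxs, hys, add_mul, mul_add,
      smul_mul_assoc, mul_smul_comm, smul_smul, mul_assoc, sq, smul_add]
    abel
  rw [e]
  have t1 : ‖c * (x * y) * c'‖ ≤ τ * 1 :=
    (norm_mul_le _ _).trans (mul_le_mul h1 hcn (norm_nonneg _) hτ)
  have t2 : ‖lam • (c * (x * y) * (y * x * z₂))‖ ≤ lam * (τ * ‖z₂‖) := by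
    rw [norm_smul, Real.norm_eq_abs, abs_of_pos hlam]
    refine mul_le_mul_of_nonneg_left ?_ hlam.le
    exact (norm_mul_le _ _).trans (mul_le_mul h1 hz2 (norm_nonneg _) hτ)
  have t3 : ‖lam • (star z₁ * star (c' * (y * x)))‖ ≤ lam * (‖z₁‖ * τ) := by
    rw [norm_smul, Real.norm_eq_abs, abs_of_pos hlam]
    refine mul_le_mul_of_nonneg_left ?_ hlam.le
    refine (norm_mul_le _ _).trans ?_
    rw [norm_star, norm_star]
    exact mul_le_mul_of_nonneg_left h2 (norm_nonneg _)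
  have t4 : ‖(lam ^ 2) • (star z₁ * (x * (y * y) * x) * z₂)‖ ≤ lam ^ 2 * δ₀ := by
    rw [norm_smul, Real.norm_eq_abs, abs_of_nonneg (by positivity)]
    exact mul_le_mul_of_nonneg_left h3 (by positivity)
  have s1 := norm_add_le (c * (x * y) * c' + lam • (c * (x * y) * (y * x * z₂)) +
        lam • (star z₁ * star (c' * (y * x)))) ((lam ^ 2) • (star z₁ * (x * (y * y) * x) * z₂))
  have s2 := norm_add_le (c * (x * y) * c' + lam • (c * (x * y) * (y * x * z₂)))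
        (lam • (star z₁ * star (c' * (y * x))))
  have s3 := norm_add_le (c * (x * y) * c') (lam • (c * (x * y) * (y * x * z₂)))
  nlinarith

theorem prod_le {a b m : ℝ} (h1 : a ^ 2 ≤ m) (h2 : b ^ 2 ≤ m) : a * b ≤ m := by
  nlinarith [sq_nonneg (a - b)]

theorem vectorsF (hA : IsCI A) (hPI : PIr A) (hF : FR A) {x y : M} (hx : 0 ≤ x) (hxA : x ∈ A)
    (hy : 0 ≤ y) (hyA : y ∈ A) (hx1 : ‖x‖ ≤ 1) (hy1 : ‖y‖ ≤ 1) {ε : ℝ} (hε : 0 < ε) :
    ∃ (η : ℝ) (c c' : M), 0 < η ∧ pc (ε / 4) x ∈ gen (pc η (star (x * c) * (x * c))) ∧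
      pc (ε / 4) y ∈ gen (pc η (star (y * c') * (y * c'))) ∧
      ‖star c * (x * y) * c'‖ ≤ ε * η / 8 + ε * η / 8 := by
  classical
  have hxs : star x = x := (IsSelfAdjoint.of_nonneg hx).star_eq
  have hys : star y = y := (IsSelfAdjoint.of_nonneg hy).star_eq
  have hT0 : 0 ≤ x * (y * y) * x := by
    have := conj_nonneg (mul_self_nn hy) x
    rwa [hxs] at this
  have hT0' : 0 ≤ y * (x * x) * y := by
    have := conj_nonneg (mul_self_nn hx) y
    rwa [hys] at this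
  obtain ⟨sx, hsx1, hsx2⟩ := hF.tests hA hxA hx (ε := ε / 4) (by positivity)
  obtain ⟨sy, hsy1, hsy2⟩ := hF.tests hA hyA hy (ε := ε / 4) (by positivity)
  obtain ⟨ρx, hρx, hdx⟩ := finset_dist (s := sx) (h := x) fun K hK =>
    ⟨(hsx1 K hK).1, (hsx1 K hK).2.2.1⟩
  obtain ⟨ρy, hρy, hdy⟩ := finset_dist (s := sy) (h := y) fun K hK =>
    ⟨(hsy1 K hK).1, (hsy1 K hK).2.2.1⟩
  obtain ⟨ρ, hρ⟩ : ∃ ρ, ρ = min (min ρx ρy) 1 := ⟨_, rfl⟩
  have hρ0 : 0 < ρ := by rw [hρ]; exact lt_min (lt_min hρx hρy) one_pos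
  have hρ1 : ρ ≤ 1 := by rw [hρ]; exact min_le_right _ _
  have hρρx : ρ ≤ ρx := by rw [hρ]; exact (min_le_left _ _).trans (min_le_left _ _)
  have hρρy : ρ ≤ ρy := by rw [hρ]; exact (min_le_left _ _).trans (min_le_right _ _)
  obtain ⟨η, hη⟩ : ∃ η, η = ρ ^ 2 / 8 := ⟨_, rfl⟩
  have hη0 : 0 < η := by rw [hη]; positivity
  have hη1 : η ≤ 1 := by rw [hη]; nlinarith
  -- the scale μ
  obtain ⟨μ, hμ0, hμ1, hμ⟩ := finset_cut (s := sx ∪ sy) (T := x * (y * y) * x) (fun K hK => by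
    rcases Finset.mem_union.1 hK with h | h
    · exact (hsx1 K h).1
    · exact (hsy1 K h).1) hT0
  obtain ⟨κ, hκ⟩ : ∃ κ, κ = min (μ / 4) (μ ^ 3 / 32) := ⟨_, rfl⟩
  have hκ0 : 0 < κ := by rw [hκ]; exact lt_min (by positivity) (by positivity)
  obtain ⟨lam, hlamdef⟩ : ∃ lam, lam = 2 / √κ := ⟨_, rfl⟩
  have hlam : 0 < lam := by rw [hlamdef]; positivity
  have hlam2 : 4 / lam ^ 2 = κ := by
    rw [hlamdef, div_pow, Real.sq_sqrt hκ0.le]
    field_simp
    norm_num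
  obtain ⟨δ₀, hδ₀⟩ : ∃ δ₀, δ₀ = min (μ ^ 2 / 64) (ε * η / (8 * lam ^ 2)) := ⟨_, rfl⟩
  have hδ0 : 0 < δ₀ := by rw [hδ₀]; exact lt_min (by positivity) (by positivity)
  have hδ2 : lam ^ 2 * δ₀ ≤ ε * η / 8 := by
    have h1 : δ₀ ≤ ε * η / (8 * lam ^ 2) := by rw [hδ₀]; exact min_le_right _ _
    calc lam ^ 2 * δ₀ ≤ lam ^ 2 * (ε * η / (8 * lam ^ 2)) :=
          mul_le_mul_of_nonneg_left h1 (by positivity)
      _ = ε * η / 8 := by field_simp
  obtain ⟨z₁, hz₁A, z₂, hz₂A, hz₁T, hz₂T, h12, hm1, hm2⟩ :=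
    caseC_z' hA hPI hx hxA hy hyA hx1 hy1 hμ0 hμ1 hδ0 (by rw [hδ₀]; exact min_le_left _ _)
  obtain ⟨C, hC⟩ : ∃ C, C = 1 + lam * ‖z₂‖ + lam * ‖z₁‖ := ⟨_, rfl⟩
  have hC0 : 0 < C := by rw [hC]; positivity
  obtain ⟨τ, hτ⟩ : ∃ τ, τ = ε * η / (8 * C) := ⟨_, rfl⟩
  have hτ0 : 0 < τ := by rw [hτ]; positivity
  have hτC : τ * C = ε * η / 8 := by rw [hτ]; field_simp
  have hν0 : 0 < τ ^ 2 / 2 := by positivity
  obtain ⟨G, hG⟩ : ∃ G, G = gF (τ ^ 2 / 2) (x * (y * y) * x) := ⟨_, rfl⟩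
  obtain ⟨G', hG'⟩ : ∃ G', G' = gF (τ ^ 2 / 2) (y * (x * x) * y) := ⟨_, rfl⟩
  have hGT : G ∈ gen (x * (y * y) * x) := by
    rw [hG]
    exact gF_mem (gen_isCI _) hν0 (IsSelfAdjoint.of_nonneg hT0)
      (pc_mem (gen_isCI _) hν0.le (mem_gen_self _))
  have hG'T : G' ∈ gen (x * (y * y) * x) := by
    rw [hG']
    refine gF_mem (gen_isCI _) hν0 (IsSelfAdjoint.of_nonneg hT0') ?_
    refine gen_le (gen_isCI _) ?_ (sq_prod_le x y hx hy hν0.le)
    exact pc_mem (gen_isCI _) hν0.le (mem_gen_self _)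
  have hGs : star (1 - G) = 1 - G := by rw [star_sub, star_one, hG, gF_sa]
  have hG's : star (1 - G') = 1 - G' := by rw [star_sub, star_one, hG', gF_sa]
  have hGn : ‖1 - G‖ ≤ 1 := by rw [hG]; exact one_sub_gF_norm hν0 _
  have hG'n : ‖1 - G'‖ ≤ 1 := by rw [hG']; exact one_sub_gF_norm hν0 _
  have hc1 : ‖(1 - G) * (x * y)‖ ≤ τ :=
    num2 (b := 0) (norm_nonneg _) hτ0.le (by rw [hG]; exact xy_one_sub hx hy hν0)
  have hc2 : ‖(1 - G') * (y * x)‖ ≤ τ :=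
    num2 (b := 0) (norm_nonneg _) hτ0.le (by rw [hG']; exact xy_one_sub hy hx hν0)
  -- the two vectors
  obtain ⟨c, hcdef⟩ : ∃ c, c = (1 - G) + lam • z₁ := ⟨_, rfl⟩
  obtain ⟨c', hc'def⟩ : ∃ c', c' = (1 - G') + lam • (y * x * z₂) := ⟨_, rfl⟩
  have hbV0 : 0 ≤ star (x * c) * (x * c) := star_mul_self_nonneg _
  have hbW0 : 0 ≤ star (y * c') * (y * c') := star_mul_self_nonneg _
  have hbVA : star (x * c) * (x * c) ∈ A := hA.left _ _ (hA.right _ _ hxA)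
  have hbWA : star (y * c') * (y * c') ∈ A := hA.left _ _ (hA.right _ _ hyA)
  have hVx : pc (ε / 4) x ∈ gen (pc η (star (x * c) * (x * c))) := by
    refine hsx2 _ (gen_isCI _) (gen_le hA (pc_mem hA hη0.le hbVA)) ?_
    intro J hJ hle
    have hmem : pc η (star (x * c) * (x * c)) ∈ J := hle (mem_gen_self _)
    have hJc := (hsx1 J hJ).1
    by_cases hTJ : x * (y * y) * x ∈ J
    · refine lvl1 hJc hx hρ0 (fun a ha => hρρx.trans (hdx J hJ a ha)) (c := c) ?_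
        (by rw [← hη]; exact hmem)
      have e : 1 - c = G - lam • z₁ := by rw [hcdef]; abel
      rw [e]
      exact J.sub_mem (gen_le hJc hTJ hGT) (smulR_mem (gen_le hJc hTJ hz₁T) _)
    · have h1 := hμ J (Finset.mem_union_left _ hJ) hTJ
      have h2 : pc (μ / 4) (star (x * z₁) * (x * z₁)) ∉ J := by
        intro h3
        apply h1
        refine gen_le hJc ?_ hm1
        have e : star z₁ * (x * x) * z₁ = star (x * z₁) * (x * z₁) := by
          rw [star_mul, hxs]; noncomm_ring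
        rw [e]; exact h3
      have hV0n : ‖x * (1 - G)‖ ≤ 1 := by
        have := norm_mul_le x (1 - G)
        nlinarith [norm_nonneg x, norm_nonneg (1 - G)]
      refine lvl2 hJc (V₀ := x * (1 - G)) (V₁ := x * z₁) hV0n hlam hη0.le hη1
        (by rw [hlam2, hκ]; exact min_le_left _ _) h2 ?_
      have e : x * (1 - G) + lam • (x * z₁) = x * c := by
        rw [hcdef, mul_add, mul_smul_comm]
      rw [e]; exact hmem
  have hWy : pc (ε / 4) y ∈ gen (pc η (star (y * c') * (y * c'))) := by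
    refine hsy2 _ (gen_isCI _) (gen_le hA (pc_mem hA hη0.le hbWA)) ?_
    intro J hJ hle
    have hmem : pc η (star (y * c') * (y * c')) ∈ J := hle (mem_gen_self _)
    have hJc := (hsy1 J hJ).1
    by_cases hTJ : x * (y * y) * x ∈ J
    · refine lvl1 hJc hy hρ0 (fun a ha => hρρy.trans (hdy J hJ a ha)) (c := c') ?_
        (by rw [← hη]; exact hmem)
      have e : 1 - c' = G' - lam • (y * x * z₂) := by rw [hc'def]; abel
      rw [e]
      exact J.sub_mem (gen_le hJc hTJ hG'T)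
        (smulR_mem (hJc.left _ _ (gen_le hJc hTJ hz₂T)) _)
    · have h1 := hμ J (Finset.mem_union_right _ hJ) hTJ
      have h2 : pc (μ ^ 3 / 32) (star (y * (y * x * z₂)) * (y * (y * x * z₂))) ∉ J := by
        intro h3
        apply h1
        refine gen_le hJc ?_ hm2
        have e : star (y * x * z₂) * (y * y) * (y * x * z₂) =
            star (y * (y * x * z₂)) * (y * (y * x * z₂)) := by
          rw [star_mul y (y * x * z₂), hys]; noncomm_ring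
        rw [e]; exact h3
      have hV0n : ‖y * (1 - G')‖ ≤ 1 := by
        have := norm_mul_le y (1 - G')
        nlinarith [norm_nonneg y, norm_nonneg (1 - G')]
      refine lvl2 hJc (V₀ := y * (1 - G')) (V₁ := y * (y * x * z₂)) hV0n hlam hη0.le hη1
        (by rw [hlam2, hκ]; exact min_le_right _ _) h2 ?_
      have e : y * (1 - G') + lam • (y * (y * x * z₂)) = y * c' := by
        rw [hc'def, mul_add, mul_smul_comm]
      rw [e]; exact hmem
  have hcb := cross_bound hxs hys hlam hτ0.le hGs hG's hG'n hx1 hy1 hc1 hc2 h12.le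
  rw [← hcdef, ← hc'def, ← hC, hτC] at hcb
  exact ⟨η, c, c', hη0, hVx, hWy, hcb.trans (add_le_add le_rfl hδ2)⟩

theorem spi_auxF (hA : IsCI A) (hPI : PIr A) (hF : FR A) {x y : M} (hx : 0 ≤ x) (hxA : x ∈ A)
    (hy : 0 ≤ y) (hyA : y ∈ A) (hx1 : ‖x‖ ≤ 1) (hy1 : ‖y‖ ≤ 1) {ε : ℝ} (hε : 0 < ε)
    (hε1 : ε ≤ 1) :
    ∃ s ∈ A, ∃ t ∈ A, ‖star s * (x * x) * s - x * x‖ < ε ∧
      ‖star t * (y * y) * t - y * y‖ < ε ∧ ‖star s * (x * y) * t‖ < ε := by
  have hxs : star x = x := (IsSelfAdjoint.of_nonneg hx).star_eq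
  have hys : star y = y := (IsSelfAdjoint.of_nonneg hy).star_eq
  obtain ⟨η, c, c', hη0, hVx, hWy, hcb⟩ := vectorsF hA hPI hF hx hxA hy hyA hx1 hy1 hε
  have hbV0 : 0 ≤ star (x * c) * (x * c) := star_mul_self_nonneg _
  have hbW0 : 0 ≤ star (y * c') * (y * c') := star_mul_self_nonneg _
  have hbVA : star (x * c) * (x * c) ∈ A := hA.left _ _ (hA.right _ _ hxA)
  have hbWA : star (y * c') * (y * c') ∈ A := hA.left _ _ (hA.right _ _ hyA)
  have hax1 : ‖pc (ε / 4) x‖ ≤ 1 := (norm_pc_le (by positivity) hx).trans hx1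
  have hay1 : ‖pc (ε / 4) y‖ ≤ 1 := (norm_pc_le (by positivity) hy).trans hy1
  obtain ⟨v₁, hv₁A, hv1, hv1n⟩ := hPI.conj hA (pc_nonneg (ε / 4) x)
    (pc_mem hA (by positivity) hxA) hbV0 hbVA hη0 hVx (δ := ε / 4) (by positivity)
  obtain ⟨v₂, hv₂A, hv2, hv2n⟩ := hPI.conj hA (pc_nonneg (ε / 4) y)
    (pc_mem hA (by positivity) hyA) hbW0 hbWA hη0 hWy (δ := ε / 4) (by positivity)
  have hv1m : ‖v₁‖ ^ 2 ≤ η⁻¹ * 2 := by
    refine hv1n.trans (mul_le_mul_of_nonneg_left ?_ (by positivity))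
    have := pow_le_one₀ (n := 2) (norm_nonneg _) hax1
    linarith
  have hv2m : ‖v₂‖ ^ 2 ≤ η⁻¹ * 2 := by
    refine hv2n.trans (mul_le_mul_of_nonneg_left ?_ (by positivity))
    have := pow_le_one₀ (n := 2) (norm_nonneg _) hay1
    linarith
  have hvv : ‖v₁‖ * ‖v₂‖ ≤ η⁻¹ * 2 := prod_le hv1m hv2m
  refine ⟨c * v₁, hA.left _ _ hv₁A, c' * v₂, hA.left _ _ hv₂A, ?_, ?_, ?_⟩
  · have e1 : star (c * v₁) * (x * x) * (c * v₁) = star v₁ * (star (x * c) * (x * c)) * v₁ := by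
      rw [star_mul, star_mul, hxs]; noncomm_ring
    rw [e1]
    exact fin_norm hε hx hx1 hv1
  · have e1 : star (c' * v₂) * (y * y) * (c' * v₂) =
        star v₂ * (star (y * c') * (y * c')) * v₂ := by
      rw [star_mul, star_mul, hys]; noncomm_ring
    rw [e1]
    exact fin_norm hε hy hy1 hv2
  · have e1 : star (c * v₁) * (x * y) * (c' * v₂) = star v₁ * (star c * (x * y) * c') * v₂ := by
      rw [star_mul]; noncomm_ring
    rw [e1]
    have h3 : ‖star v₁ * (star c * (x * y) * c') * v₂‖ ≤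
        (‖v₁‖ * ‖v₂‖) * ‖star c * (x * y) * c'‖ := by
      refine (norm_mul_le _ _).trans ?_
      have h5 := norm_mul_le (star v₁) (star c * (x * y) * c')
      rw [norm_star] at h5
      calc ‖star v₁ * (star c * (x * y) * c')‖ * ‖v₂‖ ≤
            (‖v₁‖ * ‖star c * (x * y) * c'‖) * ‖v₂‖ :=
            mul_le_mul_of_nonneg_right h5 (norm_nonneg _)
        _ = _ := by ring
    refine h3.trans_lt ?_
    calc (‖v₁‖ * ‖v₂‖) * ‖star c * (x * y) * c'‖ ≤ (η⁻¹ * 2) * (ε * η / 8 + ε * η / 8) :=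
          mul_le_mul hvv hcb (norm_nonneg _) (by positivity)
      _ = ε / 2 := by field_simp; norm_num
      _ < ε := by linarith

theorem PIr.spiF (hA : IsCI A) (hPI : PIr A) (hF : FR A) : SPIr A := by
  intro x hxA hx y hyA hy ε hε
  obtain ⟨K, hK⟩ : ∃ K, K = 1 + ‖x‖ + ‖y‖ := ⟨_, rfl⟩
  have hx0 := norm_nonneg x
  have hy0 := norm_nonneg y
  have hK1 : 1 ≤ K := by linarith
  have hK0 : 0 < K := by linarith
  have hKi : 0 ≤ K⁻¹ := by positivity
  have hn : ∀ w : M, ‖w‖ ≤ K → ‖K⁻¹ • w‖ ≤ 1 := by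
    intro w hw
    rw [norm_smul, Real.norm_eq_abs, abs_of_nonneg hKi, inv_mul_le_iff₀ hK0]
    linarith
  obtain ⟨s, hs, t, ht, h1, h2, h3⟩ := spi_auxF hA hPI hF (x := K⁻¹ • x) (y := K⁻¹ • y)
    (smul_nonneg hKi hx) (smulR_mem hxA _) (smul_nonneg hKi hy) (smulR_mem hyA _)
    (hn x (by linarith)) (hn y (by linarith)) (ε := min (ε / K ^ 2) 1)
    (lt_min (by positivity) one_pos) (min_le_right _ _)
  have hc : ∀ w w' : M, K⁻¹ • w * (K⁻¹ • w') = (K ^ 2)⁻¹ • (w * w') := by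
    intro w w'
    rw [smul_mul_smul_comm]
    congr 1
    rw [sq, mul_inv]
  have hfin : ∀ w : M, ‖(K ^ 2)⁻¹ • w‖ < min (ε / K ^ 2) 1 → ‖w‖ < ε := by
    intro w hw
    have h4 := hw.trans_le (min_le_left _ _)
    rw [norm_smul, Real.norm_eq_abs, abs_of_nonneg (by positivity), inv_mul_eq_div,
      div_lt_div_iff_of_pos_right (by positivity)] at h4
    exact h4
  refine ⟨s, hs, t, ht, hfin _ ?_, hfin _ ?_, hfin _ ?_⟩
  · rw [hc] at h1
    simpa only [smul_sub, mul_smul_comm, smul_mul_assoc] using h1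
  · rw [hc] at h2
    simpa only [smul_sub, mul_smul_comm, smul_mul_assoc] using h2
  · rw [hc] at h3
    simpa only [smul_sub, mul_smul_comm, smul_mul_assoc] using h3

end Vale.Agent.P133o
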