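import Vale.Agent.P133o.DefsB

/-!
# P133, part (b), row B1: orthogonal elements generating large ideals
-/

set_option linter.unusedSectionVars false

namespace Vale.Agent.P133o

namespace SplitB

variable {M : Type*} [CStarAlgebra M] [PartialOrder M] [StarOrderedRing M]
variable {A : Submodule ℂ M}

/-- the closed right ideal generated by `h` -/
noncomputable def R (h : M) : Submodule ℂ M :=
  (LinearMap.range (LinearMap.mulLeft ℂ h)).topologicalClosure

theorem mul_mem_R (h y : M) : h * y ∈ R h :=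
  (LinearMap.range (LinearMap.mulLeft ℂ h)).le_topologicalClosure ⟨y, rfl⟩

theorem R_mul {h x : M} (hx : x ∈ R h) (y : M) : x * y ∈ R h := by
  refine map_mem_closure (f := fun z : M => z * y) (by fun_prop) hx ?_
  rintro _ ⟨z, rfl⟩
  exact ⟨z * y, by simp [mul_assoc]⟩

theorem R_approx {h x : M} (hx : ∀ ε > 0, ∃ y ∈ R h, ‖x - y‖ ≤ ε) : x ∈ R h := by
  have hcl : IsClosed (R h : Set M) := Submodule.isClosed_topologicalClosure _
  have : x ∈ closure (R h : Set M) := by
    rw [Metric.mem_closure_iff]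
    intro ε hε
    obtain ⟨y, hy, hxy⟩ := hx (ε / 2) (by positivity)
    exact ⟨y, hy, by rw [dist_eq_norm]; linarith⟩
  rwa [hcl.closure_eq] at this

theorem R_smulR {h x : M} (hx : x ∈ R h) (r : ℝ) : r • x ∈ R h := by
  rw [← Complex.coe_smul]
  exact (R h).smul_mem _ hx

theorem R_le (hA : IsCI A) {h : M} (hh : h ∈ A) : R h ≤ A := by
  refine Submodule.topologicalClosure_minimal _ ?_ hA.closed
  rintro _ ⟨z, rfl⟩
  exact hA.right _ _ hh

/-- the positive part stays in the right ideal -/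
theorem pc_mem_R {h x : M} (hx : IsSelfAdjoint x) (hxR : x ∈ R h) : pc 0 x ∈ R h := by
  refine R_approx fun κ hκ => ?_
  set g : ℝ → ℝ := fun t => max t 0 * (max t 0 + κ)⁻¹ with hg
  have hgc : Continuous g := Continuous.mul (by fun_prop) (cont_aux hκ)
  refine ⟨x * cfc g x, R_mul hxR _, ?_⟩
  rw [← cfc_id_mul hgc hx, pc, ← cfc_sub (fun t : ℝ => max (t - 0) 0) (fun t : ℝ => t * g t) x
    (by fun_prop) (continuous_id.mul hgc).continuousOn]
  refine norm_cfc_le hκ.le fun t _ => ?_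
  rw [Real.norm_eq_abs, hg]
  rcases le_total t 0 with h | h
  · simp only [sub_zero, max_eq_right h]
    simp [hκ.le]
  · simp only [sub_zero, max_eq_left h]
    have h1 : t - t * (t * (t + κ)⁻¹) = t * κ * (t + κ)⁻¹ := by
      have : t + κ ≠ 0 := by positivity
      field_simp
      ring
    rw [h1, abs_of_nonneg (by positivity), ← div_eq_mul_inv, div_le_iff₀ (by positivity)]
    nlinarith

theorem pc_neg {x : M} (hx : IsSelfAdjoint x) : pc 0 (-x) = cfc (fun t : ℝ => max (-t - 0) 0) x := by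
  rw [pc, ← cfc_comp_neg (fun t : ℝ => max (t - 0) 0) x]

theorem pc_mul_pc_neg {x : M} (hx : IsSelfAdjoint x) : pc 0 x * pc 0 (-x) = 0 := by
  rw [pc_neg hx, pc, ← cfc_mul (fun t : ℝ => max (t - 0) 0) (fun t : ℝ => max (-t - 0) 0) x
    (by fun_prop) (by fun_prop)]
  have h1 : (fun t : ℝ => max (t - 0) 0 * max (-t - 0) 0) = fun _ => 0 := by
    ext t
    rcases le_total t 0 with h | h
    · simp [h]
    · simp [h]
  rw [h1, cfc_const_zero]

theorem pc_sub_pc_neg {x : M} (hx : IsSelfAdjoint x) : pc 0 x - pc 0 (-x) = x := by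
  rw [pc_neg hx, pc, ← cfc_sub (fun t : ℝ => max (t - 0) 0) (fun t : ℝ => max (-t - 0) 0) x
    (by fun_prop) (by fun_prop)]
  conv_rhs => rw [← cfc_id' ℝ x hx]
  refine cfc_congr fun t _ => ?_
  rcases le_total t 0 with h | h
  · simp [h]
  · simp [h]

theorem inf_isCI {I J : Submodule ℂ M} (hI : IsCI I) (hJ : IsCI J) : IsCI (I ⊓ J) where
  closed := hI.closed.inter hJ.closed
  left := fun a x hx => ⟨hI.left a x hx.1, hJ.left a x hx.2⟩
  right := fun a x hx => ⟨hI.right a x hx.1, hJ.right a x hx.2⟩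

/-- orthogonal pairs of positive elements in the hereditary subalgebra of `h` -/
def Pr (h : M) : Type _ :=
  {p : M × M // 0 ≤ p.1 ∧ 0 ≤ p.2 ∧ p.1 ∈ R h ∧ p.2 ∈ R h ∧ p.1 * p.2 = 0}

instance (h : M) : Nonempty (Pr h) :=
  ⟨⟨(0, 0), le_rfl, le_rfl, (R h).zero_mem, (R h).zero_mem, mul_zero _⟩⟩

/-- the ideal of a pair -/
noncomputable def F {h : M} (p : Pr h) : Submodule ℂ M := gen p.1.1 ⊓ gen p.1.2

theorem F_isCI {h : M} (p : Pr h) : IsCI (F p) := inf_isCI (gen_isCI _) (gen_isCI _)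

theorem F_le (hA : IsCI A) {h : M} (hh : h ∈ A) (p : Pr h) : F p ≤ A :=
  inf_le_left.trans (gen_le hA (R_le hA hh p.2.2.2.1))

theorem F_dir (hA : IsCI A) (hTot : TotR A) {h : M} (hh : h ∈ A) :
    Directed (· ≤ ·) (F (h := h)) := by
  intro p q
  rcases hTot (F p) (F q) (F_isCI p) (F_isCI q) (F_le hA hh p) (F_le hA hh q) with h1 | h1
  · exact ⟨q, h1, le_rfl⟩
  · exact ⟨p, le_rfl, h1⟩

/-- the union of the ideals of all pairs -/
noncomputable def K0 (h : M) : Submodule ℂ M := ⨆ p : Pr h, F p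

theorem mem_K0 (hA : IsCI A) (hTot : TotR A) {h : M} (hh : h ∈ A) {x : M} :
    x ∈ K0 h ↔ ∃ p : Pr h, x ∈ F p :=
  Submodule.mem_iSup_of_directed _ (F_dir hA hTot hh)

/-- its closure -/
noncomputable def K (h : M) : Submodule ℂ M := (K0 h).topologicalClosure

theorem K_isCI (hA : IsCI A) (hTot : TotR A) {h : M} (hh : h ∈ A) : IsCI (K h) where
  closed := Submodule.isClosed_topologicalClosure _
  left := fun a x hx => by
    refine map_mem_closure (f := fun y : M => a * y) (by fun_prop) hx fun y hy => ?_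
    obtain ⟨p, hp⟩ := (mem_K0 hA hTot hh).1 hy
    exact (mem_K0 hA hTot hh).2 ⟨p, (F_isCI p).left a y hp⟩
  right := fun a x hx => by
    refine map_mem_closure (f := fun y : M => y * a) (by fun_prop) hx fun y hy => ?_
    obtain ⟨p, hp⟩ := (mem_K0 hA hTot hh).1 hy
    exact (mem_K0 hA hTot hh).2 ⟨p, (F_isCI p).right a y hp⟩

theorem F_le_K {h : M} (p : Pr h) : F p ≤ K h :=
  (le_iSup (F (h := h)) p).trans (Submodule.le_topologicalClosure _)

/-- the dichotomy -/
theorem dich (hA : IsCI A) (hTot : TotR A) {h : M} (hh : h ∈ A) {x : M} (hx : IsSelfAdjoint x)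
    (hxR : x ∈ R h) : pc 0 x ∈ K h ∨ pc 0 (-x) ∈ K h := by
  have hnR : pc 0 (-x) ∈ R h := pc_mem_R hx.neg ((R h).neg_mem hxR)
  have hpR : pc 0 x ∈ R h := pc_mem_R hx hxR
  let p : Pr h := ⟨(pc 0 x, pc 0 (-x)), pc_nonneg _ _, pc_nonneg _ _, hpR, hnR,
    pc_mul_pc_neg hx⟩
  have hpF : F p = gen (pc 0 x) ⊓ gen (pc 0 (-x)) := rfl
  rcases hTot (gen (pc 0 x)) (gen (pc 0 (-x))) (gen_isCI _) (gen_isCI _)
    (gen_le hA (R_le hA hh hpR)) (gen_le hA (R_le hA hh hnR)) with h1 | h1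
  · refine Or.inl (F_le_K p ?_)
    rw [hpF]
    exact ⟨mem_gen_self _, h1 (mem_gen_self _)⟩
  · refine Or.inr (F_le_K p ?_)
    rw [hpF]
    exact ⟨h1 (mem_gen_self _), mem_gen_self _⟩

theorem pc0_mem_of_approx {Q : Submodule ℂ M} (hQ : IsCI Q) {y : M} (hy : IsSelfAdjoint y)
    (h : ∀ ε > 0, ∃ y' : M, IsSelfAdjoint y' ∧ pc 0 y' ∈ Q ∧ ‖y - y'‖ ≤ ε) : pc 0 y ∈ Q := by
  refine hQ.of_approx fun ε hε => ?_
  obtain ⟨y', hy', hyQ, hn⟩ := h ε hε
  have h1 : pc ε y ∈ Q := by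
    refine pc_mem_of_le_add hQ hy hyQ ?_
    have h2 : y - y' ≤ algebraMap ℝ M ε :=
      ((hy.sub hy').le_algebraMap_norm_self).trans (algebraMap_mono M hn)
    have h3 := le_add_pc 0 hy'
    rw [map_zero, zero_add] at h3
    calc y = (y - y') + y' := by abel
      _ ≤ algebraMap ℝ M ε + pc 0 y' := add_le_add h2 h3
  refine ⟨pc ε y, h1, ?_⟩
  have h2 := pc_pc (le_refl (0 : ℝ)) hε.le hy
  rw [zero_add] at h2
  rw [← h2]
  exact norm_sub_pc_le hε.le (pc_nonneg _ _)

theorem isClosed_aux {Q : Submodule ℂ M} (hQ : IsCI Q) {c p : M} (hc : IsSelfAdjoint c)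
    (hp : IsSelfAdjoint p) : IsClosed {t : ℝ | pc 0 (c - t • p) ∈ Q} := by
  refine isClosed_of_closure_subset fun t ht => ?_
  have hsa : ∀ s : ℝ, IsSelfAdjoint (c - s • p) := fun s =>
    hc.sub ((IsSelfAdjoint.all s).smul hp)
  refine pc0_mem_of_approx hQ (hsa t) fun ε hε => ?_
  rw [Metric.mem_closure_iff] at ht
  obtain ⟨s, hs, hts⟩ := ht (ε / (‖p‖ + 1)) (by positivity)
  refine ⟨c - s • p, hsa s, hs, ?_⟩
  have h1 : c - t • p - (c - s • p) = (s - t) • p := by
    rw [sub_smul]; abel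
  rw [h1, norm_smul, Real.norm_eq_abs, abs_sub_comm]
  rw [Real.dist_eq, lt_div_iff₀ (by positivity)] at hts
  nlinarith [abs_nonneg (t - s), norm_nonneg p]

theorem pc_zero_mem_of_le {Q : Submodule ℂ M} (hQ : IsCI Q) {y : M} (hy : y ≤ 0)
    (hs : IsSelfAdjoint y) : pc 0 y ∈ Q :=
  pc_mem_of_le_add hQ hs Q.zero_mem (by rwa [map_zero, add_zero])

/-- compressions by `h` are scalar multiples of `h²` modulo `K` -/
theorem scal_sa (hA : IsCI A) (hTot : TotR A) {h : M} (hh : 0 ≤ h) (hhA : h ∈ A) {y : M}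
    (hy : IsSelfAdjoint y) : ∃ t : ℝ, h * y * h - t • (h * h) ∈ K h := by
  have hK := K_isCI hA hTot hhA
  have hhs : star h = h := (IsSelfAdjoint.of_nonneg hh).star_eq
  have hc : IsSelfAdjoint (h * y * h) := by
    rw [IsSelfAdjoint]
    simp only [star_mul, hhs, hy.star_eq, mul_assoc]
  have hp : IsSelfAdjoint (h * h) := by
    rw [IsSelfAdjoint, star_mul, hhs]
  have hsa : ∀ s : ℝ, IsSelfAdjoint (h * y * h - s • (h * h)) := fun s =>
    hc.sub ((IsSelfAdjoint.all s).smul hp)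
  set U : Set ℝ := {t : ℝ | pc 0 (h * y * h - t • (h * h)) ∈ K h} with hU
  set L : Set ℝ := {t : ℝ | pc 0 (-(h * y * h) - t • (-(h * h))) ∈ K h} with hL
  have hUc : IsClosed U := isClosed_aux hK hc hp
  have hLc : IsClosed L := isClosed_aux hK hc.neg hp.neg
  have hneg : ∀ t : ℝ, -(h * y * h) - t • (-(h * h)) = -(h * y * h - t • (h * h)) := by
    intro t; rw [smul_neg]; abel
  have hcov : (Set.univ : Set ℝ) ⊆ U ∪ L := by
    intro t _
    have hR : h * y * h - t • (h * h) ∈ R h := by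
      refine (R h).sub_mem ?_ (R_smulR (mul_mem_R h h) t)
      rw [mul_assoc]; exact mul_mem_R h _
    rcases dich hA hTot hhA (hsa t) hR with h1 | h1
    · exact Or.inl h1
    · refine Or.inr ?_
      show pc 0 (-(h * y * h) - t • (-(h * h))) ∈ K h
      rwa [hneg]
  have hconj : ∀ z : M, z ≤ 0 → h * z * h ≤ 0 := by
    intro z hz
    have := star_left_conjugate_le_conjugate hz h
    rwa [hhs, mul_zero, zero_mul] at this
  have hUn : (Set.univ ∩ U).Nonempty := by
    refine ⟨‖y‖, trivial, pc_zero_mem_of_le hK ?_ (hsa _)⟩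
    have h1 : y - algebraMap ℝ M ‖y‖ ≤ 0 := sub_nonpos.2 hy.le_algebraMap_norm_self
    have h2 := hconj _ h1
    rwa [mul_sub, sub_mul, Algebra.algebraMap_eq_smul_one, mul_smul_comm, mul_one,
      smul_mul_assoc] at h2
  have hLn : (Set.univ ∩ L).Nonempty := by
    refine ⟨-‖y‖, trivial, ?_⟩
    show pc 0 (-(h * y * h) - (-‖y‖) • (-(h * h))) ∈ K h
    rw [hneg]
    refine pc_zero_mem_of_le hK ?_ (hsa _).neg
    have h1 : -y - algebraMap ℝ M ‖y‖ ≤ 0 := by
      rw [sub_nonpos]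
      have := hy.neg.le_algebraMap_norm_self
      rwa [norm_neg] at this
    have h2 := hconj _ h1
    rw [mul_sub, sub_mul, Algebra.algebraMap_eq_smul_one, mul_smul_comm, mul_one,
      smul_mul_assoc, mul_neg, neg_mul] at h2
    rw [neg_smul, neg_sub]
    calc -(‖y‖ • (h * h)) - h * y * h = -(h * y * h) - ‖y‖ • (h * h) := by abel
      _ ≤ 0 := h2
  obtain ⟨t, _, ht1, ht2⟩ := isPreconnected_closed_iff.1 isPreconnected_univ U L hUc hLc hcov
    hUn hLn
  refine ⟨t, ?_⟩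
  have ht2' : pc 0 (-(h * y * h) - t • (-(h * h))) ∈ K h := ht2
  rw [hneg] at ht2'
  rw [← pc_sub_pc_neg (hsa t)]
  exact (K h).sub_mem ht1 ht2'

theorem scal (hA : IsCI A) (hTot : TotR A) {h : M} (hh : 0 ≤ h) (hhA : h ∈ A) (y : M) :
    ∃ z : ℂ, h * y * h - z • (h * h) ∈ K h := by
  obtain ⟨s, hs⟩ := scal_sa hA hTot hh hhA (realPart y).2
  obtain ⟨t, ht⟩ := scal_sa hA hTot hh hhA (imaginaryPart y).2
  refine ⟨(s : ℂ) + Complex.I * t, ?_⟩
  have h1 : h * y * h - ((s : ℂ) + Complex.I * t) • (h * h) =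
      (h * (realPart y : M) * h - s • (h * h)) +
        Complex.I • (h * (imaginaryPart y : M) * h - t • (h * h)) := by
    conv_lhs => rw [← realPart_add_I_smul_imaginaryPart y]
    rw [add_smul, mul_smul, Complex.coe_smul, Complex.coe_smul]
    simp only [mul_add, add_mul, mul_smul_comm, smul_mul_assoc, smul_sub]
    abel
  rw [h1]
  exact (K h).add_mem hs ((K h).smul_mem _ ht)

theorem exists_ker {n : ℕ} (hn : 1 ≤ n) (z : Fin n → Fin (2 * n) → ℂ) :
    ∃ v : Fin (2 * n) → ℂ, ∃ i₀, v i₀ = 1 ∧ (∀ i, ‖v i‖ ≤ 1) ∧ ∀ k, ∑ j, z k j * v j = 0 := by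
  have h1 : LinearMap.ker (Matrix.mulVecLin (Matrix.of z)) ≠ ⊥ := by
    refine LinearMap.ker_ne_bot_of_finrank_lt ?_
    rw [Module.finrank_fin_fun, Module.finrank_fin_fun]
    omega
  obtain ⟨v, hv, hv0⟩ := Submodule.exists_mem_ne_zero_of_ne_bot h1
  have hne : Nonempty (Fin (2 * n)) := ⟨⟨0, by omega⟩⟩
  obtain ⟨i₀, hi₀⟩ := Finite.exists_max (fun i => ‖v i‖)
  have hvi : v i₀ ≠ 0 := by
    intro h0
    refine hv0 (funext fun i => ?_)
    have := hi₀ i
    rw [h0, norm_zero] at this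
    exact norm_le_zero_iff.1 this
  refine ⟨fun i => v i / v i₀, i₀, div_self hvi, fun i => ?_, fun k => ?_⟩
  · rw [norm_div, div_le_one (norm_pos_iff.2 hvi)]
    exact hi₀ i
  · have h2 : ∑ j, z k j * v j = 0 := by
      have := congrFun (LinearMap.mem_ker.1 hv) k
      simpa [Matrix.mulVec, dotProduct] using this
    calc ∑ j, z k j * (v j / v i₀) = (∑ j, z k j * v j) / v i₀ := by
          rw [Finset.sum_div]
          exact Finset.sum_congr rfl fun j _ => by rw [mul_div_assoc]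
      _ = 0 := by rw [h2, zero_div]

theorem mem_K (hA : IsCI A) {n : ℕ} (hn : 1 ≤ n)
    (hW : ∀ h ∈ A, 0 ≤ h → ∀ ε > 0, ∃ X : Fin n → Fin (2 * n) → M, (∀ i j, X i j ∈ A) ∧
      ∀ j k, ‖∑ i, star (X i j) * h * X i k - (if j = k then h else 0)‖ < ε)
    (hTot : TotR A) {h : M} (hh : 0 ≤ h) (hhA : h ∈ A) : h ∈ K h := by
  have hK := K_isCI hA hTot hhA
  have hhs : star h = h := (IsSelfAdjoint.of_nonneg hh).star_eq
  refine mem_of_pow_mem hK hh (m := 4) (by norm_num) (hK.of_approx fun ε hε => ?_)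
  have hh2 : 0 ≤ h * h := by
    have := star_mul_self_nonneg h
    rwa [hhs] at this
  obtain ⟨X, -, hX⟩ := hW (h * h) (hA.right _ _ hhA) hh2 (ε / (2 * n * (‖h‖ + 1) ^ 2))
    (by have : (0 : ℝ) < n := by exact_mod_cast hn
        positivity)
  have hz : ∀ k j, ∃ z : ℂ, h * X k j * h - z • (h * h) ∈ K h := fun k j =>
    scal hA hTot hh hhA (X k j)
  choose z hz using hz
  obtain ⟨v, i₀, hv0, hv1, hv⟩ := exists_ker hn z
  -- the vectors in the ideal
  have hm : ∀ k, ∑ j, v j • (h * X k j * h) ∈ K h := by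
    intro k
    have h1 : ∑ j, v j • (h * X k j * h - z k j • (h * h)) ∈ K h :=
      Submodule.sum_mem _ fun j _ => (K h).smul_mem _ (hz k j)
    have h2 : ∑ j, v j • (h * X k j * h - z k j • (h * h)) = ∑ j, v j • (h * X k j * h) := by
      simp only [smul_sub, Finset.sum_sub_distrib, smul_smul]
      rw [← Finset.sum_smul]
      have : ∑ j, v j * z k j = 0 := by
        rw [← hv k]
        exact Finset.sum_congr rfl fun j _ => mul_comm _ _
      rw [this, zero_smul, sub_zero]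
    rwa [h2] at h1
  refine ⟨∑ k, (h * star (X k i₀) * h) * ∑ j, v j • (h * X k j * h),
    Submodule.sum_mem _ fun k _ => hK.left _ _ (hm k), ?_⟩
  have e1 : ∑ k, (h * star (X k i₀) * h) * ∑ j, v j • (h * X k j * h) =
      ∑ j, v j • (h * (∑ k, star (X k i₀) * (h * h) * X k j) * h) := by
    simp only [Finset.mul_sum, Finset.sum_mul, Finset.smul_sum]
    rw [Finset.sum_comm]
    refine Finset.sum_congr rfl fun j _ => Finset.sum_congr rfl fun k _ => ?_
    rw [mul_smul_comm]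
    simp only [mul_assoc]
  have e2 : h ^ 4 = ∑ j, v j • (h * (if i₀ = j then h * h else 0) * h) := by
    rw [Finset.sum_eq_single i₀]
    · rw [hv0, one_smul, if_pos rfl]
      noncomm_ring
    · intro j _ hj
      rw [if_neg (Ne.symm hj), mul_zero, zero_mul, smul_zero]
    · intro hj; exact absurd (Finset.mem_univ _) hj
  rw [e1, e2, ← Finset.sum_sub_distrib]
  have hn0 : (0 : ℝ) < n := by exact_mod_cast hn
  calc ‖∑ j, (v j • (h * (if i₀ = j then h * h else 0) * h) -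
        v j • (h * (∑ k, star (X k i₀) * (h * h) * X k j) * h))‖
      ≤ ∑ j : Fin (2 * n), ε / (2 * n) := by
        refine norm_sum_le_of_le _ fun j _ => ?_
        have e3 : v j • (h * (if i₀ = j then h * h else 0) * h) -
            v j • (h * (∑ k, star (X k i₀) * (h * h) * X k j) * h) =
            -(v j • (h * (∑ k, star (X k i₀) * (h * h) * X k j -
              (if i₀ = j then h * h else 0)) * h)) := by
          rw [mul_sub, sub_mul, smul_sub]; abel
        rw [e3, norm_neg, norm_smul]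
        have h1 := hX i₀ j
        calc ‖v j‖ * ‖h * (∑ k, star (X k i₀) * (h * h) * X k j -
              (if i₀ = j then h * h else 0)) * h‖
            ≤ 1 * (‖h‖ * ‖∑ k, star (X k i₀) * (h * h) * X k j -
              (if i₀ = j then h * h else 0)‖ * ‖h‖) := by
              gcongr
              · exact hv1 j
              · refine (norm_mul_le _ _).trans ?_
                gcongr
                exact norm_mul_le _ _
          _ ≤ 1 * ((‖h‖ + 1) * (ε / (2 * n * (‖h‖ + 1) ^ 2)) * (‖h‖ + 1)) := by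
              have h2 : ‖h‖ ≤ ‖h‖ + 1 := by linarith
              gcongr
          _ = ε / (2 * n) := by field_simp
    _ = ε := by
        rw [Finset.sum_const, Finset.card_univ, Fintype.card_fin, nsmul_eq_mul]
        push_cast
        field_simp

end SplitB

open SplitB in
/-- B1. -/
theorem split_raw {M : Type*} [CStarAlgebra M] [PartialOrder M] [StarOrderedRing M]
    {A : Submodule ℂ M} (hA : IsCI A) {n : ℕ} (hn : 1 ≤ n)
    (hW : ∀ h ∈ A, 0 ≤ h → ∀ ε > 0, ∃ X : Fin n → Fin (2 * n) → M, (∀ i j, X i j ∈ A) ∧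
      ∀ j k, ‖∑ i, star (X i j) * h * X i k - (if j = k then h else 0)‖ < ε)
    (hTot : TotR A) {h : M} (hh : 0 ≤ h) (hhA : h ∈ A) {ε : ℝ} (hε : 0 < ε) :
    ∃ a b : M, (0 ≤ a ∧ 0 ≤ b ∧ a ∈ (LinearMap.range (LinearMap.mulLeft ℂ h)).topologicalClosure ∧
      b ∈ (LinearMap.range (LinearMap.mulLeft ℂ h)).topologicalClosure ∧ a * b = 0) ∧
      pc ε h ∈ gen a ∧ pc ε h ∈ gen b := by
  have h1 : h ∈ closure (K0 h : Set M) := mem_K hA hn hW hTot hh hhA
  rw [Metric.mem_closure_iff] at h1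
  obtain ⟨q, hq, hqn⟩ := h1 ε hε
  obtain ⟨p, hp⟩ := (mem_K0 hA hTot hhA).1 hq
  have h2 : pc ε h ∈ F p := by
    refine pc_mem_of_norm_sub_le (F_isCI p) (IsSelfAdjoint.of_nonneg hh) hp ?_
    rw [← dist_eq_norm]
    exact hqn.le
  exact ⟨p.1.1, p.1.2, p.2, h2.1, h2.2⟩

/-- B1, the splitting lemma. -/
theorem split {M : Type*} [CStarAlgebra M] [PartialOrder M] [StarOrderedRing M]
    {A : Submodule ℂ M} {n : ℕ} (hA : IsCI A) (hW : WPIr A n) (hn : 1 ≤ n) (hTot : TotR A) {h : M}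
    (hh : 0 ≤ h) (hhA : h ∈ A) {eps : ℝ} (heps : 0 < eps) :
    ∃ a b, OP h a b ∧ pc eps h ∈ gen a ∧ pc eps h ∈ gen b :=
  split_raw hA hn hW hTot hh hhA heps

end Vale.Agent.P133o
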