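import Vale.Agent.P133o.Split

/-!
# P133, part (b), row S1: the splitting lemma for a single ideal
-/

set_option linter.unusedSectionVars false

namespace Vale.Agent.P133o

namespace SplitB

variable {M : Type*} [CStarAlgebra M] [PartialOrder M] [StarOrderedRing M]
variable {A : Submodule ℂ M}

/-- compressions by `h` are scalar multiples of `h²` modulo `K` -/
theorem scal_sa' {K : Submodule ℂ M} (hK : IsCI K) {h : M}
    (hd : ∀ x : M, IsSelfAdjoint x → x ∈ SplitB.R h → pc 0 x ∈ K ∨ pc 0 (-x) ∈ K)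
    (hh : 0 ≤ h) {y : M}
    (hy : IsSelfAdjoint y) : ∃ t : ℝ, h * y * h - t • (h * h) ∈ K := by
  have hhs : star h = h := (IsSelfAdjoint.of_nonneg hh).star_eq
  have hc : IsSelfAdjoint (h * y * h) := by
    rw [IsSelfAdjoint]
    simp only [star_mul, hhs, hy.star_eq, mul_assoc]
  have hp : IsSelfAdjoint (h * h) := by
    rw [IsSelfAdjoint, star_mul, hhs]
  have hsa : ∀ s : ℝ, IsSelfAdjoint (h * y * h - s • (h * h)) := fun s =>
    hc.sub ((IsSelfAdjoint.all s).smul hp)
  set U : Set ℝ := {t : ℝ | pc 0 (h * y * h - t • (h * h)) ∈ K} with hU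
  set L : Set ℝ := {t : ℝ | pc 0 (-(h * y * h) - t • (-(h * h))) ∈ K} with hL
  have hUc : IsClosed U := isClosed_aux hK hc hp
  have hLc : IsClosed L := isClosed_aux hK hc.neg hp.neg
  have hneg : ∀ t : ℝ, -(h * y * h) - t • (-(h * h)) = -(h * y * h - t • (h * h)) := by
    intro t; rw [smul_neg]; abel
  have hcov : (Set.univ : Set ℝ) ⊆ U ∪ L := by
    intro t _
    have hR : h * y * h - t • (h * h) ∈ R h := by
      refine (R h).sub_mem ?_ (R_smulR (mul_mem_R h h) t)
      rw [mul_assoc]; exact mul_mem_R h _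
    rcases hd _ (hsa t) hR with h1 | h1
    · exact Or.inl h1
    · refine Or.inr ?_
      show pc 0 (-(h * y * h) - t • (-(h * h))) ∈ K
      rwa [hneg]
  have hconj : ∀ z : M, z ≤ 0 → h * z * h ≤ 0 := by
    intro z hz
    have := star_left_conjugate_le_conjugate hz h
    rwa [hhs, mul_zero, zero_mul] at this
  have hUn : (Set.univ ∩ U).Nonempty := by
    refine ⟨‖y‖, trivial, pc_zero_mem_of_le hK ?_ (hsa _)⟩
    have h1 : y - algebraMap ℝ M ‖y‖ ≤ 0 := sub_nonpos.2 hy.le_algebraMap_norm_self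
    have h2 := hconj _ h1
    rwa [mul_sub, sub_mul, Algebra.algebraMap_eq_smul_one, mul_smul_comm, mul_one,
      smul_mul_assoc] at h2
  have hLn : (Set.univ ∩ L).Nonempty := by
    refine ⟨-‖y‖, trivial, ?_⟩
    show pc 0 (-(h * y * h) - (-‖y‖) • (-(h * h))) ∈ K
    rw [hneg]
    refine pc_zero_mem_of_le hK ?_ (hsa _).neg
    have h1 : -y - algebraMap ℝ M ‖y‖ ≤ 0 := by
      rw [sub_nonpos]
      have := hy.neg.le_algebraMap_norm_self
      rwa [norm_neg] at this
    have h2 := hconj _ h1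
    rw [mul_sub, sub_mul, Algebra.algebraMap_eq_smul_one, mul_smul_comm, mul_one,
      smul_mul_assoc, mul_neg, neg_mul] at h2
    rw [neg_smul, neg_sub]
    calc -(‖y‖ • (h * h)) - h * y * h = -(h * y * h) - ‖y‖ • (h * h) := by abel
      _ ≤ 0 := h2
  obtain ⟨t, _, ht1, ht2⟩ := isPreconnected_closed_iff.1 isPreconnected_univ U L hUc hLc hcov
    hUn hLn
  refine ⟨t, ?_⟩
  have ht2' : pc 0 (-(h * y * h) - t • (-(h * h))) ∈ K := ht2
  rw [hneg] at ht2'
  rw [← pc_sub_pc_neg (hsa t)]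
  exact (K).sub_mem ht1 ht2'

theorem scal' {K : Submodule ℂ M} (hK : IsCI K) {h : M}
    (hd : ∀ x : M, IsSelfAdjoint x → x ∈ SplitB.R h → pc 0 x ∈ K ∨ pc 0 (-x) ∈ K)
    (hh : 0 ≤ h) (y : M) :
    ∃ z : ℂ, h * y * h - z • (h * h) ∈ K := by
  obtain ⟨s, hs⟩ := scal_sa' hK hd hh (realPart y).2
  obtain ⟨t, ht⟩ := scal_sa' hK hd hh (imaginaryPart y).2
  refine ⟨(s : ℂ) + Complex.I * t, ?_⟩
  have h1 : h * y * h - ((s : ℂ) + Complex.I * t) • (h * h) =
      (h * (realPart y : M) * h - s • (h * h)) +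
        Complex.I • (h * (imaginaryPart y : M) * h - t • (h * h)) := by
    conv_lhs => rw [← realPart_add_I_smul_imaginaryPart y]
    rw [add_smul, mul_smul, Complex.coe_smul, Complex.coe_smul]
    simp only [mul_add, add_mul, mul_smul_comm, smul_mul_assoc, smul_sub]
    abel
  rw [h1]
  exact (K).add_mem hs ((K).smul_mem _ ht)

theorem mem_of_dich (hA : IsCI A) {n : ℕ} (hn : 1 ≤ n)
    (hW : ∀ h ∈ A, 0 ≤ h → ∀ ε > 0, ∃ X : Fin n → Fin (2 * n) → M, (∀ i j, X i j ∈ A) ∧
      ∀ j k, ‖∑ i, star (X i j) * h * X i k - (if j = k then h else 0)‖ < ε)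
    {K : Submodule ℂ M} (hK : IsCI K) {h : M}
    (hd : ∀ x : M, IsSelfAdjoint x → x ∈ SplitB.R h → pc 0 x ∈ K ∨ pc 0 (-x) ∈ K)
    (hh : 0 ≤ h) (hhA : h ∈ A) : h ∈ K := by
  have hhs : star h = h := (IsSelfAdjoint.of_nonneg hh).star_eq
  refine mem_of_pow_mem hK hh (m := 4) (by norm_num) (hK.of_approx fun ε hε => ?_)
  have hh2 : 0 ≤ h * h := by
    have := star_mul_self_nonneg h
    rwa [hhs] at this
  obtain ⟨X, -, hX⟩ := hW (h * h) (hA.right _ _ hhA) hh2 (ε / (2 * n * (‖h‖ + 1) ^ 2))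
    (by have : (0 : ℝ) < n := by exact_mod_cast hn
        positivity)
  have hz : ∀ k j, ∃ z : ℂ, h * X k j * h - z • (h * h) ∈ K := fun k j =>
    scal' hK hd hh (X k j)
  choose z hz using hz
  obtain ⟨v, i₀, hv0, hv1, hv⟩ := exists_ker hn z
  -- the vectors in the ideal
  have hm : ∀ k, ∑ j, v j • (h * X k j * h) ∈ K := by
    intro k
    have h1 : ∑ j, v j • (h * X k j * h - z k j • (h * h)) ∈ K :=
      Submodule.sum_mem _ fun j _ => (K).smul_mem _ (hz k j)
    have h2 : ∑ j, v j • (h * X k j * h - z k j • (h * h)) = ∑ j, v j • (h * X k j * h) := by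
      simp only [smul_sub, Finset.sum_sub_distrib, smul_smul]
      rw [← Finset.sum_smul]
      have : ∑ j, v j * z k j = 0 := by
        rw [← hv k]
        exact Finset.sum_congr rfl fun j _ => mul_comm _ _
      rw [this, zero_smul, sub_zero]
    rwa [h2] at h1
  refine ⟨∑ k, (h * star (X k i₀) * h) * ∑ j, v j • (h * X k j * h),
    Submodule.sum_mem _ fun k _ => hK.left _ _ (hm k), ?_⟩
  have e1 : ∑ k, (h * star (X k i₀) * h) * ∑ j, v j • (h * X k j * h) =
      ∑ j, v j • (h * (∑ k, star (X k i₀) * (h * h) * X k j) * h) := by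
    simp only [Finset.mul_sum, Finset.sum_mul, Finset.smul_sum]
    rw [Finset.sum_comm]
    refine Finset.sum_congr rfl fun j _ => Finset.sum_congr rfl fun k _ => ?_
    rw [mul_smul_comm]
    simp only [mul_assoc]
  have e2 : h ^ 4 = ∑ j, v j • (h * (if i₀ = j then h * h else 0) * h) := by
    rw [Finset.sum_eq_single i₀]
    · rw [hv0, one_smul, if_pos rfl]
      noncomm_ring
    · intro j _ hj
      rw [if_neg (Ne.symm hj), mul_zero, zero_mul, smul_zero]
    · intro hj; exact absurd (Finset.mem_univ _) hj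
  rw [e1, e2, ← Finset.sum_sub_distrib]
  have hn0 : (0 : ℝ) < n := by exact_mod_cast hn
  calc ‖∑ j, (v j • (h * (if i₀ = j then h * h else 0) * h) -
        v j • (h * (∑ k, star (X k i₀) * (h * h) * X k j) * h))‖
      ≤ ∑ j : Fin (2 * n), ε / (2 * n) := by
        refine norm_sum_le_of_le _ fun j _ => ?_
        have e3 : v j • (h * (if i₀ = j then h * h else 0) * h) -
            v j • (h * (∑ k, star (X k i₀) * (h * h) * X k j) * h) =
            -(v j • (h * (∑ k, star (X k i₀) * (h * h) * X k j -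
              (if i₀ = j then h * h else 0)) * h)) := by
          rw [mul_sub, sub_mul, smul_sub]; abel
        rw [e3, norm_neg, norm_smul]
        have h1 := hX i₀ j
        calc ‖v j‖ * ‖h * (∑ k, star (X k i₀) * (h * h) * X k j -
              (if i₀ = j then h * h else 0)) * h‖
            ≤ 1 * (‖h‖ * ‖∑ k, star (X k i₀) * (h * h) * X k j -
              (if i₀ = j then h * h else 0)‖ * ‖h‖) := by
              gcongr
              · exact hv1 j
              · refine (norm_mul_le _ _).trans ?_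
                gcongr
                exact norm_mul_le _ _
          _ ≤ 1 * ((‖h‖ + 1) * (ε / (2 * n * (‖h‖ + 1) ^ 2)) * (‖h‖ + 1)) := by
              have h2 : ‖h‖ ≤ ‖h‖ + 1 := by linarith
              gcongr
          _ = ε / (2 * n) := by field_simp
    _ = ε := by
        rw [Finset.sum_const, Finset.card_univ, Fintype.card_fin, nsmul_eq_mul]
        push_cast
        field_simp

end SplitB

open SplitB in
/-- S1: an element outside the closed ideal `K` dominates two orthogonal elements outside `K`. -/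
theorem split_one {M : Type*} [CStarAlgebra M] [PartialOrder M] [StarOrderedRing M]
    {A : Submodule ℂ M} {n : ℕ} (hA : IsCI A) (hW : WPIr A n) (hn : 1 ≤ n)
    {K : Submodule ℂ M} (hK : IsCI K) {h : M} (hh : 0 ≤ h) (hhA : h ∈ A) (hhK : h ∉ K) :
    ∃ a b, OP h a b ∧ a ∉ K ∧ b ∉ K := by
  by_contra hcon
  refine hhK (mem_of_dich hA hn hW hK (fun x hx hxR => ?_) hh hhA)
  by_contra hor
  rw [not_or] at hor
  exact hcon ⟨pc 0 x, pc 0 (-x), ⟨pc_nonneg _ _, pc_nonneg _ _, pc_mem_R hx hxR,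
    pc_mem_R hx.neg ((R h).neg_mem hxR), pc_mul_pc_neg hx⟩, hor.1, hor.2⟩

end Vale.Agent.P133o
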