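import Vale.Agent.P133o.Cmp

/-!
# P133: finite test sets of prime ideals
-/

set_option linter.unusedSectionVars false
set_option linter.unusedVariables false

namespace Vale.Agent.P133o

variable {M : Type*} [CStarAlgebra M] [PartialOrder M] [StarOrderedRing M]
variable {Q A : Submodule ℂ M}

/-- closed ideals inside `A` at distance at least `ε` from `h` -/
def Adm (A : Submodule ℂ M) (h : M) (ε : ℝ) (I : Submodule ℂ M) : Prop :=
  IsCI I ∧ I ≤ A ∧ ∀ a ∈ I, ε ≤ ‖h - a‖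

theorem Adm.exists_max (hA : IsCI A) {h : M} {ε : ℝ} {I : Submodule ℂ M} (hI : Adm A h ε I) :
    ∃ J, I ≤ J ∧ Maximal (Adm A h ε) J := by
  refine zorn_le_nonempty₀ {I | Adm A h ε I} ?_ I hI
  intro c hc hch y hy
  have hdir : DirectedOn (· ≤ ·) c := hch.directedOn
  have hmem : ∀ x, x ∈ sSup c ↔ ∃ y ∈ c, x ∈ y := fun x =>
    Submodule.mem_sSup_of_directed ⟨y, hy⟩ hdir
  refine ⟨(sSup c).topologicalClosure, ⟨⟨Submodule.isClosed_topologicalClosure _, ?_, ?_⟩, ?_, ?_⟩,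
    fun z hz => (le_sSup hz).trans (Submodule.le_topologicalClosure _)⟩
  · intro a x hx
    refine map_mem_closure (f := fun y : M => a * y) (by fun_prop) hx fun y hy => ?_
    obtain ⟨I', hI', hy'⟩ := (hmem y).1 hy
    exact (hmem _).2 ⟨I', hI', (hc hI').1.left _ _ hy'⟩
  · intro a x hx
    refine map_mem_closure (f := fun y : M => y * a) (by fun_prop) hx fun y hy => ?_
    obtain ⟨I', hI', hy'⟩ := (hmem y).1 hy
    exact (hmem _).2 ⟨I', hI', (hc hI').1.right _ _ hy'⟩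
  · exact Submodule.topologicalClosure_minimal _ (sSup_le fun I' hI' => (hc hI').2.1) hA.closed
  · intro a ha
    refine le_of_forall_pos_le_add fun δ hδ => ?_
    have ha' : a ∈ closure ((sSup c : Submodule ℂ M) : Set M) := ha
    rw [Metric.mem_closure_iff] at ha'
    obtain ⟨b, hb, hab⟩ := ha' δ hδ
    obtain ⟨I', hI', hb'⟩ := (hmem b).1 hb
    have h1 := (hc hI').2.2 b hb'
    have h2 : h - b = (h - a) + (a - b) := by abel
    have h3 := norm_add_le (h - a) (a - b)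
    rw [← h2] at h3
    rw [dist_eq_norm] at hab
    linarith

/-- `{m | b c m ∈ J for all c}` -/
def QL (J : Submodule ℂ M) (b : M) : Submodule ℂ M where
  carrier := {m | ∀ c, b * c * m ∈ J}
  add_mem' := by
    intro x y hx hy c
    rw [mul_add]; exact J.add_mem (hx c) (hy c)
  zero_mem' := by intro c; simp
  smul_mem' := by
    intro r x hx c
    rw [mul_smul_comm]; exact J.smul_mem _ (hx c)

/-- `{m | m c b ∈ J for all c}` -/
def QR (J : Submodule ℂ M) (b : M) : Submodule ℂ M where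
  carrier := {m | ∀ c, m * c * b ∈ J}
  add_mem' := by
    intro x y hx hy c
    rw [add_mul, add_mul]; exact J.add_mem (hx c) (hy c)
  zero_mem' := by intro c; simp
  smul_mem' := by
    intro r x hx c
    rw [smul_mul_assoc, smul_mul_assoc]; exact J.smul_mem _ (hx c)

theorem QL_isCI {J : Submodule ℂ M} (hJ : IsCI J) (b : M) : IsCI (QL J b) where
  closed := by
    have : (QL J b : Set M) = ⋂ c, (fun m => b * c * m) ⁻¹' (J : Set M) := by
      ext m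
      simp only [Set.mem_iInter, Set.mem_preimage, SetLike.mem_coe]
      rfl
    rw [this]
    exact isClosed_iInter fun c => hJ.closed.preimage (by fun_prop)
  left := by
    intro a x hx c
    have : b * c * (a * x) = b * (c * a) * x := by noncomm_ring
    rw [this]; exact hx _
  right := by
    intro a x hx c
    have : b * c * (x * a) = b * c * x * a := by noncomm_ring
    rw [this]; exact hJ.right _ _ (hx _)

theorem QR_isCI {J : Submodule ℂ M} (hJ : IsCI J) (b : M) : IsCI (QR J b) where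
  closed := by
    have : (QR J b : Set M) = ⋂ c, (fun m => m * c * b) ⁻¹' (J : Set M) := by
      ext m
      simp only [Set.mem_iInter, Set.mem_preimage, SetLike.mem_coe]
      rfl
    rw [this]
    exact isClosed_iInter fun c => hJ.closed.preimage (by fun_prop)
  left := by
    intro a x hx c
    have : a * x * c * b = a * (x * c * b) := by noncomm_ring
    rw [this]; exact hJ.left _ _ (hx _)
  right := by
    intro a x hx c
    have : x * a * c * b = x * (a * c) * b := by noncomm_ring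
    rw [this]; exact hx _

theorem inf_isCI {I J : Submodule ℂ M} (hI : IsCI I) (hJ : IsCI J) : IsCI (I ⊓ J) where
  closed := hI.closed.inter hJ.closed
  left := fun a x hx => ⟨hI.left a x hx.1, hJ.left a x hx.2⟩
  right := fun a x hx => ⟨hI.right a x hx.1, hJ.right a x hx.2⟩

theorem Adm.above (hA : IsCI A) {h : M} (hh : 0 ≤ h) {ε : ℝ} {J : Submodule ℂ M}
    (hJ : Maximal (Adm A h ε) J) (hQ : IsCI Q) (hJQ : J ≤ Q) {b : M} (hbQ : b ∈ Q) (hbA : b ∈ A)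
    (hbJ : b ∉ J) : ∃ ε', 0 ≤ ε' ∧ ε' < ε ∧ pc ε' h ∈ Q := by
  have h1 : ¬ Adm A h ε (Q ⊓ A) := by
    intro h2
    exact hbJ (hJ.2 h2 (le_inf hJQ hJ.1.2.1) ⟨hbQ, hbA⟩)
  have h2 : ∃ a ∈ Q ⊓ A, ‖h - a‖ < ε := by
    by_contra hcon
    push Not at hcon
    exact h1 ⟨inf_isCI hQ hA, inf_le_right, hcon⟩
  obtain ⟨a, ha, hlt⟩ := h2
  exact ⟨‖h - a‖, norm_nonneg _, hlt,
    pc_mem_of_norm_sub_le hQ (IsSelfAdjoint.of_nonneg hh) ha.1 le_rfl⟩

/-- relative primeness -/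
def PrimeIn (A J : Submodule ℂ M) : Prop :=
  ∀ a ∈ A, ∀ b ∈ A, a ∉ J → b ∉ J → ∃ c, b * c * a ∉ J

theorem pc_mem_mono (hQ : IsCI Q) {h : M} (hh : 0 ≤ h) {c d : ℝ} (hc : 0 ≤ c) (hcd : c ≤ d)
    (hm : pc c h ∈ Q) : pc d h ∈ Q := by
  have h1 := pc_mem hQ (c := d - c) (by linarith) hm
  rw [pc_pc hc (by linarith) (IsSelfAdjoint.of_nonneg hh)] at h1
  have : c + (d - c) = d := by ring
  rwa [this] at h1

theorem Adm.prime (hA : IsCI A) {h : M} (hh : 0 ≤ h) {ε : ℝ} {J : Submodule ℂ M}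
    (hJ : Maximal (Adm A h ε) J) : PrimeIn A J := by
  intro a haA b hbA haJ hbJ
  by_contra hcon
  push Not at hcon
  have hJc : IsCI J := hJ.1.1
  obtain ⟨ε₁, hε₁, hlt₁, hp⟩ := Adm.above hA hh hJ (QL_isCI hJc b)
    (fun m hm c => hJc.left _ _ hm) (b := a) hcon haA haJ
  obtain ⟨ε₂, hε₂, hlt₂, hq⟩ := Adm.above hA hh hJ (QR_isCI hJc (pc ε₁ h))
    (fun m hm c => hJc.right _ _ (hJc.right _ _ hm)) (b := b) (fun c => hp c) hbA hbJ
  have hq' : pc (max ε₁ ε₂) h ∈ QR J (pc ε₁ h) :=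
    pc_mem_mono (QR_isCI hJc _) hh hε₂ (le_max_right _ _) hq
  have hp' : pc ε₁ h ∈ QL J (pc (max ε₁ ε₂) h) := fun c => hq' c
  have hp'' : pc (max ε₁ ε₂) h ∈ QL J (pc (max ε₁ ε₂) h) :=
    pc_mem_mono (QL_isCI hJc _) hh hε₁ (le_max_left _ _) hp'
  have h1 := hp'' 1
  rw [mul_one, ← sq] at h1
  have h2 := mem_of_pow_mem hJc (pc_nonneg _ _) (m := 2) (by norm_num) h1
  have h3 := hJ.1.2.2 _ h2
  have h4 := norm_sub_pc_le (hε₁.trans (le_max_left ε₁ ε₂)) hh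
  have h5 : max ε₁ ε₂ < ε := max_lt hlt₁ hlt₂
  linarith

theorem exists_dist (hQ : IsCI Q) {h : M} (hh : h ∉ Q) : ∃ ρ > 0, ∀ a ∈ Q, ρ ≤ ‖h - a‖ := by
  by_contra hcon
  push Not at hcon
  refine hh (hQ.of_approx fun ε hε => ?_)
  obtain ⟨a, ha, hlt⟩ := hcon ε hε
  exact ⟨a, ha, hlt.le⟩

/-- the finiteness hypothesis, relative form -/
def FR (A : Submodule ℂ M) : Prop :=
  ∀ h ∈ A, 0 ≤ h → ∀ ε > 0, ∃ s : Set (Submodule ℂ M), s.Finite ∧
    (∀ N ∈ s, IsCI N ∧ N ≤ A ∧ h ∉ N) ∧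
    ∀ I, IsCI I → I ≤ A → (∀ a ∈ I, ε ≤ ‖h - a‖) → ∃ N ∈ s, I ≤ N

theorem FR.tests (hA : IsCI A) (hF : FR A) {h : M} (hhA : h ∈ A) (hh : 0 ≤ h) {ε : ℝ}
    (hε : 0 < ε) : ∃ s : Finset (Submodule ℂ M),
      (∀ J ∈ s, IsCI J ∧ J ≤ A ∧ h ∉ J ∧ PrimeIn A J) ∧
      ∀ L, IsCI L → L ≤ A → (∀ J ∈ s, ¬ L ≤ J) → pc ε h ∈ L := by
  classical
  obtain ⟨s, hs, hs1, hs2⟩ := hF h hhA hh ε hε
  have key : ∀ N ∈ s, ∃ J, N ≤ J ∧ IsCI J ∧ J ≤ A ∧ h ∉ J ∧ PrimeIn A J := by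
    intro N hN
    obtain ⟨hN1, hN2, hN3⟩ := hs1 N hN
    obtain ⟨ρ, hρ, hρ2⟩ := exists_dist hN1 hN3
    obtain ⟨J, hJ1, hJ2⟩ := Adm.exists_max hA (I := N) ⟨hN1, hN2, hρ2⟩
    refine ⟨J, hJ1, hJ2.1.1, hJ2.1.2.1, fun hhJ => ?_, Adm.prime hA hh hJ2⟩
    have := hJ2.1.2.2 h hhJ
    rw [sub_self, norm_zero] at this
    linarith
  choose! f hf using key
  refine ⟨hs.toFinset.image f, ?_, ?_⟩
  · intro J hJ
    obtain ⟨N, hN, rfl⟩ := Finset.mem_image.1 hJ
    exact (hf N (hs.mem_toFinset.1 hN)).2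
  · intro L hL hLA hLJ
    have h1 : ¬ ∀ a ∈ L, ε ≤ ‖h - a‖ := by
      intro h2
      obtain ⟨N, hN, hLN⟩ := hs2 L hL hLA h2
      exact hLJ (f N) (Finset.mem_image.2 ⟨N, hs.mem_toFinset.2 hN, rfl⟩)
        (hLN.trans (hf N hN).1)
    push Not at h1
    obtain ⟨a, ha, hlt⟩ := h1
    exact pc_mem_of_norm_sub_le hL (IsSelfAdjoint.of_nonneg hh) ha hlt.le

end Vale.Agent.P133o
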