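import Vale.Agent.P133o.Transfer
import Vale.Agent.P133o.Split
import Vale.Agent.P133o.Cmp

/-!
# P133: passing to the unitization, part (b)
-/

set_option linter.unusedSectionVars false

namespace Vale.Agent.P133o

variable {A : Type*} [NonUnitalCStarAlgebra A]

section
variable [PartialOrder (Unitization ℂ A)] [StarOrderedRing (Unitization ℂ A)]

theorem WPIr_emb {n : ℕ} (h : ∀ a : A, IsPositiveElt a → AmplificationProperlyInfinite n a) :
    WPIr (emb A) n := by
  rintro _ ⟨a, rfl⟩ ha ε hε
  obtain ⟨X, hX⟩ := h a (posElt_of_nonneg ha) ε hε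
  refine ⟨fun i j => (X i j : Unitization ℂ A), fun i j => inr_mem_emb _, fun j k => ?_⟩
  have h1 := hX j k
  rw [← Unitization.norm_inr (𝕜 := ℂ)] at h1
  have e : (((∑ i : Fin n, star (X i j) * a * X i k) - (if j = k then a else 0) : A) :
      Unitization ℂ A) = (∑ i, star (X i j : Unitization ℂ A) * (a : Unitization ℂ A) *
        (X i k : Unitization ℂ A)) - (if j = k then (a : Unitization ℂ A) else 0) := by
    rw [Unitization.inr_sub]
    congr 1
    · have hs : ∀ f : Fin n → A, ((∑ i, f i : A) : Unitization ℂ A) =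
          ∑ i, (f i : Unitization ℂ A) :=
        fun f => map_sum (Unitization.inrNonUnitalAlgHom ℂ A) f Finset.univ
      rw [hs]
      refine Finset.sum_congr rfl fun i _ => ?_
      simp
    · split_ifs <;> simp
  rw [e] at h1
  exact h1

theorem pi_of_PIr (h : PIr (emb A)) : PurelyInfinite A := by
  intro a ha ε hε
  obtain ⟨s, ⟨s', rfl⟩, t, ⟨t', rfl⟩, h1, h2, h3⟩ := h _ (inr_mem_emb a) (nonneg_of_posElt ha)
    ε hε
  have has : star a = a := by
    obtain ⟨y, hy⟩ := ha
    rw [hy, star_mul, star_star]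
  have h3' : ‖star s' * a * t'‖ < ε := by
    rw [← Unitization.norm_inr (𝕜 := ℂ)]
    simpa using h3
  have h4 : ‖star t' * a * s'‖ < ε := by
    have e : star t' * a * s' = star (star s' * a * t') := by
      rw [star_mul, star_mul, star_star, has, mul_assoc]
    rw [e, norm_star]; exact h3'
  have h1' : ‖star s' * a * s' - a‖ < ε := by
    rw [← Unitization.norm_inr (𝕜 := ℂ)]
    simpa using h1
  have h2' : ‖star t' * a * t' - a‖ < ε := by
    rw [← Unitization.norm_inr (𝕜 := ℂ)]
    simpa using h2
  refine ⟨fun _ => ![s', t'], ?_⟩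
  intro j k
  fin_cases j <;> fin_cases k
  · simpa using h1'
  · simpa using h3'
  · simpa using h4
  · simpa using h2'

end

theorem pi_of_wpi (hT : ClosedIdealsTotallyOrdered A) (h : WeaklyPurelyInfinite A) :
    PurelyInfinite A := by
  let _ : PartialOrder (Unitization ℂ A) := CStarAlgebra.spectralOrder (Unitization ℂ A)
  have _ : StarOrderedRing (Unitization ℂ A) :=
    CStarAlgebra.spectralOrderedRing (Unitization ℂ A)
  obtain ⟨n, hn, h⟩ := h
  have hW := WPIr_emb h
  exact pi_of_PIr (pi_of_splits hn emb_isCI (TotR_emb hT) hW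
    fun a haA ha ε hε => split emb_isCI hW hn (TotR_emb hT) ha haA hε)

theorem exists_positive_root {h : A} (hh : IsPositiveElt h) :
    ∃ x : A, IsPositiveElt x ∧ x * x = h := by
  let _ : PartialOrder (Unitization ℂ A) := CStarAlgebra.spectralOrder (Unitization ℂ A)
  have _ : StarOrderedRing (Unitization ℂ A) :=
    CStarAlgebra.spectralOrderedRing (Unitization ℂ A)
  obtain ⟨r, hr, hrh⟩ := exists_sqrt (nonneg_of_posElt hh)
  have hrA : r ∈ emb A :=
    emb_isCI.hered_sqrt (IsSelfAdjoint.of_nonneg hr) (inr_mem_emb h) (le_of_eq hrh)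
  obtain ⟨y, rfl⟩ := hrA
  refine ⟨y, posElt_of_nonneg hr, ?_⟩
  apply Unitization.inr_injective (R := ℂ)
  rw [Unitization.inr_mul]
  exact hrh

theorem pi_of_spi (h : StronglyPurelyInfinite A) : PurelyInfinite A := by
  intro a ha ε hε
  obtain ⟨x, hx, rfl⟩ := exists_positive_root ha
  obtain ⟨s, t, h1, h2, h3⟩ := h x x hx hx ε hε
  have hxs : star (x * x) = x * x := by
    obtain ⟨y, hy⟩ := ha
    rw [hy, star_mul, star_star]
  refine ⟨fun _ => ![s, t], ?_⟩
  intro j k
  fin_cases j <;> fin_cases k
  · simpa using h1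
  · simpa using h3
  · have e : star t * (x * x) * s = star (star s * (x * x) * t) := by
      rw [star_mul, star_mul, star_star, hxs, mul_assoc]
    have h4 : ‖star t * (x * x) * s‖ < ε := by rw [e, norm_star]; exact h3
    simpa using h4
  · simpa using h2

end Vale.Agent.P133o
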