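import Vale.Agent.P133o.TransferB
import Vale.Agent.P133o.PartG
import Vale.Agent.P133o.SplitOne
import Vale.Agent.P133o.DefsF

/-!
# P133: passing to the unitization, finite test sets
-/

set_option linter.unusedSectionVars false

namespace Vale.Agent.P133o

open Unitization

variable {A : Type*} [NonUnitalCStarAlgebra A]

/-- the inclusion as a linear map -/
noncomputable def inrL (A : Type*) [NonUnitalCStarAlgebra A] : A →ₗ[ℂ] Unitization ℂ A :=
  (inrNonUnitalAlgHom ℂ A : A →ₗ[ℂ] Unitization ℂ A)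

theorem inrL_apply (a : A) : inrL A a = (a : Unitization ℂ A) := by
  simp [inrL]

/-- a subspace of `A` in the unitization -/
noncomputable def up (N : Submodule ℂ A) : Submodule ℂ (Unitization ℂ A) := N.map (inrL A)

theorem mem_up {N : Submodule ℂ A} {x : Unitization ℂ A} :
    x ∈ up N ↔ ∃ a ∈ N, (a : Unitization ℂ A) = x := by
  unfold up
  rw [Submodule.mem_map]
  simp only [inrL_apply]

theorem inr_mem_up {N : Submodule ℂ A} {a : A} : (a : Unitization ℂ A) ∈ up N ↔ a ∈ N := by
  rw [mem_up]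
  constructor
  · rintro ⟨b, hb, hab⟩
    rwa [← Unitization.inr_injective (R := ℂ) hab]
  · intro h; exact ⟨a, h, rfl⟩

theorem up_le (N : Submodule ℂ A) : up N ≤ emb A := by
  intro x hx
  obtain ⟨a, _, rfl⟩ := mem_up.1 hx
  exact inr_mem_emb a

theorem up_isCI {N : Submodule ℂ A} (hN : IsClosedIdeal A N) : IsCI (up N) where
  closed := by
    have : ((up N : Submodule ℂ (Unitization ℂ A)) : Set (Unitization ℂ A)) =
        (fun a : A => (a : Unitization ℂ A)) '' (N : Set A) := by
      ext x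
      simp only [SetLike.mem_coe, mem_up, Set.mem_image]
    rw [this]
    exact (Unitization.isometry_inr (𝕜 := ℂ) (A := A)).isClosedEmbedding.isClosedMap _ hN.1
  left := by
    intro m x hx
    obtain ⟨a, ha, rfl⟩ := mem_up.1 hx
    rw [mem_up]
    refine ⟨m.fst • a + m.snd * a, N.add_mem (N.smul_mem _ ha) (hN.2 m.snd a ha).1, ?_⟩
    ext
    · simp
    · simp
  right := by
    intro m x hx
    obtain ⟨a, ha, rfl⟩ := mem_up.1 hx
    rw [mem_up]
    refine ⟨m.fst • a + a * m.snd, N.add_mem (N.smul_mem _ ha) (hN.2 m.snd a ha).2, ?_⟩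
    ext
    · simp
    · simp

theorem exists_down {K : Submodule ℂ (Unitization ℂ A)} (hK : IsCI K) :
    ∃ K' : Submodule ℂ A, IsClosedIdeal A K' ∧ ∀ a : A, a ∈ K' ↔ (a : Unitization ℂ A) ∈ K := by
  have hm : ∀ a : A, a ∈ K.comap (inrL A) ↔ (a : Unitization ℂ A) ∈ K := by
    intro a
    rw [Submodule.mem_comap, inrL_apply]
  refine ⟨K.comap (inrL A), ⟨?_, ?_⟩, hm⟩
  · have : ((K.comap (inrL A) : Submodule ℂ A) : Set A) =
        (fun a : A => (a : Unitization ℂ A)) ⁻¹' (K : Set (Unitization ℂ A)) := by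
      ext a; exact hm a
    rw [this]
    exact hK.closed.preimage (Unitization.isometry_inr (𝕜 := ℂ) (A := A)).continuous
  · intro a x hx
    rw [hm] at hx
    rw [hm, hm, Unitization.inr_mul, Unitization.inr_mul]
    exact ⟨hK.left _ _ hx, hK.right _ _ hx⟩

section
variable [PartialOrder (Unitization ℂ A)] [StarOrderedRing (Unitization ℂ A)]

theorem FR_emb (hF : FiniteTests A) : FR (emb A) := by
  rintro _ ⟨h, rfl⟩ hh ε hε
  obtain ⟨m, N, hN, hI⟩ := hF h (posElt_of_nonneg hh) ε hε
  refine ⟨Set.range fun j => up (N j), Set.finite_range _, ?_, ?_⟩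
  · rintro _ ⟨j, rfl⟩
    refine ⟨up_isCI (hN j).1, up_le _, ?_⟩
    intro hm
    exact (hN j).2 (inr_mem_up.1 hm)
  · intro I hIc hIA hd
    obtain ⟨I', hI', hm⟩ := exists_down hIc
    obtain ⟨j, hj⟩ := hI I' hI' (fun x hx => by
      have h1 := hd _ ((hm x).1 hx)
      have h2 : (h : Unitization ℂ A) - (x : Unitization ℂ A) = ((h - x : A) : Unitization ℂ A) := by
        rw [Unitization.inr_sub]
      rw [h2, Unitization.norm_inr] at h1
      exact h1)
    refine ⟨up (N j), ⟨j, rfl⟩, ?_⟩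
    intro x hx
    obtain ⟨a, rfl⟩ := hIA hx
    exact inr_mem_up.2 (hj ((hm a).2 hx))

theorem SplitsOne_emb {n : ℕ} (hn : 1 ≤ n) (hW : WPIr (emb A) n) : SplitsOne (emb A) :=
  fun _ hhA hh _ hK hhK => split_one emb_isCI hW hn hK hh hhA hhK

end

theorem pi_of_wpiF (hF : FiniteTests A) (h : WeaklyPurelyInfinite A) : PurelyInfinite A := by
  let _ : PartialOrder (Unitization ℂ A) := CStarAlgebra.spectralOrder (Unitization ℂ A)
  have _ : StarOrderedRing (Unitization ℂ A) :=
    CStarAlgebra.spectralOrderedRing (Unitization ℂ A)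
  obtain ⟨n, hn, h⟩ := h
  have hW := WPIr_emb h
  exact pi_of_PIr (pi_of_halves hn emb_isCI hW
    ((FR_emb hF).halves emb_isCI (SplitsOne_emb hn hW)))

theorem spi_of_piF (hF : FiniteTests A) (h : PurelyInfinite A) : StronglyPurelyInfinite A := by
  let _ : PartialOrder (Unitization ℂ A) := CStarAlgebra.spectralOrder (Unitization ℂ A)
  have _ : StarOrderedRing (Unitization ℂ A) :=
    CStarAlgebra.spectralOrderedRing (Unitization ℂ A)
  exact SPIr_emb ((PIr_emb h).spiF emb_isCI (FR_emb hF))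

end Vale.Agent.P133o
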