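import Vale.Agent.P133o.TransferF
import Vale.Agent.P133o.JP
import Vale.Agent.P133o.DefsJ

/-!
# P133: join-prime ideals, passing to the unitization
-/

set_option linter.unusedSectionVars false

namespace Vale.Agent.P133o

open Unitization

variable {A : Type*} [NonUnitalCStarAlgebra A]

theorem joinPrimesGenerate_of_totallyOrdered (h : ClosedIdealsTotallyOrdered A) :
    JoinPrimesGenerate A := by
  intro I L hI hL hD
  refine hD I ⟨hI, fun J₁ J₂ h1 h2 hle => ?_⟩ le_rfl
  rcases h J₁ J₂ h1 h2 with h3 | h3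
  · right
    rw [sup_eq_right.2 h3] at hle
    exact hle.trans (Submodule.topologicalClosure_minimal _ le_rfl h2.1)
  · left
    rw [sup_eq_left.2 h3] at hle
    exact hle.trans (Submodule.topologicalClosure_minimal _ le_rfl h1.1)

theorem up_le_iff {N : Submodule ℂ A} {K : Submodule ℂ (Unitization ℂ A)} :
    up N ≤ K ↔ ∀ a ∈ N, (a : Unitization ℂ A) ∈ K := by
  constructor
  · intro h a ha; exact h (inr_mem_up.2 ha)
  · intro h x hx
    obtain ⟨a, ha, rfl⟩ := mem_up.1 hx
    exact h a ha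

section
variable [PartialOrder (Unitization ℂ A)] [StarOrderedRing (Unitization ℂ A)]

theorem JPr_up {D : Submodule ℂ A} (hD : JoinPrime A D) : JPr (emb A) (up D) := by
  refine ⟨up_isCI hD.1, up_le D, ?_⟩
  intro I J hI hJ hIA hJA hle
  obtain ⟨I', hI', hIm⟩ := exists_down hI
  obtain ⟨J', hJ', hJm⟩ := exists_down hJ
  have h1 : D ≤ (I' ⊔ J').topologicalClosure := by
    intro a ha
    have h2 : (a : Unitization ℂ A) ∈ closure ((I ⊔ J : Submodule ℂ (Unitization ℂ A)) :
        Set (Unitization ℂ A)) := hle (inr_mem_up.2 ha)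
    have h3 : a ∈ closure ((I' ⊔ J' : Submodule ℂ A) : Set A) := by
      rw [Metric.mem_closure_iff] at h2 ⊢
      intro δ hδ
      obtain ⟨w, hw, hd⟩ := h2 δ hδ
      obtain ⟨i, hi, j, hj, rfl⟩ := Submodule.mem_sup.1 hw
      obtain ⟨i', rfl⟩ := hIA hi
      obtain ⟨j', rfl⟩ := hJA hj
      refine ⟨i' + j', Submodule.add_mem_sup ((hIm i').2 hi) ((hJm j').2 hj), ?_⟩
      rw [dist_eq_norm] at hd ⊢
      have e : (a : Unitization ℂ A) - ((i' : Unitization ℂ A) + (j' : Unitization ℂ A)) =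
          ((a - (i' + j') : A) : Unitization ℂ A) := by
        rw [Unitization.inr_sub, Unitization.inr_add]
      simp only at hd
      rw [e, Unitization.norm_inr] at hd
      exact hd
    exact h3
  rcases hD.2 I' J' hI' hJ' h1 with h2 | h2
  · left
    exact up_le_iff.2 fun a ha => (hIm a).1 (h2 ha)
  · right
    exact up_le_iff.2 fun a ha => (hJm a).1 (h2 ha)

theorem JPG_emb (hG : JoinPrimesGenerate A) : JPG (emb A) := by
  intro I L hI hL hIA hLA hD
  obtain ⟨I', hI', hIm⟩ := exists_down hI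
  obtain ⟨L', hL', hLm⟩ := exists_down hL
  have h1 : I' ≤ L' := by
    refine hG I' L' hI' hL' fun D hDp hDI => ?_
    have h2 : up D ≤ L := hD (up D) (JPr_up hDp) (up_le_iff.2 fun a ha => (hIm a).1 (hDI ha))
    intro a ha
    exact (hLm a).2 (h2 (inr_mem_up.2 ha))
  intro x hx
  obtain ⟨a, rfl⟩ := hIA hx
  exact (hLm a).1 (h1 ((hIm a).2 hx))

theorem finiteTests_of_FR (hF : FR (emb A)) : FiniteTests A := by
  intro h hh ε hε
  obtain ⟨s, hs, hs1, hs2⟩ := hF _ (inr_mem_emb h) (nonneg_of_posElt hh) ε hε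
  obtain ⟨m, f, -, hf⟩ := hs.fin_param
  have hfs : ∀ j, f j ∈ s := fun j => by rw [← hf]; exact ⟨j, rfl⟩
  choose N hN using fun j => exists_down (hs1 (f j) (hfs j)).1
  refine ⟨m, N, fun j => ⟨(hN j).1, fun hm => (hs1 (f j) (hfs j)).2.2 (((hN j).2 h).1 hm)⟩, ?_⟩
  intro I hI hd
  obtain ⟨K, hK, hIK⟩ := hs2 (up I) (up_isCI hI) (up_le I) (by
    intro x hx
    obtain ⟨a, ha, rfl⟩ := mem_up.1 hx
    rw [← Unitization.inr_sub, Unitization.norm_inr]
    exact hd a ha)
  rw [← hf] at hK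
  obtain ⟨j, rfl⟩ := hK
  refine ⟨j, fun a ha => ((hN j).2 a).2 (hIK (inr_mem_up.2 ha))⟩

end

theorem finiteTests_of_joinPrimesGenerate (hG : JoinPrimesGenerate A) : FiniteTests A := by
  let _ : PartialOrder (Unitization ℂ A) := CStarAlgebra.spectralOrder (Unitization ℂ A)
  have _ : StarOrderedRing (Unitization ℂ A) :=
    CStarAlgebra.spectralOrderedRing (Unitization ℂ A)
  exact finiteTests_of_FR ((JPG_emb hG).FR emb_isCI)

end Vale.Agent.P133o
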